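import Vale.Agent.Lib.P064.Forest.TreeCount
import Vale.Agent.Lib.P064.BddDegree
import Vale.Agent.Lib.P064.PP.Final

/-!
P064 forests, module F20: `tilde p_E(n,H) ≤ C p_E(n,H)` and `p_c(n,H) ≤ C' p_E(n,H) log n` for every
forest `H`.
-/

open Finset SimpleGraph
open scoped Classical Nat

namespace Vale.Agent.Lib.P064.Forest

open Vale.Agent.Lib.P064

variable {V W : Type*} [Fintype V] [Fintype W]

/-- from a bound for the connected components to a bound for all graphs -/
theorem labelled_le_of_conn (n : ℕ) (H : SimpleGraph V) (hV : Fintype.card V ≤ n) (A : ℝ)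
    (hA : 0 ≤ A) (F : SimpleGraph W)
    (hconn : ∀ c : F.ConnectedComponent, 2 ≤ (compFin F c).card →
      (Nat.card (Copy c.toSimpleGraph H) : ℝ) ≤
        (n : ℝ) ^ ((compFin F c).card) * A ^ (c.toSimpleGraph.edgeSet.ncard)) :
    (H.labelledCopyCount F : ℝ)
      ≤ (n.descFactorial (Fintype.card W) : ℝ) * (A * Real.exp 2) ^ F.edgeSet.ncard := by
  by_cases hWn : Fintype.card W ≤ n
  swap
  · have h0 : H.labelledCopyCount F = 0 := by
      have := labelledCopyCount_le_descFactorial H F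
      rw [Nat.descFactorial_eq_zero_iff_lt.2 (by omega)] at this
      omega
    rw [h0]
    simp only [Nat.cast_zero]
    positivity
  have hprod : (∏ c ∈ bigComps F, (Fintype.card (Copy c.toSimpleGraph H) : ℝ))
      ≤ (n : ℝ) ^ (bigVerts F).card * A ^ F.edgeSet.ncard := by
    have h1 : (∏ c ∈ bigComps F, (Fintype.card (Copy c.toSimpleGraph H) : ℝ))
        ≤ ∏ c ∈ bigComps F, ((n : ℝ) ^ ((compFin F c).card) *
            A ^ (c.toSimpleGraph.edgeSet.ncard)) :=
      Finset.prod_le_prod (fun c _ => Nat.cast_nonneg _)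
        (fun c hc => by
          rw [← Nat.card_eq_fintype_card]
          exact hconn c (Finset.mem_filter.1 hc).2)
    refine h1.trans (le_of_eq ?_)
    rw [Finset.prod_mul_distrib, Finset.prod_pow_eq_pow_sum, Finset.prod_pow_eq_pow_sum,
      bigVerts_card, ← edges_eq_sum_bigComps]
  refine final_numeric n (Fintype.card V) (Fintype.card W) (bigVerts F).card F.edgeSet.ncard
    A (∏ c ∈ bigComps F, (Fintype.card (Copy c.toSimpleGraph H) : ℝ))
    _ hA (Finset.prod_nonneg (fun v _ => by positivity)) hV hWn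
    (Finset.card_le_univ _) (bigVerts_card_le F) ?_ hprod
  have h1 : H.labelledCopyCount F = Fintype.card (Copy F H) := by
    rw [labelledCopyCount_eq_natCard, Nat.card_eq_fintype_card]
  rw [h1, ← Nat.cast_prod, ← Nat.cast_mul]
  exact Nat.cast_le.2 (card_copy_le_prod F H)

lemma tree_count_natCard (n : ℕ) (H : SimpleGraph V)
    (hHa : H.IsAcyclic) (hV : Fintype.card V ≤ n) (q : ℝ) (hq0 : 0 ≤ q) (hq1 : q ≤ 1)
    (hH : ∀ K : H.Subgraph,
      1 ≤ ((⊤ : SimpleGraph (Fin n)).copyCount K.coe : ℝ) * q ^ K.coe.edgeSet.ncard)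
    (F : SimpleGraph W) (hF : F.Connected) (hk : 2 ≤ Nat.card W) :
    (Nat.card (Copy F H) : ℝ) ≤ (n : ℝ) ^ Nat.card W * (Lt * q) ^ F.edgeSet.ncard := by
  rw [Nat.card_eq_fintype_card] at hk ⊢
  rw [Nat.card_eq_fintype_card]
  exact tree_count n H hHa hV q hq0 hq1 hH F hF hk

lemma comp_tree_count (n : ℕ) (H : SimpleGraph V)
    (hHa : H.IsAcyclic) (hV : Fintype.card V ≤ n) (q : ℝ) (hq0 : 0 ≤ q) (hq1 : q ≤ 1)
    (hH : ∀ K : H.Subgraph,
      1 ≤ ((⊤ : SimpleGraph (Fin n)).copyCount K.coe : ℝ) * q ^ K.coe.edgeSet.ncard)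
    (F : SimpleGraph W) (c : F.ConnectedComponent) (h2 : 2 ≤ (compFin F c).card) :
    (Nat.card (Copy c.toSimpleGraph H) : ℝ) ≤ (n : ℝ) ^ ((compFin F c).card) *
          (Lt * q) ^ (c.toSimpleGraph.edgeSet.ncard) := by
  have h3 : 2 ≤ Nat.card c := by rw [natCard_comp]; exact h2
  have := tree_count_natCard n H hHa hV q hq0 hq1 hH c.toSimpleGraph c.connected_toSimpleGraph h3
  rw [natCard_comp] at this
  exact this

/-- the counting statement for forests -/
theorem forest_closed (n : ℕ) (H : SimpleGraph V) (hHa : H.IsAcyclic)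
    (hV : Fintype.card V ≤ n) (q : ℝ) (hq0 : 0 ≤ q) (hq1 : q ≤ 1)
    (hH : ∀ K : H.Subgraph,
      1 ≤ ((⊤ : SimpleGraph (Fin n)).copyCount K.coe : ℝ) * q ^ K.coe.edgeSet.ncard)
    (F : SimpleGraph W) :
    (H.copyCount F : ℝ) ≤ ((⊤ : SimpleGraph (Fin n)).copyCount F : ℝ) *
      (min 1 (Lt * Real.exp 2 * q)) ^ F.edgeSet.ncard := by
  have hLt : 0 < Lt := by
    have := Lc_pos
    unfold Lt
    positivity
  refine copyCount_le_of_labelled n H hV F _ ?_
  have h := labelled_le_of_conn n H hV (Lt * q) (by positivity) F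
    (fun c hc => comp_tree_count n H hHa hV q hq0 hq1 hH F c hc)
  have e : Lt * q * Real.exp 2 = Lt * Real.exp 2 * q := by ring
  rw [e] at h
  exact h

lemma Lt_exp_le : Lt * Real.exp 2 ≤ 257500 := by
  have he : Real.exp 1 < 2.7182818286 := Real.exp_one_lt_d9
  have he0 : 0 < Real.exp 1 := Real.exp_pos 1
  have h2 : Real.exp 2 = Real.exp 1 * Real.exp 1 := by
    rw [← Real.exp_add]; norm_num
  unfold Lt Lc
  rw [h2]
  have h3 : Real.exp 1 * Real.exp 1 ≤ 7.38905611 := by nlinarith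
  have h4 : 0 ≤ Real.exp 1 * Real.exp 1 := by positivity
  nlinarith

theorem pEtilde_le_forest (n : ℕ) (H : SimpleGraph V) (hHa : H.IsAcyclic)
    (hV : Fintype.card V ≤ n) : pEtilde n H ≤ 515000 * pE n H := by
  have hLt : 0 < Lt := by
    have := Lc_pos
    unfold Lt
    positivity
  have h1 := pEtilde_le_of_closed n H hV (Lt * Real.exp 2) (by positivity)
    (fun q hq0 hq1 hH K => forest_closed n H hHa hV q hq0 hq1 hH K.coe)
  have h2 := Lt_exp_le
  have h3 := pE_nonneg n H
  nlinarith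

theorem pc_le_forest (n : ℕ) (hn : 2 ≤ n) (H : SimpleGraph V) (hHa : H.IsAcyclic)
    (hV : Fintype.card V ≤ n) (hE : ∃ a b, H.Adj a b) :
    pc n H ≤ 72100000 * pE n H * Real.log n := by
  have h1 := PP.pc_le_tilde n hn H hV hE
  have h2 := pEtilde_le_forest n H hHa hV
  have hlog : 0 ≤ Real.log n := Real.log_natCast_nonneg n
  calc pc n H ≤ 140 * Real.log n * pEtilde n H := h1
    _ ≤ 140 * Real.log n * (515000 * pE n H) :=
        mul_le_mul_of_nonneg_left h2 (by positivity)
    _ = 72100000 * pE n H * Real.log n := by ring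

end Vale.Agent.Lib.P064.Forest
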