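import Vale.Agent.Lib.P064.Forest.Pattern

/-!
P064 forests, module F16 (counting admissible maps of a labelled pattern).

ROUTE.  `Adm_congr`: `Adm h u y g` depends only on the values of `g` on `Desc h u` (induction).
`card_adm_le` by induction on `h`.  `h = 0`: `g` is determined (`g u = y`, `g = v0` elsewhere), so
the card is `≤ 1`.  Step: let `𝒜 h u y` be the filter set.  Map `g ∈ 𝒜 (h+1) u y` to the pair
`⟨σ_g, fun u' => r u' g⟩` where `σ_g : {u' // u' ∈ chF u} ↪ V` is the restriction of `g`
(injective by `InjOn`) and `r u' g = fun z => if z ∈ Desc h u' then g z else v0`, which lies in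
`𝒜 h u' (g u')` by `Adm_congr`.  The map is injective because
`Desc (h+1) u = insert u (⋃ Desc h u')`.  So the card is at most the card of
`(univ.filter (fun σ => ∀ i, σ i ∈ chH y)).sigma (fun σ => Fintype.piFinset (fun i => 𝒜 h i (σ i)))`
(`Finset.card_le_card_of_injOn`, `Finset.card_sigma`, `Fintype.card_piFinset`), then use the
induction hypothesis in each factor (`Finset.prod_le_prod`) and `Finset.sum_filter`.
-/

open Finset
open scoped Classical Nat

namespace Vale.Agent.Lib.P064.Forest

/-- `g` maps the tree hanging at `u` (truncated at depth `h`) downward to `y`, injectively on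
every set of siblings -/
def Adm {W V : Type*} (chF : W → Finset W) (chH : V → Finset V) : ℕ → W → V → (W → V) → Prop
  | 0, u, y, g => g u = y
  | h + 1, u, y, g => g u = y ∧ Set.InjOn g (chF u : Set W) ∧
      ∀ u' ∈ chF u, g u' ∈ chH y ∧ Adm chF chH h u' (g u') g

/-- descendants of `u` down to depth `h` -/
noncomputable def Desc {W : Type*} (ch : W → Finset W) : ℕ → W → Finset W
  | 0, u => {u}
  | h + 1, u => insert u ((ch u).biUnion (Desc ch h))

lemma self_mem_Desc {W : Type*} (ch : W → Finset W) (h : ℕ) (u : W) : u ∈ Desc ch h u := by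
  cases h with
  | zero => exact Finset.mem_singleton_self u
  | succ h => exact Finset.mem_insert_self _ _

lemma Desc_child_subset {W : Type*} (ch : W → Finset W) (h : ℕ) (u u' : W) (hu' : u' ∈ ch u)
    (z : W) (hz : z ∈ Desc ch h u') : z ∈ Desc ch (h + 1) u :=
  Finset.mem_insert_of_mem (Finset.mem_biUnion.2 ⟨u', hu', hz⟩)

lemma mem_Desc_succ {W : Type*} (ch : W → Finset W) (h : ℕ) (u z : W) :
    z ∈ Desc ch (h + 1) u ↔ z = u ∨ ∃ u' ∈ ch u, z ∈ Desc ch h u' := by
  show z ∈ insert u ((ch u).biUnion (Desc ch h)) ↔ _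
  rw [Finset.mem_insert, Finset.mem_biUnion]

lemma Adm_congr {W V : Type*} (chF : W → Finset W) (chH : V → Finset V) :
    ∀ (h : ℕ) (u : W) (y : V) (g g' : W → V), (∀ z ∈ Desc chF h u, g z = g' z) →
      Adm chF chH h u y g → Adm chF chH h u y g' := by
  intro h
  induction h with
  | zero =>
    intro u y g g' hgg hA
    have h1 := hgg u (self_mem_Desc chF 0 u)
    show g' u = y
    rw [← h1]
    exact hA
  | succ h ih =>
    intro u y g g' hgg hA
    obtain ⟨h1, h2, h3⟩ := hA
    have hu : g u = g' u := hgg u (self_mem_Desc chF (h + 1) u)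
    have hch : ∀ u' ∈ chF u, g u' = g' u' := fun u' hu' =>
      hgg u' (Desc_child_subset chF h u u' hu' u' (self_mem_Desc chF h u'))
    refine ⟨hu ▸ h1, ?_, ?_⟩
    · intro a ha b hb hab
      apply h2 ha hb
      rw [hch a ha, hch b hb]
      exact hab
    · intro u' hu'
      obtain ⟨h4, h5⟩ := h3 u' hu'
      rw [← hch u' hu']
      exact ⟨h4, ih u' _ g g' (fun z hz => hgg z (Desc_child_subset chF h u u' hu' z hz)) h5⟩

theorem card_adm_le {W V : Type*} [Fintype W] [DecidableEq W] [Fintype V] [DecidableEq V]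
    (chF : W → Finset W) (chH : V → Finset V) (v0 : V) : ∀ (h : ℕ) (u : W) (y : V),
    ((univ.filter (fun g : W → V => Adm chF chH h u y g ∧ ∀ z, z ∉ Desc chF h u → g z = v0)).card
      : ℝ) ≤ DF chF chH h u y := by
  intro h
  induction h with
  | zero =>
    intro u y
    show _ ≤ (1 : ℝ)
    have : (univ.filter (fun g : W → V => Adm chF chH 0 u y g ∧
        ∀ z, z ∉ Desc chF 0 u → g z = v0)).card ≤ 1 := by
      rw [Finset.card_le_one]
      intro g hg g' hg'
      obtain ⟨h1, h2⟩ := (Finset.mem_filter.1 hg).2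
      obtain ⟨h1', h2'⟩ := (Finset.mem_filter.1 hg').2
      funext z
      by_cases hz : z = u
      · subst hz
        exact (show g z = y from h1).trans (show g' z = y from h1').symm
      · have hz' : z ∉ Desc chF 0 u := by
          intro hmem
          exact hz (Finset.mem_singleton.1 hmem)
        rw [h2 z hz', h2' z hz']
    exact_mod_cast this
  | succ h ih =>
    intro u y
    set 𝒜 : W → V → Finset (W → V) := fun u y =>
      univ.filter (fun g : W → V => Adm chF chH h u y g ∧ ∀ z, z ∉ Desc chF h u → g z = v0)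
      with h𝒜
    set A' := univ.filter (fun g : W → V => Adm chF chH (h + 1) u y g ∧
        ∀ z, z ∉ Desc chF (h + 1) u → g z = v0) with hA'
    set Sg : Finset (Σ _ : {u' // u' ∈ chF u} ↪ V, ({u' // u' ∈ chF u} → (W → V))) :=
      (univ.filter (fun σ : {u' // u' ∈ chF u} ↪ V => ∀ i, σ i ∈ chH y)).sigma
        (fun σ => Fintype.piFinset (fun i => 𝒜 i.1 (σ i))) with hSg
    have hcard : A'.card ≤ Sg.card := by
      rw [← Fintype.card_coe A', ← Fintype.card_coe Sg]
      refine Fintype.card_le_of_injective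
        (fun g : {g // g ∈ A'} => (⟨⟨⟨fun i => g.1 i.1, fun a b hab =>
            Subtype.ext ((Finset.mem_filter.1 g.2).2.1.2.1 a.2 b.2 hab)⟩,
          fun i z => if z ∈ Desc chF h i.1 then g.1 z else v0⟩, ?_⟩ : {p // p ∈ Sg})) ?_
      · obtain ⟨⟨h1, h2, h3⟩, h4⟩ := (Finset.mem_filter.1 g.2).2
        rw [hSg, Finset.mem_sigma]
        refine ⟨Finset.mem_filter.2 ⟨Finset.mem_univ _, fun i => (h3 i.1 i.2).1⟩, ?_⟩
        rw [Fintype.mem_piFinset]
        intro i
        refine Finset.mem_filter.2 ⟨Finset.mem_univ _, ?_, ?_⟩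
        · refine Adm_congr chF chH h i.1 _ g.1 _ ?_ (h3 i.1 i.2).2
          intro z hz
          exact (if_pos hz).symm
        · intro z hz
          exact if_neg hz
      · intro g g' hgg
        have hgg' := congrArg Subtype.val hgg
        simp only [Sigma.mk.injEq, heq_eq_eq] at hgg'
        obtain ⟨-, hG⟩ := hgg'
        obtain ⟨⟨h1, h2, h3⟩, h4⟩ := (Finset.mem_filter.1 g.2).2
        obtain ⟨⟨h1', h2', h3'⟩, h4'⟩ := (Finset.mem_filter.1 g'.2).2
        apply Subtype.ext
        funext z
        by_cases hz : z ∈ Desc chF (h + 1) u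
        · rcases (mem_Desc_succ chF h u z).1 hz with rfl | ⟨u', hu', hzu⟩
          · exact h1.trans h1'.symm
          · have := congrFun (congrFun hG ⟨u', hu'⟩) z
            simpa [hzu] using this
        · rw [h4 z hz, h4' z hz]
    have hsum : (Sg.card : ℝ) = ∑ σ ∈ univ.filter
        (fun σ : {u' // u' ∈ chF u} ↪ V => ∀ i, σ i ∈ chH y), ∏ i, ((𝒜 i.1 (σ i)).card : ℝ) := by
      rw [hSg, Finset.card_sigma]
      push_cast
      refine Finset.sum_congr rfl (fun σ _ => ?_)
      rw [Fintype.card_piFinset]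
      push_cast
      rfl
    calc (A'.card : ℝ) ≤ (Sg.card : ℝ) := by exact_mod_cast hcard
      _ = ∑ σ ∈ univ.filter (fun σ : {u' // u' ∈ chF u} ↪ V => ∀ i, σ i ∈ chH y),
            ∏ i, ((𝒜 i.1 (σ i)).card : ℝ) := hsum
      _ ≤ ∑ σ ∈ univ.filter (fun σ : {u' // u' ∈ chF u} ↪ V => ∀ i, σ i ∈ chH y),
            ∏ i, DF chF chH h i.1 (σ i) := by
          refine Finset.sum_le_sum (fun σ _ => ?_)
          exact Finset.prod_le_prod (fun i _ => Nat.cast_nonneg _) (fun i _ => ih i.1 (σ i))
      _ = DF chF chH (h + 1) u y := by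
          rw [Finset.sum_filter]
          rfl

end Vale.Agent.Lib.P064.Forest
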