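import Vale.Agent.Lib.P064.Forest.Defs

/-!
P064 forests, module F7 (the number of plane forms is at most `4 ^ size / 2`).

ROUTE.  Put `u h κ = P h κ / 4 ^ size h κ`.  Prove `kraft` by induction on `h`.
`h = 0`: `S ⊆ {()}` and `u = 1/4`.
Step: for `Φ : Multiset (RT h)`, `u (h+1) Φ = (1/4) * mult Φ * (Φ.map (u h)).prod`.  Given a finite
`S' ⊆ RT (h+1)` let `S = S'.biUnion Multiset.toFinset` and `M` a bound for the cards.  Every
`Φ ∈ S'` is (the value of) an element of `S.sym (card Φ)`, and by the multinomial theorem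
(`Finset.sum_pow` / `Finset.sum_pow_of_commute`, with `Multiset.countPerms` or whatever the
coefficient is called; `mult Φ` is that coefficient, by `Nat.multinomial_spec`)
`∑ Φ ∈ S' with card t, mult Φ * (Φ.map (u h)).prod ≤ (∑ κ ∈ S, u h κ) ^ t ≤ (1/2) ^ t`.
Summing the geometric series, `∑ Φ ∈ S', u (h+1) Φ ≤ (1/4) * 2 = 1/2`.
`P_le` is `kraft` for `S = {Φ}`.
-/

open Finset
open scoped Classical Nat

namespace Vale.Agent.Lib.P064.Forest

lemma cat_mult_eq {α : Type*} [DecidableEq α] (Φ : Multiset α) :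
    mult Φ = (Φ.countPerms : ℝ) := by
  unfold mult Multiset.countPerms
  rw [Finsupp.multinomial_eq]
  have h := Nat.multinomial_spec (s := Φ.toFinsupp.support) (f := Φ.toFinsupp)
  rw [Multiset.toFinsupp_support] at h ⊢
  simp only [Multiset.toFinsupp_apply] at h
  rw [Multiset.toFinset_sum_count_eq] at h
  have h2 : ((∏ b ∈ Φ.toFinset, (Φ.count b)! : ℕ) : ℝ) *
      (Nat.multinomial Φ.toFinset (Φ.toFinsupp) : ℝ) = ((Multiset.card Φ)! : ℝ) := by
    exact_mod_cast h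
  have h3 : (0 : ℝ) < ((∏ b ∈ Φ.toFinset, (Φ.count b)! : ℕ) : ℝ) := by
    exact_mod_cast Finset.prod_pos (fun b _ => Nat.factorial_pos _)
  rw [← h2]
  push_cast at h3 ⊢
  field_simp

lemma cat_level {α : Type*} [DecidableEq α] (u : α → ℝ) (hu0 : ∀ κ, 0 ≤ u κ)
    (S : Finset α) (S' : Finset (Multiset α)) (hS : ∀ Φ ∈ S', ∀ κ ∈ Φ, κ ∈ S) (t : ℕ)
    (ht : ∀ Φ ∈ S', Multiset.card Φ = t) :
    ∑ Φ ∈ S', mult Φ * (Φ.map u).prod ≤ (∑ κ ∈ S, u κ) ^ t := by
  have key : (∑ κ ∈ S, u κ) ^ t =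
      ∑ k ∈ S.sym t, mult (k : Multiset α) * ((k : Multiset α).map u).prod := by
    rw [Finset.sum_pow]
    apply Finset.sum_congr rfl
    intro k _
    rw [cat_mult_eq]
    rfl
  have h1 : ∑ k ∈ S.sym t, mult (k : Multiset α) * ((k : Multiset α).map u).prod =
      ∑ Φ ∈ (S.sym t).image (fun k : Sym α t => (k : Multiset α)),
        mult Φ * (Φ.map u).prod := by
    rw [Finset.sum_image (fun a _ b _ h => Sym.coe_injective h)]
  rw [key, h1]
  apply Finset.sum_le_sum_of_subset_of_nonneg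
  · intro Φ hΦ
    refine Finset.mem_image.mpr ⟨Sym.mk Φ (ht Φ hΦ), ?_, rfl⟩
    rw [Finset.mem_sym_iff]
    intro a ha
    exact hS Φ hΦ a ha
  · intro Φ _ _
    rw [cat_mult_eq]
    apply mul_nonneg (Nat.cast_nonneg _)
    apply Multiset.prod_nonneg
    intro a ha
    obtain ⟨κ, _, rfl⟩ := Multiset.mem_map.mp ha
    exact hu0 κ

lemma cat_sum {α : Type*} [DecidableEq α] (u : α → ℝ) (hu0 : ∀ κ, 0 ≤ u κ)
    (hu : ∀ S : Finset α, ∑ κ ∈ S, u κ ≤ 1 / 2) (S' : Finset (Multiset α)) :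
    ∑ Φ ∈ S', mult Φ * (Φ.map u).prod ≤ 2 := by
  set S := S'.biUnion Multiset.toFinset with hS
  set M := S'.sup (fun Φ => Multiset.card Φ) with hM
  have hmaps : ∀ Φ ∈ S', Multiset.card Φ ∈ range (M + 1) := by
    intro Φ hΦ
    rw [Finset.mem_range]
    exact Nat.lt_succ_of_le (Finset.le_sup (f := fun Φ => Multiset.card Φ) hΦ)
  rw [← Finset.sum_fiberwise_of_maps_to hmaps]
  have h1 : ∀ t ∈ range (M + 1),
      ∑ Φ ∈ S'.filter (fun Φ => Multiset.card Φ = t), mult Φ * (Φ.map u).prod ≤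
        (1 / 2 : ℝ) ^ t := by
    intro t _
    refine (cat_level u hu0 S _ ?_ t ?_).trans ?_
    · intro Φ hΦ κ hκ
      rw [hS, Finset.mem_biUnion]
      exact ⟨Φ, (Finset.mem_filter.mp hΦ).1, Multiset.mem_toFinset.mpr hκ⟩
    · intro Φ hΦ
      exact (Finset.mem_filter.mp hΦ).2
    · exact pow_le_pow_left₀ (Finset.sum_nonneg (fun κ _ => hu0 κ)) (hu S) t
  exact (Finset.sum_le_sum h1).trans (sum_geometric_two_le _)

lemma cat_P_succ (h : ℕ) (Φ : Multiset (RT h)) :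
    P (h + 1) Φ = mult Φ * (Multiset.map (P h) Φ).prod := rfl

lemma cat_size_succ (h : ℕ) (Φ : Multiset (RT h)) :
    size (h + 1) Φ = 1 + (Multiset.map (size h) Φ).sum := rfl

lemma cat_P_nonneg_succ (h : ℕ) (ih : ∀ κ : RT h, 0 ≤ P h κ) (Φ : Multiset (RT h)) :
    0 ≤ P (h + 1) Φ := by
  rw [cat_P_succ, cat_mult_eq]
  apply mul_nonneg (Nat.cast_nonneg _)
  apply Multiset.prod_nonneg
  intro a ha
  obtain ⟨κ, _, rfl⟩ := Multiset.mem_map.mp ha
  exact ih κ

lemma cat_P_nonneg : ∀ (h : ℕ) (κ : RT h), 0 ≤ P h κ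
  | 0, _ => by simp [P]
  | h + 1, Φ => cat_P_nonneg_succ h (cat_P_nonneg h) Φ

lemma cat_prod_div {α : Type*} (p : α → ℝ) (s : α → ℕ) (Φ : Multiset α) :
    (Φ.map p).prod / 4 ^ (Φ.map s).sum = (Φ.map (fun κ => p κ / 4 ^ s κ)).prod := by
  induction Φ using Multiset.induction_on with
  | empty => simp
  | cons a Φ ih =>
    simp only [Multiset.map_cons, Multiset.prod_cons, Multiset.sum_cons]
    rw [← ih, pow_add]
    field_simp

lemma cat_kraft_succ (h : ℕ) (ih : ∀ S : Finset (RT h), ∑ κ ∈ S, P h κ / 4 ^ size h κ ≤ 1 / 2)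
    (S : Finset (Multiset (RT h))) :
    ∑ Φ ∈ S, P (h + 1) Φ / 4 ^ size (h + 1) Φ ≤ 1 / 2 := by
  have h1 : ∀ Φ ∈ S, P (h + 1) Φ / 4 ^ size (h + 1) Φ =
      (1 / 4 : ℝ) * (mult Φ * (Multiset.map (fun κ => P h κ / 4 ^ size h κ) Φ).prod) := by
    intro Φ _
    rw [cat_P_succ, cat_size_succ, ← cat_prod_div, pow_add]
    field_simp
  rw [Finset.sum_congr rfl h1, ← Finset.mul_sum]
  have h2 := cat_sum (α := RT h) (fun κ => P h κ / 4 ^ size h κ)
    (fun κ => div_nonneg (cat_P_nonneg h κ) (by positivity)) ih S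
  linarith

theorem kraft : ∀ (h : ℕ) (S : Finset (RT h)), ∑ κ ∈ S, P h κ / 4 ^ size h κ ≤ 1 / 2 := by
  intro h
  induction h with
  | zero =>
    intro S
    have h1 : ∀ κ ∈ S, P 0 κ / 4 ^ size 0 κ = 1 / 4 := by
      intro κ _
      simp [P, size]
    rw [Finset.sum_congr rfl h1, Finset.sum_const, nsmul_eq_mul]
    have h2 : S.card ≤ 1 := by
      have : Subsingleton (RT 0) := inferInstanceAs (Subsingleton Unit)
      exact Finset.card_le_one_of_subsingleton S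
    have h3 : (S.card : ℝ) ≤ 1 := by exact_mod_cast h2
    linarith
  | succ h ih =>
    intro S
    exact cat_kraft_succ h ih S

theorem P_le (h : ℕ) (Φ : RT h) : P h Φ ≤ 4 ^ size h Φ / 2 := by
  have h1 := kraft h {Φ}
  rw [Finset.sum_singleton, div_le_iff₀ (by positivity)] at h1
  linarith

end Vale.Agent.Lib.P064.Forest
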