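import Vale.Agent.Lib.P064.Forest.Defs

/-!
P064 forests, module F8 (every forest has a rooting, with a prescribed root `r`).

ROUTE.  `root v := if G.Reachable r v then r else (G.connectedComponentMk v).out` (so
`G.Reachable (root v) v`, and adjacent vertices have the same root), `d v := G.dist (root v) v`,
`par v := if h : ∃ z, G.Adj z v ∧ d v = d z + 1 then h.choose else v`.
Useful Mathlib lemmas (Mathlib/Combinatorics/SimpleGraph/Acyclic.lean):
`IsAcyclic.dist_ne_of_adj`, `IsAcyclic.dist_eq_dist_add_one_of_adj_of_reachable`,
`IsAcyclic.path_unique`, `IsAcyclic.eq_penultimate_of_adj_end`, `IsAcyclic.path_concat`;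
`Reachable.exists_path_of_dist`, `Walk.IsPath.length_lt`.
Uniqueness of the parent: if `z, x` are both adjacent to `y` with `d y = d z + 1 = d x + 1`, the
shortest paths from the root to `z` and to `x`, each extended by `y`, are two paths from the root
to `y`, hence equal, hence `z = x`.
-/

open Finset
open scoped Classical Nat

namespace Vale.Agent.Lib.P064.Forest

/-- in a forest, a neighbour `z` of `y` closer to `ρ` is the penultimate vertex of any path -/
lemma root_eq_penultimate {V : Type*} (G : SimpleGraph V) (hG : G.IsAcyclic) {ρ y z : V}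
    (P : G.Walk ρ y) (hP : P.IsPath) (hz : G.Adj z y) (hr : G.Reachable ρ z)
    (hd : G.dist ρ y = G.dist ρ z + 1) : z = P.penultimate := by
  obtain ⟨q, hq, hq'⟩ := hr.exists_path_of_dist
  have hy : y ∉ q.support := by
    intro hy
    have h1 : G.dist ρ y ≤ (q.takeUntil y hy).length := SimpleGraph.dist_le _
    have h2 : (q.takeUntil y hy).length ≤ q.length := q.length_takeUntil_le_length hy
    omega
  have hzP : z ∈ P.support :=
    hG.mem_support_of_ne_mem_support_of_adj_of_isPath hP hq hz.symm hy
  exact hG.eq_penultimate_of_adj_end hP hz.symm hzP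

lemma root_parent_unique {V : Type*} (G : SimpleGraph V) (hG : G.IsAcyclic) {ρ y z x : V}
    (hz : G.Adj z y) (hx : G.Adj x y) (hr : G.Reachable ρ y)
    (hdz : G.dist ρ y = G.dist ρ z + 1) (hdx : G.dist ρ y = G.dist ρ x + 1) : z = x := by
  obtain ⟨P, hP, _⟩ := hr.exists_path_of_dist
  rw [root_eq_penultimate G hG P hP hz (hr.trans hz.symm.reachable) hdz,
    root_eq_penultimate G hG P hP hx (hr.trans hx.symm.reachable) hdx]

lemma root_exists_parent {V : Type*} (G : SimpleGraph V) {ρ v : V}
    (hr : G.Reachable ρ v) (hne : v ≠ ρ) :
    ∃ z, G.Adj z v ∧ G.dist ρ v = G.dist ρ z + 1 := by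
  obtain ⟨p, hp⟩ := hr.exists_walk_length_eq_dist
  have hpos : 0 < G.dist ρ v := hr.pos_dist_of_ne (Ne.symm hne)
  have hnil : ¬ p.Nil := by
    intro h
    exact hne h.eq.symm
  refine ⟨p.penultimate, p.adj_penultimate hnil, ?_⟩
  have h1 : G.dist ρ p.penultimate ≤ p.dropLast.length := SimpleGraph.dist_le _
  rw [p.length_dropLast] at h1
  have h2 : G.dist ρ v ≤ G.dist ρ p.penultimate + G.dist p.penultimate v :=
    (p.adj_penultimate hnil).reachable.dist_triangle_right ρ
  have h3 : G.dist p.penultimate v = 1 := SimpleGraph.dist_eq_one_iff_adj.mpr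
    (p.adj_penultimate hnil)
  omega

theorem exists_rooting {V : Type*} [Fintype V] (G : SimpleGraph V) (hG : G.IsAcyclic) (r : V) :
    ∃ R : Rooting G, R.d r = 0 ∧ ∀ v, G.Reachable r v →
      (v = r ∨ R.d v = R.d (R.par v) + 1) ∧ R.d v < Fintype.card V := by
  set root : V → V := fun v => if G.Reachable r v then r else (G.connectedComponentMk v).out
    with hroot
  have hroot_reach : ∀ v, G.Reachable (root v) v := by
    intro v
    simp only [hroot]
    split_ifs with h
    · exact h
    · exact SimpleGraph.ConnectedComponent.exact (Quot.out_eq (G.connectedComponentMk v))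
  have hroot_adj : ∀ x y, G.Adj x y → root x = root y := by
    intro x y hxy
    simp only [hroot]
    have h1 : G.Reachable r x ↔ G.Reachable r y :=
      ⟨fun h => h.trans hxy.reachable, fun h => h.trans hxy.symm.reachable⟩
    have h2 : G.connectedComponentMk x = G.connectedComponentMk y :=
      SimpleGraph.ConnectedComponent.sound hxy.reachable
    simp only [h1, h2]
  set d : V → ℕ := fun v => G.dist (root v) v with hd
  set par : V → V := fun v => if h : ∃ z, G.Adj z v ∧ d v = d z + 1 then h.choose else v
    with hpar
  have hpar_spec : ∀ v, (∃ z, G.Adj z v ∧ d v = d z + 1) →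
      G.Adj (par v) v ∧ d v = d (par v) + 1 := by
    intro v h
    simp only [hpar]
    rw [dif_pos h]
    exact h.choose_spec
  have hpar_eq : ∀ x y, G.Adj x y → d y = d x + 1 → par y = x := by
    intro x y hxy hdxy
    obtain ⟨h1, h2⟩ := hpar_spec y ⟨x, hxy, hdxy⟩
    have e1 : root (par y) = root y := hroot_adj _ _ h1
    have e2 : root x = root y := hroot_adj _ _ hxy
    apply root_parent_unique G hG h1 hxy (hroot_reach y)
    · have := h2
      simp only [hd] at this
      rw [e1] at this
      exact this
    · have := hdxy
      simp only [hd] at this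
      rw [e2] at this
      exact this
  have hadj_of : ∀ x y, par y = x → d y = d x + 1 → G.Adj x y := by
    intro x y h1 h2
    by_cases h : ∃ z, G.Adj z y ∧ d y = d z + 1
    · rw [← h1]
      exact (hpar_spec y h).1
    · have : par y = y := by
        simp only [hpar]
        rw [dif_neg h]
      rw [this] at h1
      subst h1
      omega
  refine ⟨⟨par, d, ?_⟩, ?_, ?_⟩
  · intro x y
    constructor
    · intro hxy
      have e : root x = root y := hroot_adj _ _ hxy
      have h1 := hG.dist_eq_dist_add_one_of_adj_of_reachable (root x) hxy (hroot_reach x)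
      rcases h1 with h1 | h1
      · right
        have h2 : d x = d y + 1 := by
          simp only [hd]
          rw [← e]
          exact h1
        exact ⟨hpar_eq y x hxy.symm h2, h2⟩
      · left
        have h2 : d y = d x + 1 := by
          simp only [hd]
          rw [← e]
          exact h1
        exact ⟨hpar_eq x y hxy h2, h2⟩
    · rintro (⟨h1, h2⟩ | ⟨h1, h2⟩)
      · exact hadj_of x y h1 h2
      · exact (hadj_of y x h1 h2).symm
  · have : root r = r := by
      simp only [hroot]
      rw [if_pos (SimpleGraph.Reachable.refl r)]
    show G.dist (root r) r = 0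
    rw [this]
    exact SimpleGraph.dist_self
  · intro v hv
    have hrv : root v = r := by
      simp only [hroot]
      rw [if_pos hv]
    constructor
    · by_cases hne : v = r
      · left
        exact hne
      · right
        obtain ⟨z, hz1, hz2⟩ := root_exists_parent G hv hne
        have hrz : root z = r := by
          rw [hroot_adj z v hz1]
          exact hrv
        have h3 : d v = d z + 1 := by
          simp only [hd]
          rw [hrv, hrz]
          exact hz2
        exact (hpar_spec v ⟨z, hz1, h3⟩).2
    · show G.dist (root v) v < Fintype.card V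
      rw [hrv]
      obtain ⟨p, hp, hp'⟩ := hv.exists_path_of_dist
      rw [← hp']
      exact hp.length_lt

end Vale.Agent.Lib.P064.Forest
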