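import Vale.Agent.Lib.P064.Forest.Full
import Vale.Agent.Lib.P064.Forest.Rooting

/-!
P064 forests, module F18 (copies of a tree in a rooted forest are downward from their top vertex).

ROUTE.  `copy_down`: choose `r` minimising `RH.d (f r)` (`Finset.exists_min_image`).  Prove
`∀ u, ∀ u' ∈ (RF r).ch u, f u' ∈ RH.ch (f u)` by strong induction on `(RF r).d u`.
`u' ∈ ch u` gives `F.Adj u u'` (`adj_iff`), so `H.Adj (f u) (f u')`, so by `RH.adj_iff` either the
claim holds or `RH.par (f u) = f u' ∧ RH.d (f u) = RH.d (f u') + 1`.  In the second case: if `u = r`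
this contradicts minimality; otherwise `u ∈ (RF r).ch (par u)` by `hRF`, by induction
`RH.par (f u) = f (par u)`, so `u' = par u` by injectivity, contradicting the depths.
`adm_of_down`: induction on `h`, generalising `u`.
`card_copy_le`: choose rootings `RF r` of `F` by `exists_rooting F hFa r` (all vertices are
reachable, `hF`), `Φ r = ftyp (RF r).ch (card W) r`, `size_ftyp`.  The map
`f ↦ ⟨r_f, f r_f, ⇑f⟩` is injective from `Copy F H` into the sigma-type/`Finset.sigma` of the sets
`{g | Adm ... (card W) r x g ∧ ∀ z ∉ Desc .., g z = v0}` (the last condition is void by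
`desc_eq_univ`; `v0` is any vertex, e.g. `f r`; if `V` is empty there are no copies since `W` is
nonempty).  Then `card_adm_le` and `DF_eq_D`.
-/

open Finset SimpleGraph
open scoped Classical Nat

namespace Vale.Agent.Lib.P064.Forest

variable {W V : Type*} [Fintype W] [DecidableEq W] [Fintype V] [DecidableEq V]

theorem copy_down (F : SimpleGraph W) [Nonempty W] (H : SimpleGraph V) (RH : Rooting H)
    (RF : W → Rooting F)
    (hRF : ∀ r v, v = r ∨ (RF r).d v = (RF r).d ((RF r).par v) + 1) (f : Copy F H) :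
    ∃ r, ∀ u, ∀ u' ∈ (RF r).ch u, f u' ∈ RH.ch (f u) := by
  obtain ⟨r, -, hr⟩ := Finset.exists_min_image (univ : Finset W) (fun r => RH.d (f r))
    Finset.univ_nonempty
  refine ⟨r, ?_⟩
  have key : ∀ (k : ℕ) (u : W), (RF r).d u = k → ∀ u' ∈ (RF r).ch u, f u' ∈ RH.ch (f u) := by
    intro k
    induction k using Nat.strong_induction_on with
    | _ k ih =>
      intro u hu u' hu'
      have hu'2 : (RF r).par u' = u ∧ (RF r).d u' = (RF r).d u + 1 := by
        simpa [Rooting.ch] using hu'
      have hadj : F.Adj u u' := ((RF r).adj_iff u u').mpr (Or.inl hu'2)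
      have hadj2 : H.Adj (f u) (f u') := f.toHom.map_adj hadj
      rcases (RH.adj_iff (f u) (f u')).mp hadj2 with h1 | h1
      · simpa [Rooting.ch] using h1
      · exfalso
        rcases hRF r u with rfl | h2
        · have := hr u' (Finset.mem_univ _)
          omega
        · have h3 : u ∈ (RF r).ch ((RF r).par u) := by
            simp [Rooting.ch, h2]
          have h4 := ih ((RF r).d ((RF r).par u)) (by omega) ((RF r).par u) rfl u h3
          have h5 : RH.par (f u) = f ((RF r).par u) ∧ RH.d (f u) = RH.d (f ((RF r).par u)) + 1 := by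
            simpa [Rooting.ch] using h4
          have h6 : f u' = f ((RF r).par u) := by rw [← h1.1, h5.1]
          have h7 : u' = (RF r).par u := f.injective h6
          rw [h7] at hu'2
          omega
  intro u
  exact key _ u rfl

theorem adm_of_down (chF : W → Finset W) (chH : V → Finset V) (g : W → V)
    (hinj : Function.Injective g) (hg : ∀ u, ∀ u' ∈ chF u, g u' ∈ chH (g u)) :
    ∀ (h : ℕ) (u : W), Adm chF chH h u (g u) g := by
  intro h
  induction h with
  | zero => intro u; exact rfl
  | succ h ih =>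
    intro u
    exact ⟨rfl, hinj.injOn, fun u' hu' => ⟨hg u u' hu', ih u'⟩⟩

theorem card_copy_le (F : SimpleGraph W) (hF : F.Connected) (hFa : F.IsAcyclic)
    (H : SimpleGraph V) (RH : Rooting H) :
    ∃ Φ : W → RT (Fintype.card W), (∀ r, size _ (Φ r) = Fintype.card W) ∧
      (Fintype.card (Copy F H) : ℝ) ≤ ∑ r : W, ∑ x : V, D RH.ch (Fintype.card W) (Φ r) x := by
  haveI : Nonempty W := hF.nonempty
  have hex : ∀ r : W, ∃ R : Rooting F, R.d r = 0 ∧ ∀ v,
      (v = r ∨ R.d v = R.d (R.par v) + 1) ∧ R.d v < Fintype.card W := by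
    intro r
    obtain ⟨R, h0, hR⟩ := exists_rooting F hFa r
    exact ⟨R, h0, fun v => hR v (hF.preconnected r v)⟩
  choose RF h0 hR using hex
  refine ⟨fun r => ftyp (RF r).ch (Fintype.card W) r, fun r => size_ftyp (RF r) r (h0 r) (hR r), ?_⟩
  rcases isEmpty_or_nonempty V with hV | ⟨⟨v0⟩⟩
  · have : IsEmpty (Copy F H) := ⟨fun f => hV.elim (f (Classical.arbitrary W))⟩
    simp
  -- main counting
  have h1 : ∀ f : Copy F H, (1 : ℝ) ≤ ∑ r : W, ∑ x : V,
      (if Adm (RF r).ch RH.ch (Fintype.card W) r x f then (1 : ℝ) else 0) := by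
    intro f
    obtain ⟨r, hr⟩ := copy_down F H RH RF (fun r v => (hR r v).1) f
    have hadm := adm_of_down (RF r).ch RH.ch f f.injective hr (Fintype.card W) r
    calc (1 : ℝ) = (if Adm (RF r).ch RH.ch (Fintype.card W) r (f r) f then (1 : ℝ) else 0) := by
          rw [if_pos hadm]
      _ ≤ ∑ x : V, (if Adm (RF r).ch RH.ch (Fintype.card W) r x f then (1 : ℝ) else 0) :=
          Finset.single_le_sum (f := fun x : V =>
            (if Adm (RF r).ch RH.ch (Fintype.card W) r x f then (1 : ℝ) else 0))
            (fun x _ => by positivity) (Finset.mem_univ (f r))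
      _ ≤ _ := Finset.single_le_sum (f := fun r : W => ∑ x : V,
            (if Adm (RF r).ch RH.ch (Fintype.card W) r x f then (1 : ℝ) else 0))
            (fun r _ => Finset.sum_nonneg (fun x _ => by positivity)) (Finset.mem_univ r)
  have h2 : (Fintype.card (Copy F H) : ℝ) ≤ ∑ f : Copy F H, ∑ r : W, ∑ x : V,
      (if Adm (RF r).ch RH.ch (Fintype.card W) r x f then (1 : ℝ) else 0) := by
    calc (Fintype.card (Copy F H) : ℝ) = ∑ _f : Copy F H, (1 : ℝ) := by simp
      _ ≤ _ := Finset.sum_le_sum (fun f _ => h1 f)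
  refine h2.trans ?_
  rw [Finset.sum_comm]
  refine Finset.sum_le_sum (fun r _ => ?_)
  rw [Finset.sum_comm]
  refine Finset.sum_le_sum (fun x _ => ?_)
  rw [← DF_eq_D]
  refine le_trans ?_ (card_adm_le (RF r).ch RH.ch v0 (Fintype.card W) r x)
  rw [← Finset.sum_filter, Finset.sum_const, nsmul_eq_mul, mul_one]
  norm_cast
  refine Finset.card_le_card_of_injOn (fun f : Copy F H => (f : W → V)) ?_ ?_
  · intro f hf
    simp only [Finset.coe_filter, Finset.mem_univ, true_and, Set.mem_setOf_eq] at hf ⊢
    refine ⟨hf, fun z hz => ?_⟩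
    rw [desc_eq_univ (RF r) r (h0 r) (hR r)] at hz
    exact absurd (Finset.mem_univ z) hz
  · intro f _ g _ hfg
    exact DFunLike.coe_injective hfg

end Vale.Agent.Lib.P064.Forest
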