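import Vale.Agent.Lib.P064.Forest.Step

/-!
P064 forests, module F6 (the core claim, by induction on the height).
-/

open Finset
open scoped Classical Nat

namespace Vale.Agent.Lib.P064.Forest

instance instNonemptyRT : ∀ h : ℕ, Nonempty (RT h)
  | 0 => ⟨()⟩
  | h + 1 => ⟨(0 : Multiset (RT h))⟩

lemma size_pos (h : ℕ) (B : RT h) : 1 ≤ size h B := by
  cases h with
  | zero => exact le_rfl
  | succ h => exact Nat.le_add_right _ _

lemma w_pos (c : ℝ) (hc : 0 < c) : ∀ (h : ℕ) (B : RT h), 0 < w c h B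
  | 0, _ => one_pos
  | h + 1, B => Wt_pos (α := RT h) _ (fun β => mul_pos hc (w_pos c hc h β)) B

lemma mu_nonneg (N : ℕ) : ∀ (h : ℕ) (Φ B : RT h), 0 ≤ mu N h Φ B
  | 0, _, _ => zero_le_one
  | h + 1, Φ, B => muOne_nonneg (α := RT h) _ _ (mu_nonneg N h) Φ B

lemma DOne_nonneg {α V : Type*} [DecidableEq α] [Fintype V] [DecidableEq V] (S : Finset V)
    (f : α → V → ℝ) (hf0 : ∀ b y, 0 ≤ f b y) (Φ : Multiset α) : 0 ≤ DOne S f Φ := by
  unfold DOne
  refine Finset.sum_nonneg (fun σ _ => ?_)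
  split_ifs
  · exact Finset.prod_nonneg (fun i _ => hf0 _ _)
  · exact le_rfl

lemma D_nonneg {V : Type*} [Fintype V] [DecidableEq V] (ch : V → Finset V) :
    ∀ (h : ℕ) (Φ : RT h) (x : V), 0 ≤ D ch h Φ x
  | 0, _, _ => zero_le_one
  | h + 1, Φ, x => DOne_nonneg (α := RT h) _ _ (D_nonneg ch h) Φ

lemma emb_mem_U {V : Type*} (ch : V → Finset V) (N : ℕ) (hN : ∀ x, (ch x).card ≤ N) :
    ∀ (h : ℕ) (B : RT h) (x : V), Emb ch h B x → B ∈ U N h := by
  intro h
  induction h with
  | zero =>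
    intro B x _
    exact Finset.mem_singleton.2 rfl
  | succ h ih =>
    intro (B : Multiset (RT h)) x hB
    obtain ⟨T, g, hT, hg, hE⟩ := hB
    show B ∈ (Multiset.powerset (N • (U N h).val)).toFinset
    rw [Multiset.mem_toFinset, Multiset.mem_powerset, Multiset.le_iff_count]
    intro β
    rw [Multiset.count_nsmul]
    by_cases hβ : β ∈ B
    · have hβU : β ∈ U N h := by
        rw [← hg, Multiset.mem_map] at hβ
        obtain ⟨y, hy, rfl⟩ := hβ
        exact ih _ y (hE y hy)
      have h1 : Multiset.count β (U N h).val = 1 :=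
        Multiset.count_eq_one_of_mem (U N h).nodup hβU
      rw [h1, mul_one]
      calc Multiset.count β B ≤ Multiset.card B :=
            Multiset.count_le_card _ _
        _ = T.card := by rw [← hg, Multiset.card_map]; rfl
        _ ≤ N := (Finset.card_le_card hT).trans (hN x)
    · rw [Multiset.count_eq_zero_of_notMem hβ]
      exact Nat.zero_le _

lemma P_nonneg : ∀ (h : ℕ) (Φ : RT h), 0 ≤ P h Φ := by
  intro h
  induction h with
  | zero => intro _; exact zero_le_one
  | succ h ih =>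
    intro Φ
    refine mul_nonneg (mult_pos (α := RT h) Φ).le (Multiset.prod_nonneg ?_)
    intro a ha
    obtain ⟨b, _, rfl⟩ := Multiset.mem_map.1 ha
    exact ih b

lemma Lc_pos : 0 < Lc := by unfold Lc; positivity

lemma prod_A (c : ℝ) (h : ℕ) (Φ : Multiset (RT h)) :
    (Φ.map (fun b => (Lc * c) ^ (size h b - 1) * c)).prod * Lc ^ (Multiset.card Φ)
      = (Lc * c) ^ ((Φ.map (size h)).sum) := by
  induction Φ using Multiset.induction_on with
  | empty => simp
  | cons b Φ ih =>
    rw [Multiset.map_cons, Multiset.prod_cons, Multiset.card_cons, Multiset.map_cons,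
      Multiset.sum_cons, pow_succ, pow_add, ← ih]
    have h1 : (Lc * c) ^ (size h b) = (Lc * c) ^ (size h b - 1) * (Lc * c) := by
      rw [← pow_succ, Nat.sub_add_cancel (size_pos h b)]
    rw [h1]
    ring

theorem core {V : Type*} [Fintype V] [DecidableEq V] (c : ℝ) (hc : 0 < c) (N : ℕ)
    (ch : V → Finset V) (hN : ∀ x, (ch x).card ≤ N) :
    ∀ (h : ℕ) (Φ : RT h) (x : V),
      D ch h Φ x ≤ (Lc * c) ^ (size h Φ - 1) *
        ∑ B ∈ (U N h).filter (fun B => Emb ch h B x), (mu N h Φ B) ^ 2 / w c h B := by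
  intro h
  induction h with
  | zero =>
    intro Φ x
    have h1 : (U N 0).filter (fun B => Emb ch 0 B x) = U N 0 :=
      Finset.filter_true_of_mem (fun _ _ => trivial)
    rw [h1]
    show (1 : ℝ) ≤ (Lc * c) ^ (1 - 1) * ∑ B ∈ ({()} : Finset Unit), (1 : ℝ) ^ 2 / 1
    simp
  | succ h ih =>
    intro Φ x
    have hL := Lc_pos
    have hstep := step (α := RT h) (ch x) (Emb ch h) (fun κ => c * w c h κ)
      (fun β => mul_pos hc (w_pos c hc h β))
      (U N h) (U N (h+1)) (fun B hB => emb_mem_U ch N hN (h+1) B x hB) (mu N h) (mu_nonneg N h)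
      (D ch h) (D_nonneg ch h)
      (fun b => (Lc * c) ^ (size h b - 1) * c) (fun b => by positivity) ?_ Φ
    · refine le_trans hstep (le_of_eq ?_)
      have h2 := prod_A c h Φ
      have h3 : size (h+1) Φ - 1 = (Multiset.map (size h) Φ).sum := by
        show 1 + (Multiset.map (size h) Φ).sum - 1 = _
        omega
      rw [h3, ← h2]
      rfl
    · intro b y _
      refine (ih b y).trans (le_of_eq ?_)
      rw [mul_assoc]
      have hterm : ∀ β : RT h, (mu N h b β) ^ 2 / w c h β
          = c * ((mu N h b β) ^ 2 / (c * w c h β)) := by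
        intro β
        have := (w_pos c hc h β).ne'
        field_simp
      simp only [hterm, Finset.mul_sum]

lemma prod_sqrt (h : ℕ) (Φ : Multiset (RT h)) (f : RT h → ℝ) (g : RT h → ℝ) (hf : ∀ b, 0 ≤ f b)
    (hg : ∀ b, 0 ≤ g b)
    (hfg : ∀ b, f b ≤ Real.sqrt (g b)) : (Φ.map f).prod ≤ Real.sqrt ((Φ.map g).prod) := by
  induction Φ using Multiset.induction_on with
  | empty => simp
  | cons b Φ ih =>
    rw [Multiset.map_cons, Multiset.prod_cons, Multiset.map_cons, Multiset.prod_cons,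
      Real.sqrt_mul (hg b)]
    exact mul_le_mul (hfg b) ih (Multiset.prod_nonneg (by
      intro a ha
      obtain ⟨b, _, rfl⟩ := Multiset.mem_map.1 ha
      exact hf b)) (Real.sqrt_nonneg _)

theorem mu_sum (N : ℕ) : ∀ (h : ℕ) (Φ : RT h), ∑ B ∈ U N h, mu N h Φ B ≤ Real.sqrt (P h Φ) := by
  intro h
  induction h with
  | zero =>
    intro Φ
    show ∑ B ∈ ({()} : Finset Unit), (1 : ℝ) ≤ Real.sqrt 1
    simp
  | succ h ih =>
    intro Φ
    have h1 := muOne_sum (α := RT h) (U N h) (U N (h+1)) (mu N h) (mu_nonneg N h) Φ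
    refine le_trans h1 ?_
    show _ ≤ Real.sqrt (mult (α := RT h) Φ * (Multiset.map (P h) Φ).prod)
    rw [Real.sqrt_mul (mult_pos (α := RT h) Φ).le]
    refine mul_le_mul_of_nonneg_left ?_ (Real.sqrt_nonneg _)
    exact prod_sqrt h Φ _ _ (fun b => Finset.sum_nonneg (fun β _ => mu_nonneg N h b β))
      (P_nonneg h) (ih)

end Vale.Agent.Lib.P064.Forest
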