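import Vale.Agent.Lib.P064.Forest.Struct

/-!
P064 forests, module F10 (number of structures of a given type on `Fin n`).

ROUTE.  `card_finset_map_eq_le` : the map `C ↦ (fun κ => C.filter (t · = κ))` is injective from the
set on the left into `(B.toFinset).pi (fun κ => powersetCard (B.count κ) (univ.filter (t · = κ)))`
(or `Fintype.piFinset` over the subtype), because `C` is the union of these filters
(every `x ∈ C` has `t x ∈ B`), and `(C.filter (t · = κ)).card = (C.val.map t).count κ`
(`Multiset.count_map`).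
`cardTyp_le` by induction on `h`.  `h = 0`: `cardTyp n 0 () = n`.  Step: a structure is a pair
`(r, C)`, so `cardTyp n (h+1) B ≤ n * ∏ κ ∈ B.toFinset, (cardTyp n h κ).choose (B.count κ)`;
`Nat.choose_le_pow_div : (n.choose r : α) ≤ n ^ r / r !`;
`size (h+1) B - 1 = ∑ κ ∈ B.toFinset, B.count κ * size h κ` (`Finset.sum_multiset_map_count`),
`q ^ size h κ = q * q ^ (size h κ - 1)`; so
`cardTyp (h+1) B * q ^ (size - 1) ≤ n * ∏ κ, (q * (cardTyp n h κ * q ^ (size h κ - 1))) ^ b κ / (b κ)!
  ≤ n * ∏ κ, (q * (n * w (n q) h κ)) ^ b κ / (b κ)! = n * w (n q) (h+1) B`.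
-/

open Finset
open scoped Classical Nat

namespace Vale.Agent.Lib.P064.Forest

theorem card_finset_map_eq_le {X α : Type*} [Fintype X] [DecidableEq X] [DecidableEq α]
    (t : X → α) (B : Multiset α) :
    (univ.filter (fun C : Finset X => C.val.map t = B)).card ≤
      ∏ κ ∈ B.toFinset, ((univ.filter (fun x => t x = κ)).card).choose (B.count κ) := by
  have hcard : (B.toFinset.pi
      (fun κ => powersetCard (B.count κ) (univ.filter (fun x => t x = κ)))).card =
      ∏ κ ∈ B.toFinset, ((univ.filter (fun x => t x = κ)).card).choose (B.count κ) := by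
    rw [Finset.card_pi]
    apply Finset.prod_congr rfl
    intro κ _
    rw [Finset.card_powersetCard]
  rw [← hcard]
  apply Finset.card_le_card_of_injOn
    (fun (C : Finset X) (κ : α) (_ : κ ∈ B.toFinset) => C.filter (fun x => t x = κ))
  · intro C hC
    have hC' : C.val.map t = B := (Finset.mem_filter.mp hC).2
    rw [Finset.mem_coe, Finset.mem_pi]
    intro κ _
    rw [Finset.mem_powersetCard]
    refine ⟨Finset.filter_subset_filter _ (Finset.subset_univ C), ?_⟩
    change (C.filter (fun x => t x = κ)).card = Multiset.count κ B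
    rw [← hC', Multiset.count_map, ← Finset.filter_val, ← Finset.card_def]
    congr 1
    ext x
    simp only [Finset.mem_filter]
    constructor
    · rintro ⟨h1, h2⟩
      exact ⟨h1, h2.symm⟩
    · rintro ⟨h1, h2⟩
      exact ⟨h1, h2.symm⟩
  · have key : ∀ C C' : Finset X, C.val.map t = B →
        (fun (κ : α) (_ : κ ∈ B.toFinset) => C.filter (fun x => t x = κ)) =
        (fun (κ : α) (_ : κ ∈ B.toFinset) => C'.filter (fun x => t x = κ)) → C ⊆ C' := by
      intro C C' hC hEq x hx
      have hxB : t x ∈ B.toFinset := by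
        rw [Multiset.mem_toFinset, ← hC]
        exact Multiset.mem_map_of_mem t hx
      have h1 := congrFun (congrFun hEq (t x)) hxB
      have h2 : x ∈ C.filter (fun y => t y = t x) := Finset.mem_filter.mpr ⟨hx, rfl⟩
      rw [h1] at h2
      exact (Finset.mem_filter.mp h2).1
    intro C hC C' hC' hEq
    have hC1 : C.val.map t = B := (Finset.mem_filter.mp hC).2
    have hC2 : C'.val.map t = B := (Finset.mem_filter.mp hC').2
    exact Finset.Subset.antisymm (key C C' hC1 hEq) (key C' C hC2 hEq.symm)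

lemma count_size_pos : ∀ (h : ℕ) (B : RT h), 1 ≤ size h B
  | 0, _ => le_refl 1
  | _ + 1, _ => Nat.le_add_right 1 _

lemma count_cardTyp_succ_le (n h : ℕ) (B : RT (h + 1)) :
    cardTyp n (h + 1) B ≤
      n * ∏ κ ∈ Multiset.toFinset (α := RT h) B,
        (cardTyp n h κ).choose (Multiset.count (α := RT h) κ B) := by
  have h1 : (univ.filter (fun C : Finset (St (Fin n) h) => C.val.map (St.typ h) = B)).card ≤
      ∏ κ ∈ Multiset.toFinset (α := RT h) B,
        (cardTyp n h κ).choose (Multiset.count (α := RT h) κ B) := by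
    have h0 := card_finset_map_eq_le (X := St (Fin n) h) (α := RT h) (St.typ h) B
    convert h0 using 1
    · congr!
    · apply Finset.prod_congr rfl
      intro κ _
      unfold cardTyp
      congr!
  have h2 : cardTyp n (h + 1) B ≤
      ((univ : Finset (Fin n)) ×ˢ
        (univ.filter (fun C : Finset (St (Fin n) h) => C.val.map (St.typ h) = B))).card := by
    unfold cardTyp
    apply Finset.card_le_card_of_injOn
      (fun T : St (Fin n) (h + 1) => ((T.1, T.2) : Fin n × Finset (St (Fin n) h)))
    · intro T hT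
      have hT' : St.typ (h + 1) T = B := (Finset.mem_filter.mp hT).2
      rw [Finset.mem_coe, Finset.mem_product]
      exact ⟨Finset.mem_univ _, Finset.mem_filter.mpr ⟨Finset.mem_univ _, hT'⟩⟩
    · intro T _ T' _ hEq
      exact hEq
  rw [Finset.card_product, Finset.card_univ, Fintype.card_fin] at h2
  exact h2.trans (Nat.mul_le_mul_left n h1)

theorem cardTyp_le (n : ℕ) (q : ℝ) (hq : 0 ≤ q) : ∀ (h : ℕ) (B : RT h),
    (cardTyp n h B : ℝ) * q ^ (size h B - 1) ≤ n * w (n * q) h B := by
  intro h
  induction h with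
  | zero =>
    intro B
    have h1 : cardTyp n 0 B ≤ n := by
      unfold cardTyp
      calc _ ≤ (univ : Finset (St (Fin n) 0)).card := Finset.card_filter_le _ _
        _ = Fintype.card (Fin n) := rfl
        _ = n := Fintype.card_fin n
    have h2 : (cardTyp n 0 B : ℝ) ≤ n := by exact_mod_cast h1
    change (cardTyp n 0 B : ℝ) * q ^ (1 - 1) ≤ n * 1
    simpa using h2
  | succ h ih =>
    intro (B : Multiset (RT h))
    set Bf := Multiset.toFinset (α := RT h) B with hBf
    set b : RT h → ℕ := fun κ => Multiset.count (α := RT h) κ B with hb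
    have h1 : (cardTyp n (h + 1) B : ℝ) ≤
        n * ∏ κ ∈ Bf, ((cardTyp n h κ).choose (b κ) : ℝ) := by
      exact_mod_cast count_cardTyp_succ_le n h B
    have hsize : size (h + 1) B - 1 = ∑ κ ∈ Bf, b κ * size h κ := by
      change 1 + (Multiset.map (size h) B).sum - 1 = _
      rw [Nat.add_sub_cancel_left, Finset.sum_multiset_map_count B (size h)]
      rfl
    have hw : w (n * q) (h + 1) B =
        ∏ κ ∈ Bf, ((n * q) * w (n * q) h κ) ^ (b κ) / ((b κ)! : ℝ) := rfl
    rw [hsize, hw, ← Finset.prod_pow_eq_pow_sum]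
    have h2 : (∏ κ ∈ Bf, ((cardTyp n h κ).choose (b κ) : ℝ)) * ∏ κ ∈ Bf, q ^ (b κ * size h κ) ≤
        ∏ κ ∈ Bf, ((n * q) * w (n * q) h κ) ^ (b κ) / ((b κ)! : ℝ) := by
      rw [← Finset.prod_mul_distrib]
      apply Finset.prod_le_prod
      · intro κ _
        positivity
      · intro κ _
        have h3 : ((cardTyp n h κ).choose (b κ) : ℝ) ≤
            (cardTyp n h κ : ℝ) ^ (b κ) / ((b κ)! : ℝ) := Nat.choose_le_pow_div (b κ) _
        have h4 : q ^ (b κ * size h κ) = (q ^ size h κ) ^ (b κ) := by
          rw [mul_comm, pow_mul]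
        have h5 : (cardTyp n h κ : ℝ) * q ^ size h κ ≤ (n * q) * w (n * q) h κ := by
          have h6 : q ^ size h κ = q * q ^ (size h κ - 1) := by
            rw [← pow_succ', Nat.sub_add_cancel (count_size_pos h κ)]
          rw [h6]
          calc (cardTyp n h κ : ℝ) * (q * q ^ (size h κ - 1))
              = q * ((cardTyp n h κ : ℝ) * q ^ (size h κ - 1)) := by ring
            _ ≤ q * (n * w (n * q) h κ) := mul_le_mul_of_nonneg_left (ih κ) hq
            _ = (n * q) * w (n * q) h κ := by ring
        have hfpos : (0 : ℝ) < ((b κ)! : ℝ) := by exact_mod_cast Nat.factorial_pos _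
        calc ((cardTyp n h κ).choose (b κ) : ℝ) * q ^ (b κ * size h κ)
            ≤ (cardTyp n h κ : ℝ) ^ (b κ) / ((b κ)! : ℝ) * q ^ (b κ * size h κ) :=
              mul_le_mul_of_nonneg_right h3 (by positivity)
          _ = ((cardTyp n h κ : ℝ) * q ^ size h κ) ^ (b κ) / ((b κ)! : ℝ) := by
              rw [h4, mul_pow]
              ring
          _ ≤ ((n * q) * w (n * q) h κ) ^ (b κ) / ((b κ)! : ℝ) := by
              apply div_le_div_of_nonneg_right _ hfpos.le
              exact pow_le_pow_left₀ (by positivity) h5 _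
    calc (cardTyp n (h + 1) B : ℝ) * ∏ κ ∈ Bf, q ^ (b κ * size h κ)
        ≤ (n * ∏ κ ∈ Bf, ((cardTyp n h κ).choose (b κ) : ℝ)) * ∏ κ ∈ Bf, q ^ (b κ * size h κ) :=
          mul_le_mul_of_nonneg_right h1 (by positivity)
      _ = n * ((∏ κ ∈ Bf, ((cardTyp n h κ).choose (b κ) : ℝ)) *
            ∏ κ ∈ Bf, q ^ (b κ * size h κ)) := by ring
      _ ≤ n * ∏ κ ∈ Bf, ((n * q) * w (n * q) h κ) ^ (b κ) / ((b κ)! : ℝ) :=
          mul_le_mul_of_nonneg_left h2 (Nat.cast_nonneg n)

end Vale.Agent.Lib.P064.Forest
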