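import Mathlib

/-!
P064, forests.  Definitions for the proof that `tilde p_E(n,H) ≤ C p_E(n,H)` for every forest `H`.

* `RT h` : isomorphism types of rooted trees of height at most `h` (a type of height `h+1` is the
  multiset of the types of the subtrees hanging at the children of the root).
* one-level notions for an abstract set `α` of child types: `cnt`, `Q`, `Compat`, `G`, `Wt`,
  `EmbOne`, `Mcount`, `X`, `mult`, `DOne`, `muOne`.
* recursive notions: `size`, `w`, `Emb`, `D`, `U`, `mu`, `P`.
-/

open Finset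
open scoped Classical Nat

namespace Vale.Agent.Lib.P064.Forest

section OneLevel

variable {ι α V : Type*}

/-- number of positions `i` with `κ i = β` -/
def cnt [Fintype ι] [DecidableEq α] (κ : ι → α) (β : α) : ℕ :=
  (univ.filter (fun i => κ i = β)).card

/-- the multinomial coefficient `t! / ∏ s_β!` of a sequence -/
noncomputable def Q [Fintype ι] [DecidableEq α] (κ : ι → α) : ℝ :=
  ((Fintype.card ι)! : ℝ) / ∏ β ∈ univ.image κ, ((cnt κ β)! : ℝ)

/-- every type occurring in `B` occurs in the sequence `κ`, at most as often as in `B` -/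
def Compat [Fintype ι] [DecidableEq α] (κ : ι → α) (B : Multiset α) : Prop :=
  ∀ β ∈ B, 1 ≤ cnt κ β ∧ cnt κ β ≤ B.count β

noncomputable def G [Fintype ι] [DecidableEq α] (κ : ι → α) (B : Multiset α) : ℝ :=
  ∏ β ∈ B.toFinset, (1 / 2 : ℝ) ^ (B.count β - cnt κ β)

noncomputable def Wt [DecidableEq α] (a : α → ℝ) (B : Multiset α) : ℝ :=
  ∏ β ∈ B.toFinset, a β ^ (B.count β) / ((B.count β)! : ℝ)

/-- `B` is realised by a subset `T` of `S` labelled by `g` such that `E (g y) y` on `T` -/
def EmbOne (S : Finset V) (E : α → V → Prop) (B : Multiset α) : Prop :=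
  ∃ (T : Finset V) (g : V → α), T ⊆ S ∧ T.val.map g = B ∧ ∀ y ∈ T, E (g y) y

/-- number of injective `σ : ι → S` with `E (κ i) (σ i)` for all `i` -/
noncomputable def Mcount [Fintype ι] [DecidableEq ι] [Fintype V] [DecidableEq V]
    (S : Finset V) (E : α → V → Prop) (κ : ι → α) : ℕ :=
  (univ.filter (fun σ : ι ↪ V => ∀ i, σ i ∈ S ∧ E (κ i) (σ i))).card

noncomputable def X [Fintype ι] [DecidableEq α] (m : ι → α → ℝ) (B : Multiset α)
    (κ : ι → α) : ℝ :=
  if Compat κ B then (∏ i, m i (κ i)) * G κ B else 0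

/-- the multinomial coefficient `t! / ∏ t_j!` of a multiset -/
noncomputable def mult [DecidableEq α] (Φ : Multiset α) : ℝ :=
  ((Multiset.card Φ)! : ℝ) / ∏ b ∈ Φ.toFinset, ((Φ.count b)! : ℝ)

/-- sum over the injective maps `σ` from the positions of `Φ` to `S` of `∏ f (type of i) (σ i)` -/
noncomputable def DOne [DecidableEq α] [Fintype V] [DecidableEq V] (S : Finset V)
    (f : α → V → ℝ) (Φ : Multiset α) : ℝ :=
  ∑ σ : Φ.ToType ↪ V, if (∀ i, σ i ∈ S) then ∏ i, f i.1 (σ i) else 0

noncomputable def muOne [DecidableEq α] (K : Finset α) (m : α → α → ℝ) (Φ B : Multiset α) : ℝ :=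
  Real.sqrt ((1 / 9 : ℝ) ^ (Multiset.card Φ) * mult Φ) *
    ∑ κ ∈ Fintype.piFinset (fun _ : Φ.ToType => K), X (fun i => m i.1) B κ

end OneLevel

/-- rooted tree types of height at most `h` -/
def RT : ℕ → Type
  | 0 => Unit
  | h + 1 => Multiset (RT h)

noncomputable instance instDecEqRT (h : ℕ) : DecidableEq (RT h) := Classical.decEq _

/-- number of vertices -/
def size : (h : ℕ) → RT h → ℕ
  | 0, _ => 1
  | h + 1, B => 1 + (Multiset.map (size h) B).sum

/-- `w c B = c ^ (|B| - 1) / aut(B)` -/
noncomputable def w (c : ℝ) : (h : ℕ) → RT h → ℝ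
  | 0, _ => 1
  | h + 1, B => Wt (α := RT h) (fun κ => c * w c h κ) B

/-- the rooted tree type `B` embeds downward at `x` for the children function `ch` -/
def Emb {V : Type*} (ch : V → Finset V) : (h : ℕ) → RT h → V → Prop
  | 0, _, _ => True
  | h + 1, B, x => EmbOne (α := RT h) (ch x) (Emb ch h) B

/-- number of downward (sibling-injective) labelled embeddings of the pattern `Φ` at `x` -/
noncomputable def D {V : Type*} [Fintype V] [DecidableEq V] (ch : V → Finset V) :
    (h : ℕ) → RT h → V → ℝ
  | 0, _, _ => 1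
  | h + 1, Φ, x => DOne (α := RT h) (ch x) (D ch h) Φ

/-- the finite set of types all of whose multiplicities are at most `N` -/
noncomputable def U (N : ℕ) : (h : ℕ) → Finset (RT h)
  | 0 => {()}
  | h + 1 => (Multiset.powerset (N • (U N h).val)).toFinset

/-- the weights `μ_Φ(B)` -/
noncomputable def mu (N : ℕ) : (h : ℕ) → RT h → RT h → ℝ
  | 0, _, _ => 1
  | h + 1, Φ, B => muOne (α := RT h) (U N h) (mu N h) Φ B

/-- number of plane forms -/
noncomputable def P : (h : ℕ) → RT h → ℝ
  | 0, _ => 1
  | h + 1, Φ => mult (α := RT h) Φ * (Multiset.map (P h) Φ).prod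

/-- a rooting of a forest: parent function and depth -/
structure Rooting {V : Type*} (G : SimpleGraph V) where
  par : V → V
  d : V → ℕ
  adj_iff : ∀ x y, G.Adj x y ↔ (par y = x ∧ d y = d x + 1) ∨ (par x = y ∧ d x = d y + 1)

/-- children -/
def Rooting.ch {V : Type*} [Fintype V] [DecidableEq V] {G : SimpleGraph V} (R : Rooting G)
    (x : V) : Finset V :=
  univ.filter (fun y => R.par y = x ∧ R.d y = R.d x + 1)

/-- the universal constant of the core claim -/
noncomputable def Lc : ℝ := 36 * Real.exp 1 * Real.exp 1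

end Vale.Agent.Lib.P064.Forest
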