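import Vale.Agent.Lib.P064.Forest.Struct

/-!
P064 forests, module F12 (downward structures in a rooted forest).

All proofs are inductions on `h`.
* `exists_down_of_emb`: from `EmbOne` get `T ⊆ ch x`, `g`; choose for `y ∈ T` a structure `s y` with
  root `y`, type `g y`; take `(x, T.image s)` (`s` is injective on `T` since `root (s y) = y`), and
  `(T.image s).val.map typ = T.val.map (typ ∘ s) = T.val.map g`.
* `down_verts`: a vertex `z` of `T' ∈ C` satisfies the statement for `root T' ∈ ch r`, i.e.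
  `par (root T') = r`, `d (root T') = d r + 1`; use `Function.iterate_succ_apply'`.
* `down_disjoint`: a common vertex `z` has `par^[d z - d x] z = x` and `par^[d z - d x'] z = x'`;
  if `d x = d x'` this gives `x = x'`; otherwise the depth ranges are disjoint.
* `down_card_verts`: `verts = insert r (disjoint union)`; `r` is not in the union by depth; the
  union is disjoint by `down_disjoint` (distinct children have distinct roots of the same depth);
  `Finset.card_biUnion`, and `∑ T' ∈ C, size (typ T') = ((C.val.map typ).map size).sum`.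
* `down_card_arcs`: `Prod.snd` is injective on `arcs` (the first coordinate is `par` of the second)
  with image `verts.erase root`; or a direct induction like `down_card_verts`.
-/

open Finset
open scoped Classical Nat

namespace Vale.Agent.Lib.P064.Forest

/-- every child structure is rooted at a child of the root, distinct ones at distinct children -/
def Down {V : Type*} (ch : V → Finset V) : (h : ℕ) → St V h → Prop
  | 0, _ => True
  | h + 1, T => (∀ T' ∈ (T.2 : Finset (St V h)), St.root h T' ∈ ch T.1 ∧ Down ch h T') ∧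
      Set.InjOn (St.root h) ((T.2 : Finset (St V h)) : Set (St V h))

theorem exists_down_of_emb {V : Type*} (ch : V → Finset V) : ∀ (h : ℕ) (B : RT h) (x : V),
    Emb ch h B x → ∃ T : St V h, St.root h T = x ∧ St.typ h T = B ∧ Down ch h T := by
  intro h
  induction h with
  | zero =>
    intro B x _
    exact ⟨x, rfl, rfl, trivial⟩
  | succ h ih =>
    intro B x hE
    obtain ⟨T, g, hTS, hTB, hE'⟩ := hE
    have hex : ∀ y ∈ T, ∃ s : St V h, St.root h s = y ∧ St.typ h s = g y ∧ Down ch h s :=
      fun y hy => ih (g y) y (hE' y hy)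
    choose s hs using hex
    have hinj : Function.Injective (fun y : {y // y ∈ T} => s y.1 y.2) := by
      intro y y' hyy
      have h1 : St.root h (s y.1 y.2) = St.root h (s y'.1 y'.2) := congrArg (St.root h) hyy
      rw [(hs y.1 y.2).1, (hs y'.1 y'.2).1] at h1
      exact Subtype.ext h1
    refine ⟨(x, T.attach.image (fun y => s y.1 y.2)), rfl, ?_, ?_, ?_⟩
    · change (T.attach.image (fun y => s y.1 y.2)).val.map (St.typ h) = B
      rw [Finset.image_val_of_injOn hinj.injOn, Multiset.map_map, ← hTB]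
      have h2 : Multiset.map (St.typ h ∘ fun y : {y // y ∈ T} => s y.1 y.2) T.attach.val =
          Multiset.map (fun y : {y // y ∈ T} => g y.1) T.attach.val :=
        Multiset.map_congr rfl (fun y _ => (hs y.1 y.2).2.1)
      rw [h2, Finset.attach_val]
      exact Multiset.attach_map_val' T.val g
    · intro T' hT'
      obtain ⟨y, _, rfl⟩ := Finset.mem_image.mp hT'
      refine ⟨?_, (hs y.1 y.2).2.2⟩
      rw [(hs y.1 y.2).1]
      exact hTS y.2
    · intro T1 hT1 T2 hT2 h12
      obtain ⟨y1, _, rfl⟩ := Finset.mem_image.mp (Finset.mem_coe.mp hT1)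
      obtain ⟨y2, _, rfl⟩ := Finset.mem_image.mp (Finset.mem_coe.mp hT2)
      rw [(hs y1.1 y1.2).1, (hs y2.1 y2.2).1] at h12
      have : y1 = y2 := Subtype.ext h12
      rw [this]

theorem down_arcs_sub {V : Type*} (ch : V → Finset V) : ∀ (h : ℕ) (T : St V h), Down ch h T →
    ∀ a b, (a, b) ∈ St.arcs h T → b ∈ ch a ∧ a ∈ St.verts h T ∧ b ∈ St.verts h T := by
  intro h
  induction h with
  | zero =>
    intro T _ a b hab
    exact absurd hab (Finset.notMem_empty _)
  | succ h ih =>
    rintro ⟨r, C⟩ ⟨hD, _⟩ a b hab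
    change (a, b) ∈ C.biUnion (fun T' => insert (r, St.root h T') (St.arcs h T')) at hab
    obtain ⟨T', hT', hab'⟩ := Finset.mem_biUnion.mp hab
    rcases Finset.mem_insert.mp hab' with heq | hin
    · obtain ⟨rfl, rfl⟩ := Prod.mk.inj heq
      exact ⟨(hD T' hT').1, Finset.mem_insert_self _ _,
        Finset.mem_insert_of_mem (Finset.mem_biUnion.mpr ⟨T', hT', St.root_mem_verts h T'⟩)⟩
    · obtain ⟨h1, h2, h3⟩ := ih T' (hD T' hT').2 a b hin
      exact ⟨h1, Finset.mem_insert_of_mem (Finset.mem_biUnion.mpr ⟨T', hT', h2⟩),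
        Finset.mem_insert_of_mem (Finset.mem_biUnion.mpr ⟨T', hT', h3⟩)⟩

private lemma mem_verts_succ {V : Type*} (h : ℕ) (r : V) (C : Finset (St V h)) (z : V) :
    z ∈ St.verts (h + 1) ((r, C) : St V (h + 1)) ↔ z = r ∨ ∃ T' ∈ C, z ∈ St.verts h T' := by
  change z ∈ insert r (C.biUnion (St.verts h)) ↔ _
  rw [Finset.mem_insert, Finset.mem_biUnion]

private lemma card_verts_succ {V : Type*} (h : ℕ) (r : V) (C : Finset (St V h))
    (hr : ∀ T' ∈ C, r ∉ St.verts h T')
    (hB : ∀ T1 ∈ C, ∀ T2 ∈ C, T1 ≠ T2 → Disjoint (St.verts h T1) (St.verts h T2)) :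
    (St.verts (h + 1) ((r, C) : St V (h + 1))).card = 1 + ∑ T' ∈ C, (St.verts h T').card := by
  change (insert r (C.biUnion (St.verts h))).card = _
  rw [Finset.card_insert_of_notMem, Finset.card_biUnion hB, add_comm]
  intro hr'
  obtain ⟨T', hT', hrT'⟩ := Finset.mem_biUnion.mp hr'
  exact hr T' hT' hrT'

private lemma card_arcs_succ {V : Type*} (h : ℕ) (r : V) (C : Finset (St V h))
    (hr : ∀ T' ∈ C, (r, St.root h T') ∉ St.arcs h T')
    (hsnd : ∀ T' ∈ C, ∀ p ∈ St.arcs h T', p.2 ∈ St.verts h T')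
    (hB : ∀ T1 ∈ C, ∀ T2 ∈ C, T1 ≠ T2 → Disjoint (St.verts h T1) (St.verts h T2)) :
    (St.arcs (h + 1) ((r, C) : St V (h + 1))).card = ∑ T' ∈ C, ((St.arcs h T').card + 1) := by
  change (C.biUnion (fun T' => insert (r, St.root h T') (St.arcs h T'))).card = _
  have hsnd' : ∀ T' ∈ C, ∀ p ∈ insert (r, St.root h T') (St.arcs h T'),
      p.2 ∈ St.verts h T' := by
    intro T' hT' p hp
    rcases Finset.mem_insert.mp hp with rfl | hp'
    · exact St.root_mem_verts h T'
    · exact hsnd T' hT' p hp'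
  rw [Finset.card_biUnion]
  · exact Finset.sum_congr rfl (fun T' hT' => Finset.card_insert_of_notMem (hr T' hT'))
  · intro T1 hT1 T2 hT2 h12
    refine Finset.disjoint_left.mpr ?_
    intro p hp1 hp2
    exact Finset.disjoint_left.mp (hB T1 hT1 T2 hT2 h12) (hsnd' T1 hT1 p hp1) (hsnd' T2 hT2 p hp2)

private lemma size_typ_succ {V : Type*} (h : ℕ) (r : V) (C : Finset (St V h)) :
    size (h + 1) (St.typ (h + 1) ((r, C) : St V (h + 1))) =
      1 + ∑ T' ∈ C, size h (St.typ h T') := by
  change 1 + (Multiset.map (size h) (C.val.map (St.typ h))).sum = _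
  rw [Multiset.map_map, Finset.sum_eq_multiset_sum]
  rfl

variable {V : Type*} [Fintype V] [DecidableEq V] {G : SimpleGraph V}

theorem down_verts (R : Rooting G) : ∀ (h : ℕ) (T : St V h), Down R.ch h T →
    ∀ z ∈ St.verts h T, R.d (St.root h T) ≤ R.d z ∧ R.d z ≤ R.d (St.root h T) + h ∧
      R.par^[R.d z - R.d (St.root h T)] z = St.root h T := by
  intro h
  induction h with
  | zero =>
    intro T _ z hz
    have hzT : z = T := Finset.mem_singleton.mp hz
    subst hzT
    change R.d z ≤ R.d z ∧ R.d z ≤ R.d z + 0 ∧ R.par^[R.d z - R.d z] z = z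
    simp
  | succ h ih =>
    rintro ⟨r, C⟩ ⟨hD, _⟩ z hz
    change R.d r ≤ R.d z ∧ R.d z ≤ R.d r + (h + 1) ∧ R.par^[R.d z - R.d r] z = r
    rcases (mem_verts_succ h r C z).mp hz with rfl | hz'
    · simp
    · obtain ⟨T', hT', hzT'⟩ := hz'
      obtain ⟨h1, h2, h3⟩ := ih T' (hD T' hT').2 z hzT'
      have hch := (hD T' hT').1
      change St.root h T' ∈ R.ch r at hch
      obtain ⟨hp, hd⟩ := (Finset.mem_filter.mp hch).2
      refine ⟨by omega, by omega, ?_⟩
      have h4 : R.d z - R.d r = (R.d z - R.d (St.root h T')) + 1 := by omega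
      rw [h4, Function.iterate_succ_apply', h3, hp]

theorem down_disjoint (R : Rooting G) (h : ℕ) (T T' : St V h) (hT : Down R.ch h T)
    (hT' : Down R.ch h T') (hne : St.root h T ≠ St.root h T')
    (hd : R.d (St.root h T) = R.d (St.root h T') ∨ R.d (St.root h T) + h < R.d (St.root h T') ∨
      R.d (St.root h T') + h < R.d (St.root h T)) :
    Disjoint (St.verts h T) (St.verts h T') := by
  rw [Finset.disjoint_left]
  intro z hz hz'
  obtain ⟨h1, h2, h3⟩ := down_verts R h T hT z hz
  obtain ⟨h1', h2', h3'⟩ := down_verts R h T' hT' z hz'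
  rcases hd with hd | hd | hd
  · rw [hd] at h3
    exact hne (h3.symm.trans h3')
  · omega
  · omega

private lemma down_child_facts (R : Rooting G) (h : ℕ) (r : V) (C : Finset (St V h))
    (hD : Down R.ch (h + 1) ((r, C) : St V (h + 1))) :
    (∀ T' ∈ C, Down R.ch h T' ∧ R.d (St.root h T') = R.d r + 1 ∧ r ∉ St.verts h T') ∧
    (∀ T1 ∈ C, ∀ T2 ∈ C, T1 ≠ T2 → Disjoint (St.verts h T1) (St.verts h T2)) := by
  obtain ⟨hD1, hinj⟩ := hD
  have hA : ∀ T' ∈ C, Down R.ch h T' ∧ R.d (St.root h T') = R.d r + 1 ∧ r ∉ St.verts h T' := by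
    intro T' hT'
    have hch := (hD1 T' hT').1
    change St.root h T' ∈ R.ch r at hch
    obtain ⟨_, hd⟩ := (Finset.mem_filter.mp hch).2
    refine ⟨(hD1 T' hT').2, hd, fun hr => ?_⟩
    have := (down_verts R h T' (hD1 T' hT').2 r hr).1
    omega
  refine ⟨hA, ?_⟩
  intro T1 hT1 T2 hT2 h12
  refine down_disjoint R h T1 T2 (hA T1 hT1).1 (hA T2 hT2).1 ?_ (Or.inl ?_)
  · intro hroot
    exact h12 (hinj (Finset.mem_coe.mpr hT1) (Finset.mem_coe.mpr hT2) hroot)
  · rw [(hA T1 hT1).2.1, (hA T2 hT2).2.1]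

theorem down_card_verts (R : Rooting G) : ∀ (h : ℕ) (T : St V h), Down R.ch h T →
    (St.verts h T).card = size h (St.typ h T) := by
  intro h
  induction h with
  | zero =>
    intro T _
    exact Finset.card_singleton _
  | succ h ih =>
    rintro ⟨r, C⟩ hD
    obtain ⟨hA, hB⟩ := down_child_facts R h r C hD
    rw [card_verts_succ h r C (fun T' hT' => (hA T' hT').2.2) hB, size_typ_succ]
    congr 1
    exact Finset.sum_congr rfl (fun T' hT' => ih T' (hA T' hT').1)

theorem down_card_arcs (R : Rooting G) : ∀ (h : ℕ) (T : St V h), Down R.ch h T →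
    (St.arcs h T).card + 1 = size h (St.typ h T) := by
  intro h
  induction h with
  | zero =>
    intro T _
    rfl
  | succ h ih =>
    rintro ⟨r, C⟩ hD
    obtain ⟨hA, hB⟩ := down_child_facts R h r C hD
    rw [card_arcs_succ h r C ?_ ?_ hB, size_typ_succ, add_comm]
    · congr 1
      exact Finset.sum_congr rfl (fun T' hT' => ih T' (hA T' hT').1)
    · intro T' hT' hmem
      exact (hA T' hT').2.2 (down_arcs_sub R.ch h T' (hA T' hT').1 _ _ hmem).2.1
    · intro T' hT' p hp
      exact (down_arcs_sub R.ch h T' (hA T' hT').1 p.1 p.2 hp).2.2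

end Vale.Agent.Lib.P064.Forest
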