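import Vale.Agent.Lib.P064.Forest.Down
import Vale.Agent.Lib.P064.Forest.Adm

/-!
P064 forests, module F17 (the full downward structure; the pattern type has `card W` vertices).

ROUTE.  `root_full`, `typ_full`, `down_full`, `verts_full`: inductions on `h` (`full h` is
injective because `root (full h x) = x`; `Finset.image_biUnion`, `Multiset.map_map`,
`Finset.image_val_of_injOn`).
`desc_eq_univ`: first, by induction on `j`, generalising `x v h`:
  if `j ≤ h`, `R.par^[j] v = x` and `∀ i < j, R.d (R.par^[i] v) = R.d (R.par^[i+1] v) + 1`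
  then `v ∈ Desc R.ch h x` (for `j+1`: `y = R.par^[j] v` is a child of `x`).
Then, by strong induction on `R.d v`, every `v` has `R.par^[R.d v] v = r` with this chain condition
(`hR v`: either `v = r`, `R.d r = 0`, or pass to `R.par v`).
`size_ftyp`: `size (typ (full)) = card (verts (full)) = card univ` by `down_card_verts`.
-/

open Finset
open scoped Classical Nat

namespace Vale.Agent.Lib.P064.Forest

/-- the full structure hanging at `x`, truncated at depth `h` -/
noncomputable def full {V : Type*} (ch : V → Finset V) : (h : ℕ) → V → St V h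
  | 0, x => x
  | h + 1, x => (x, (ch x).image (full ch h))

theorem root_full {V : Type*} (ch : V → Finset V) (h : ℕ) (x : V) :
    St.root h (full ch h x) = x := by
  cases h with
  | zero => rfl
  | succ h => rfl

private lemma full_injective {V : Type*} (ch : V → Finset V) (h : ℕ) :
    Function.Injective (full ch h) := by
  intro x y hxy
  have h1 := congrArg (St.root h) hxy
  rwa [root_full, root_full] at h1

theorem typ_full {V : Type*} (ch : V → Finset V) : ∀ (h : ℕ) (x : V),
    St.typ h (full ch h x) = ftyp ch h x := by
  intro h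
  induction h with
  | zero =>
    intro x
    rfl
  | succ h ih =>
    intro x
    change ((ch x).image (full ch h)).val.map (St.typ h) = (ch x).val.map (ftyp ch h)
    rw [Finset.image_val_of_injOn (full_injective ch h).injOn, Multiset.map_map]
    exact Multiset.map_congr rfl (fun y _ => ih y)

theorem down_full {V : Type*} (ch : V → Finset V) : ∀ (h : ℕ) (x : V),
    Down ch h (full ch h x) := by
  intro h
  induction h with
  | zero =>
    intro x
    trivial
  | succ h ih =>
    intro x
    refine ⟨fun T' hT' => ?_, ?_⟩
    · obtain ⟨y, hy, rfl⟩ := Finset.mem_image.mp hT'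
      refine ⟨?_, ih y⟩
      rw [root_full]
      exact hy
    · intro T1 h1 T2 h2 h12
      obtain ⟨y1, _, rfl⟩ := Finset.mem_image.mp (Finset.mem_coe.mp h1)
      obtain ⟨y2, _, rfl⟩ := Finset.mem_image.mp (Finset.mem_coe.mp h2)
      rw [root_full, root_full] at h12
      rw [h12]

theorem verts_full {V : Type*} (ch : V → Finset V) : ∀ (h : ℕ) (x : V),
    St.verts h (full ch h x) = Desc ch h x := by
  intro h
  induction h with
  | zero =>
    intro x
    rfl
  | succ h ih =>
    intro x
    change insert x (((ch x).image (full ch h)).biUnion (St.verts h)) =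
      insert x ((ch x).biUnion (Desc ch h))
    rw [Finset.image_biUnion]
    congr 1
    exact Finset.biUnion_congr rfl (fun y _ => ih y)

private lemma mem_desc_self {W : Type*} (ch : W → Finset W) (h : ℕ) (u : W) :
    u ∈ Desc ch h u := by
  cases h with
  | zero => exact Finset.mem_singleton_self _
  | succ h => exact Finset.mem_insert_self _ _

private lemma mem_desc_succ_of {W : Type*} (ch : W → Finset W) (h : ℕ) (u u' z : W)
    (hu : u' ∈ ch u) (hz : z ∈ Desc ch h u') : z ∈ Desc ch (h + 1) u :=
  Finset.mem_insert_of_mem (Finset.mem_biUnion.mpr ⟨u', hu, hz⟩)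

variable {W : Type*} [Fintype W] [DecidableEq W] {F : SimpleGraph W}

private lemma mem_desc_of_chain (R : Rooting F) : ∀ (j h : ℕ) (x v : W), j ≤ h →
    R.par^[j] v = x → (∀ i < j, R.d (R.par^[i] v) = R.d (R.par^[i + 1] v) + 1) →
    v ∈ Desc R.ch h x := by
  intro j
  induction j with
  | zero =>
    intro h x v _ hx _
    have : v = x := hx
    subst this
    exact mem_desc_self _ _ _
  | succ j ih =>
    intro h x v hj hx hc
    obtain ⟨h', rfl⟩ : ∃ h', h = h' + 1 := ⟨h - 1, by omega⟩
    have hy : R.par^[j] v ∈ R.ch x := by
      refine Finset.mem_filter.mpr ⟨Finset.mem_univ _, ?_, ?_⟩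
      · rw [← Function.iterate_succ_apply' R.par j v]
        exact hx
      · rw [hc j (Nat.lt_succ_self j), hx]
    exact mem_desc_succ_of _ _ _ _ _ hy
      (ih h' _ v (by omega) rfl (fun i hi => hc i (by omega)))

private lemma chain_to_root (R : Rooting F) (r : W) (h0 : R.d r = 0)
    (hR : ∀ v, (v = r ∨ R.d v = R.d (R.par v) + 1)) : ∀ (n : ℕ) (v : W), R.d v = n →
    R.par^[n] v = r ∧ ∀ i < n, R.d (R.par^[i] v) = R.d (R.par^[i + 1] v) + 1 := by
  intro n
  induction n with
  | zero =>
    intro v hv
    rcases hR v with rfl | h1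
    · exact ⟨rfl, fun i hi => absurd hi (Nat.not_lt_zero i)⟩
    · omega
  | succ n ih =>
    intro v hv
    rcases hR v with rfl | h1
    · omega
    · obtain ⟨h2, h3⟩ := ih (R.par v) (by omega)
      refine ⟨?_, ?_⟩
      · rw [Function.iterate_succ_apply]
        exact h2
      · intro i hi
        cases i with
        | zero => exact h1
        | succ i =>
          rw [Function.iterate_succ_apply, Function.iterate_succ_apply]
          exact h3 i (by omega)

theorem desc_eq_univ (R : Rooting F) (r : W) (h0 : R.d r = 0)
    (hR : ∀ v, (v = r ∨ R.d v = R.d (R.par v) + 1) ∧ R.d v < Fintype.card W) :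
    Desc R.ch (Fintype.card W) r = univ := by
  refine Finset.eq_univ_of_forall (fun v => ?_)
  obtain ⟨h1, h2⟩ := chain_to_root R r h0 (fun v => (hR v).1) (R.d v) v rfl
  exact mem_desc_of_chain R (R.d v) _ r v (hR v).2.le h1 h2

theorem size_ftyp (R : Rooting F) (r : W) (h0 : R.d r = 0)
    (hR : ∀ v, (v = r ∨ R.d v = R.d (R.par v) + 1) ∧ R.d v < Fintype.card W) :
    size (Fintype.card W) (ftyp R.ch (Fintype.card W) r) = Fintype.card W := by
  rw [← typ_full, ← down_card_verts R _ _ (down_full R.ch _ r), verts_full,
    desc_eq_univ R r h0 hR, Finset.card_univ]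

end Vale.Agent.Lib.P064.Forest
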