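import Vale.Agent.Lib.P064.Forest.Defs

/-!
P064 forests, module F3 (orbit inequality).

ROUTE.  Let `Gτ = {π : Perm ι | ∀ i, τ (π i) = τ i}` (a Finset), `St κ = {π | κ ∘ π = κ}`,
`O κ = image (fun π : Equiv.Perm ι => κ ∘ π) Gτ`.
(1) `card {π : Perm ι | κ ∘ π = κ} = ∏ β ∈ image κ univ, (cnt κ β)!` and the same for `τ`
    (`DomMulAct.stabilizer_card'` or `DomMulAct.stabilizer_card`, or a direct proof).  Hence
    `Q κ = t! / card (St κ)` and `Q τ = t! / card Gτ`.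
(2) `card Gτ ≤ card (O κ) * card (St κ)`: every fibre of `π ↦ κ ∘ π` on `Gτ` injects into `St κ`
    (fix `π₀` in the fibre and send `π` to `π * π₀⁻¹` or `π₀⁻¹ * π`, whichever composes correctly)
    (`Finset.card_le_mul_card_image`).  Hence `Q κ ≤ Q τ * card (O κ)`.
(3) `O κ ⊆ piFinset K` for `κ ∈ piFinset K`, and `Y κ' = Y κ` for `κ' ∈ O κ`; so
    `(∑ κ, Y κ) ^ 2 = ∑ κ, Y κ * ∑ κ', Y κ' ≥ ∑ κ, Y κ * ∑ κ' ∈ O κ, Y κ' = ∑ κ, card (O κ) * Y κ ^ 2`.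
-/

open Finset
open scoped Classical Nat

namespace Vale.Agent.Lib.P064.Forest

/-- the stabiliser of a sequence, as a finset of permutations -/
noncomputable def orbSt {ι α : Type*} [Fintype ι] [DecidableEq ι] (κ : ι → α) :
    Finset (Equiv.Perm ι) :=
  univ.filter (fun π => κ ∘ π = κ)

lemma orb_mem_St {ι α : Type*} [Fintype ι] [DecidableEq ι] (κ : ι → α) (π : Equiv.Perm ι) :
    π ∈ orbSt κ ↔ κ ∘ π = κ := by
  unfold orbSt
  simp

lemma orb_card_St {ι α : Type*} [Fintype ι] [DecidableEq ι] [DecidableEq α] (κ : ι → α) :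
    (orbSt κ).card = ∏ β ∈ univ.image κ, (cnt κ β)! := by
  have h := DomMulAct.stabilizer_card' κ
  have h1 : (orbSt κ).card = Fintype.card {g : Equiv.Perm ι // κ ∘ g = κ} := by
    unfold orbSt
    rw [Fintype.card_subtype]
    congr
  rw [h1]
  convert h using 3 with β _
  unfold cnt
  rw [Fintype.card_subtype]

lemma orb_St_pos {ι α : Type*} [Fintype ι] [DecidableEq ι] (κ : ι → α) :
    0 < (orbSt κ).card := by
  apply Finset.card_pos.mpr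
  refine ⟨1, ?_⟩
  unfold orbSt
  simp

lemma orb_Q_eq {ι α : Type*} [Fintype ι] [DecidableEq ι] [DecidableEq α] (κ : ι → α) :
    Q κ = ((Fintype.card ι)! : ℝ) / ((orbSt κ).card : ℝ) := by
  unfold Q
  rw [orb_card_St]
  push_cast
  rfl

lemma orb_card_le {ι α T : Type*} [Fintype ι] [DecidableEq ι] [DecidableEq α]
    (τ : ι → T) (κ : ι → α) :
    (orbSt τ).card ≤ (orbSt κ).card * ((orbSt τ).image (fun π : Equiv.Perm ι => κ ∘ π)).card := by
  apply Finset.card_le_mul_card_image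
  intro b hb
  obtain ⟨π₀, _, rfl⟩ := Finset.mem_image.mp hb
  apply Finset.card_le_card_of_injOn (fun π => π * π₀⁻¹)
  · intro π hπ
    have hπ2 : κ ∘ π = κ ∘ π₀ := (Finset.mem_filter.mp hπ).2
    simp only [orbSt, Finset.coe_filter, Finset.mem_univ, true_and, Set.mem_ofPred_eq]
    funext i
    have := congrFun hπ2 (π₀⁻¹ i)
    simpa using this
  · intro π _ π' _ h
    exact mul_right_cancel h

theorem orbit_ineq {ι α T : Type*} [Fintype ι] [DecidableEq ι] [DecidableEq α] [DecidableEq T]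
    (τ : ι → T) (K : Finset α) (Y : (ι → α) → ℝ) (hY0 : ∀ κ, 0 ≤ Y κ)
    (hinv : ∀ π : Equiv.Perm ι, (∀ i, τ (π i) = τ i) → ∀ κ, Y (κ ∘ π) = Y κ) :
    ∑ κ ∈ Fintype.piFinset (fun _ : ι => K), Q κ * (Y κ) ^ 2 ≤
      Q τ * (∑ κ ∈ Fintype.piFinset (fun _ : ι => K), Y κ) ^ 2 := by
  set P := Fintype.piFinset (fun _ : ι => K) with hP
  set O : (ι → α) → Finset (ι → α) := fun κ => (orbSt τ).image (fun π : Equiv.Perm ι => κ ∘ π) with hO
  have hQτ0 : 0 ≤ Q τ := by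
    rw [orb_Q_eq]
    positivity
  have hQ : ∀ κ : ι → α, Q κ ≤ Q τ * ((O κ).card : ℝ) := by
    intro κ
    rw [orb_Q_eq, orb_Q_eq]
    have h1 : ((orbSt τ).card : ℝ) ≤ ((orbSt κ).card : ℝ) * ((O κ).card : ℝ) := by
      exact_mod_cast orb_card_le τ κ
    have h2 : (0 : ℝ) < ((orbSt τ).card : ℝ) := by exact_mod_cast orb_St_pos τ
    have h3 : (0 : ℝ) < ((orbSt κ).card : ℝ) := by exact_mod_cast orb_St_pos κ
    rw [div_mul_eq_mul_div, div_le_div_iff₀ h3 h2]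
    have h4 : (0 : ℝ) ≤ ((Fintype.card ι)! : ℝ) := by positivity
    nlinarith [mul_le_mul_of_nonneg_left h1 h4]
  have hOsub : ∀ κ ∈ P, O κ ⊆ P := by
    intro κ hκ κ' hκ'
    obtain ⟨π, _, rfl⟩ := Finset.mem_image.mp hκ'
    rw [hP, Fintype.mem_piFinset] at hκ ⊢
    intro i
    exact hκ (π i)
  have hOY : ∀ κ, ∀ κ' ∈ O κ, Y κ' = Y κ := by
    intro κ κ' hκ'
    obtain ⟨π, hπ, rfl⟩ := Finset.mem_image.mp hκ'
    apply hinv π
    intro i
    have : τ ∘ π = τ := (orb_mem_St τ π).mp hπ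
    exact congrFun this i
  have h1 : ∑ κ ∈ P, ((O κ).card : ℝ) * (Y κ) ^ 2 ≤ (∑ κ ∈ P, Y κ) ^ 2 := by
    rw [sq, Finset.sum_mul]
    apply Finset.sum_le_sum
    intro κ hκ
    have h2 : ∑ κ' ∈ O κ, Y κ' ≤ ∑ κ' ∈ P, Y κ' :=
      Finset.sum_le_sum_of_subset_of_nonneg (hOsub κ hκ) (fun i _ _ => hY0 i)
    have h3 : ∑ κ' ∈ O κ, Y κ' = ((O κ).card : ℝ) * Y κ := by
      rw [Finset.sum_congr rfl (hOY κ), Finset.sum_const, nsmul_eq_mul]
    rw [h3] at h2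
    calc ((O κ).card : ℝ) * (Y κ) ^ 2 = Y κ * (((O κ).card : ℝ) * Y κ) := by ring
      _ ≤ Y κ * ∑ κ' ∈ P, Y κ' := mul_le_mul_of_nonneg_left h2 (hY0 κ)
  calc ∑ κ ∈ P, Q κ * (Y κ) ^ 2 ≤ ∑ κ ∈ P, Q τ * ((O κ).card : ℝ) * (Y κ) ^ 2 :=
        Finset.sum_le_sum (fun κ _ => mul_le_mul_of_nonneg_right (hQ κ) (sq_nonneg _))
    _ = Q τ * ∑ κ ∈ P, ((O κ).card : ℝ) * (Y κ) ^ 2 := by
        rw [Finset.mul_sum]
        apply Finset.sum_congr rfl
        intro κ _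
        ring
    _ ≤ Q τ * (∑ κ ∈ P, Y κ) ^ 2 := mul_le_mul_of_nonneg_left h1 hQτ0

end Vale.Agent.Lib.P064.Forest
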