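import Vale.Agent.Lib.P064.Forest.PackGraph

/-!
P064 forests, module F14 (the number of vertices at which a type embeds).

ROUTE.  Let `A = {x | Emb R.ch h B x}`.  By pigeonhole on `x ↦ R.d x % (h+1)` there is a residue
class `A' ⊆ A` with `A.card ≤ (h+1) * A'.card`
(`Finset.exists_le_card_fiber_of_mul_le_card_of_maps_to` or `Finset.card_eq_sum_card_fiberwise`).
For `x ∈ A'` choose `s x` by `exists_down_of_emb`; `𝒯 = A'.image s` has `A'.card` elements (roots).
Two distinct `x, x' ∈ A'` have `d x = d x'` or `|d x - d x'| ≥ h + 1`, so `down_disjoint` applies.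
`packing_factorial` gives `m! ≤ y ^ m` with `m = A'.card`, `y = n * w`.  Since
`m ^ m / m! ≤ exp m` (`Real.pow_div_factorial_le_exp`), `(m / e) ^ m ≤ y ^ m`, hence `m ≤ e * y`
(`pow_le_pow_iff_left₀` / `lt_of_pow_lt_pow_left₀`; `m = 0` is trivial, `y ≥ 0`).
-/

open Finset SimpleGraph
open scoped Classical Nat

namespace Vale.Agent.Lib.P064.Forest

private lemma pc_nonempty_St {V : Type*} (x : V) : ∀ h : ℕ, Nonempty (St V h)
  | 0 => ⟨x⟩
  | _ + 1 => ⟨(x, ∅)⟩

private lemma pc_w_nonneg (c : ℝ) (hc : 0 ≤ c) : ∀ (h : ℕ) (B : RT h), 0 ≤ w c h B := by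
  intro h
  induction h with
  | zero =>
    intro B
    exact zero_le_one
  | succ h ih =>
    intro B
    change 0 ≤ Wt (α := RT h) (fun κ => c * w c h κ) B
    unfold Wt
    exact Finset.prod_nonneg (fun β _ =>
      div_nonneg (pow_nonneg (mul_nonneg hc (ih β)) _) (Nat.cast_nonneg _))

private lemma pc_le_of_factorial_le (m : ℕ) (y : ℝ) (hy : 0 ≤ y) (hm : ((m)! : ℝ) ≤ y ^ m) :
    (m : ℝ) ≤ Real.exp 1 * y := by
  rcases Nat.eq_zero_or_pos m with rfl | hpos
  · simpa using mul_nonneg (Real.exp_pos 1).le hy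
  · have h1 := Real.pow_div_factorial_le_exp (m : ℝ) (Nat.cast_nonneg m) m
    have hf : (0 : ℝ) < ((m)! : ℝ) := by exact_mod_cast Nat.factorial_pos m
    rw [div_le_iff₀ hf] at h1
    have h2 : Real.exp (m : ℝ) = Real.exp 1 ^ m := by
      rw [← Real.exp_nat_mul, mul_one]
    have h3 : (m : ℝ) ^ m ≤ (Real.exp 1 * y) ^ m := by
      rw [mul_pow, ← h2]
      exact h1.trans (mul_le_mul_of_nonneg_left hm (Real.exp_pos _).le)
    exact (pow_le_pow_iff_left₀ (Nat.cast_nonneg m) (mul_nonneg (Real.exp_pos 1).le hy)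
      hpos.ne').mp h3

private lemma pc_gap (a b k : ℕ) (hab : a % (k + 1) = b % (k + 1)) :
    a = b ∨ a + k < b ∨ b + k < a := by
  rcases lt_trichotomy a b with hlt | heq | hgt
  · right
    left
    have h1 : (k + 1) ∣ b - a := (Nat.modEq_iff_dvd' hlt.le).mp hab
    have h2 := Nat.le_of_dvd (by omega) h1
    omega
  · exact Or.inl heq
  · right
    right
    have h1 : (k + 1) ∣ a - b := (Nat.modEq_iff_dvd' hgt.le).mp hab.symm
    have h2 := Nat.le_of_dvd (by omega) h1
    omega

theorem card_emb_le {V : Type*} [Fintype V] [DecidableEq V] (n : ℕ) (H : SimpleGraph V)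
    (R : Rooting H) (q : ℝ) (hq0 : 0 < q) (hq1 : q ≤ 1)
    (hH : ∀ K : H.Subgraph,
      1 ≤ ((⊤ : SimpleGraph (Fin n)).copyCount K.coe : ℝ) * q ^ K.coe.edgeSet.ncard)
    (h : ℕ) (B : RT h) :
    ((univ.filter (fun x => Emb R.ch h B x)).card : ℝ) ≤
      (h + 1) * (Real.exp 1 * (n * w (n * q) h B)) := by
  set A : Finset V := univ.filter (fun x => Emb R.ch h B x) with hA
  have hy : 0 ≤ (n : ℝ) * w (n * q) h B :=
    mul_nonneg (Nat.cast_nonneg n) (pc_w_nonneg _ (mul_nonneg (Nat.cast_nonneg n) hq0.le) h B)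
  rcases A.eq_empty_or_nonempty with hAe | ⟨x0, _⟩
  · rw [hAe]
    simp only [Finset.card_empty, Nat.cast_zero]
    have : (0 : ℝ) ≤ (h : ℝ) + 1 := by positivity
    exact mul_nonneg this (mul_nonneg (Real.exp_pos 1).le hy)
  -- pigeonhole
  obtain ⟨c, _, hc⟩ := Finset.exists_max_image (Finset.range (h + 1))
    (fun c => (A.filter (fun x => R.d x % (h + 1) = c)).card) ⟨0, Finset.mem_range.mpr (by omega)⟩
  set A' : Finset V := A.filter (fun x => R.d x % (h + 1) = c) with hA'
  have hcard : A.card ≤ (h + 1) * A'.card := by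
    rw [Finset.card_eq_sum_card_fiberwise (s := A) (t := Finset.range (h + 1))
      (f := fun x => R.d x % (h + 1))
      (fun x _ => Finset.mem_coe.mpr (Finset.mem_range.mpr (Nat.mod_lt _ (by omega))))]
    have := Finset.sum_le_card_nsmul (Finset.range (h + 1))
      (fun c => (A.filter (fun x => R.d x % (h + 1) = c)).card) A'.card hc
    simpa using this
  -- the structures
  have : Nonempty (St V h) := pc_nonempty_St x0 h
  have hex : ∀ x, Emb R.ch h B x →
      ∃ T : St V h, St.root h T = x ∧ St.typ h T = B ∧ Down R.ch h T :=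
    fun x hx => exists_down_of_emb R.ch h B x hx
  choose! s hs using hex
  have hmemA : ∀ x ∈ A', Emb R.ch h B x := fun x hx =>
    (Finset.mem_filter.mp (Finset.mem_filter.mp hx).1).2
  have hinj : Set.InjOn s (A' : Set V) := by
    intro x hx x' hx' hxx
    have h1 := congrArg (St.root h) hxx
    rwa [(hs x (hmemA x hx)).1, (hs x' (hmemA x' hx')).1] at h1
  have hTcard : (A'.image s).card = A'.card := Finset.card_image_of_injOn hinj
  have hfac := packing_factorial n H R q hq0.le hq1 hH h B (A'.image s)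
    (by
      intro T hT
      obtain ⟨x, hx, rfl⟩ := Finset.mem_image.mp hT
      exact (hs x (hmemA x hx)).2.2)
    (by
      intro T hT
      obtain ⟨x, hx, rfl⟩ := Finset.mem_image.mp hT
      exact (hs x (hmemA x hx)).2.1)
    (by
      intro T hT T' hT' hne
      obtain ⟨x, hx, rfl⟩ := Finset.mem_image.mp hT
      obtain ⟨x', hx', rfl⟩ := Finset.mem_image.mp hT'
      have hxx : x ≠ x' := fun hxx => hne (by rw [hxx])
      refine down_disjoint R h _ _ (hs x (hmemA x hx)).2.2 (hs x' (hmemA x' hx')).2.2 ?_ ?_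
      · rw [(hs x (hmemA x hx)).1, (hs x' (hmemA x' hx')).1]
        exact hxx
      · rw [(hs x (hmemA x hx)).1, (hs x' (hmemA x' hx')).1]
        exact pc_gap _ _ h
          ((Finset.mem_filter.mp hx).2.trans (Finset.mem_filter.mp hx').2.symm))
  rw [hTcard] at hfac
  have hm := pc_le_of_factorial_le A'.card _ hy hfac
  calc (A.card : ℝ) ≤ ((h + 1) * A'.card : ℕ) := by exact_mod_cast hcard
    _ = ((h : ℝ) + 1) * (A'.card : ℝ) := by push_cast; ring
    _ ≤ ((h : ℝ) + 1) * (Real.exp 1 * (n * w (n * q) h B)) :=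
      mul_le_mul_of_nonneg_left hm (by positivity)

end Vale.Agent.Lib.P064.Forest
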