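import Vale.Agent.Lib.P064.Forest.Struct
import Vale.Agent.Lib.P064.Counting

/-!
P064 forests, module F11 (copies of a graph described by a system of `s` structures of type `B`).

ROUTE.  Exactly as `copyCount_le_choose_of_starSystem` in `Vale/Agent/Lib/P064/Counting.lean`
(read that proof first): `rw [copyCount_eq_card_image_copyToSubgraph]`, put
`g f = 𝒯.image (St.map f h)` for `f : Copy F ⊤`; `f.toSubgraph` is determined by `g f`
(`verts = ⋃ verts`, `Adj = arcs`, by `St.verts_map`, `St.arcs_map`), so by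
`card_image_le_of_factor` the number of copies is at most the number of values of `g`; every value
is an element of `powersetCard 𝒯.card (univ.filter (typ = B))` (`St.typ_map`, `St.map_injective`,
`f` injective).
-/

open Finset SimpleGraph
open scoped Classical Nat

namespace Vale.Agent.Lib.P064.Forest

lemma sys_mem_verts_map {U U' : Type*} (f : U → U') (h : ℕ) (T : St U h) (u : U') :
    u ∈ St.verts h (St.map f h T) ↔ ∃ w ∈ St.verts h T, f w = u := by
  rw [St.verts_map, Finset.mem_image]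

lemma sys_mem_arcs_map {U U' : Type*} (f : U → U') (h : ℕ) (T : St U h) (a b : U') :
    (a, b) ∈ St.arcs h (St.map f h T) ↔ ∃ x y, (x, y) ∈ St.arcs h T ∧ f x = a ∧ f y = b := by
  rw [St.arcs_map, Finset.mem_image]
  constructor
  · rintro ⟨⟨x, y⟩, hxy, he⟩
    exact ⟨x, y, hxy, congrArg Prod.fst he, congrArg Prod.snd he⟩
  · rintro ⟨x, y, hxy, rfl, rfl⟩
    exact ⟨(x, y), hxy, rfl⟩

theorem copyCount_le_choose_of_system {W : Type*} [Fintype W] (F : SimpleGraph W) (n h : ℕ)
    (B : RT h) (𝒯 : Finset (St W h)) (htyp : ∀ T ∈ 𝒯, St.typ h T = B)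
    (hadj : ∀ a b, F.Adj a b ↔ ∃ T ∈ 𝒯, (a, b) ∈ St.arcs h T ∨ (b, a) ∈ St.arcs h T)
    (hcov : ∀ z, ∃ T ∈ 𝒯, z ∈ St.verts h T) :
    (⊤ : SimpleGraph (Fin n)).copyCount F ≤ (cardTyp n h B).choose 𝒯.card := by
  rw [copyCount_eq_card_image_copyToSubgraph]
  set g : Copy F (⊤ : SimpleGraph (Fin n)) → Finset (St (Fin n) h) :=
    fun f => 𝒯.image (St.map (fun w => f w) h) with hg
  have hverts : ∀ f : Copy F (⊤ : SimpleGraph (Fin n)), ∀ u,
      u ∈ f.toSubgraph.verts ↔ ∃ x ∈ g f, u ∈ St.verts h x := by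
    intro f u
    simp only [Copy.toSubgraph, Subgraph.map_verts, Subgraph.verts_top, Set.image_univ,
      Set.mem_range, hg, Finset.mem_image]
    constructor
    · rintro ⟨w, rfl⟩
      obtain ⟨T, hT, hw⟩ := hcov w
      refine ⟨_, ⟨T, hT, rfl⟩, ?_⟩
      rw [sys_mem_verts_map]
      exact ⟨w, hw, rfl⟩
    · rintro ⟨x, ⟨T, _, rfl⟩, hu⟩
      rw [sys_mem_verts_map] at hu
      obtain ⟨w, _, hw⟩ := hu
      exact ⟨w, hw⟩
  have hAdj : ∀ f : Copy F (⊤ : SimpleGraph (Fin n)), ∀ a b, f.toSubgraph.Adj a b ↔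
      ∃ x ∈ g f, (a, b) ∈ St.arcs h x ∨ (b, a) ∈ St.arcs h x := by
    intro f a b
    simp only [Copy.toSubgraph, Subgraph.map_adj, Relation.Map, Subgraph.top_adj, hg,
      Finset.mem_image]
    constructor
    · rintro ⟨x, y, hxy, rfl, rfl⟩
      obtain ⟨T, hT, h1 | h1⟩ := (hadj x y).1 hxy
      · refine ⟨_, ⟨T, hT, rfl⟩, Or.inl ?_⟩
        rw [sys_mem_arcs_map]
        exact ⟨x, y, h1, rfl, rfl⟩
      · refine ⟨_, ⟨T, hT, rfl⟩, Or.inr ?_⟩
        rw [sys_mem_arcs_map]
        exact ⟨y, x, h1, rfl, rfl⟩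
    · rintro ⟨X, ⟨T, hT, rfl⟩, h1 | h1⟩
      · rw [sys_mem_arcs_map] at h1
        obtain ⟨x, y, hxy, h2, h3⟩ := h1
        exact ⟨x, y, (hadj x y).2 ⟨T, hT, Or.inl hxy⟩, h2, h3⟩
      · rw [sys_mem_arcs_map] at h1
        obtain ⟨x, y, hxy, h2, h3⟩ := h1
        exact ⟨y, x, (hadj y x).2 ⟨T, hT, Or.inr hxy⟩, h3, h2⟩
  calc (Finset.univ.image (Copy.toSubgraph (A := F) (B := (⊤ : SimpleGraph (Fin n))))).card
      ≤ (Finset.univ.image g).card := by
        refine card_image_le_of_factor _ _ _ ?_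
        intro f _ f' _ hff
        refine Subgraph.ext ?_ ?_
        · ext u
          rw [hverts, hverts, hff]
        · ext a b
          rw [hAdj, hAdj, hff]
    _ ≤ (Finset.powersetCard 𝒯.card
          (univ.filter (fun T : St (Fin n) h => St.typ h T = B))).card := by
        refine Finset.card_le_card ?_
        intro x hx
        obtain ⟨f, -, rfl⟩ := Finset.mem_image.1 hx
        have hinj : Function.Injective (fun w => f w) := f.injective
        rw [Finset.mem_powersetCard]
        constructor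
        · intro y hy
          obtain ⟨T, hT, rfl⟩ := Finset.mem_image.1 hy
          rw [Finset.mem_filter]
          refine ⟨Finset.mem_univ _, ?_⟩
          rw [St.typ_map _ hinj, htyp T hT]
        · exact Finset.card_image_of_injective _ (St.map_injective _ hinj h)
    _ = (cardTyp n h B).choose 𝒯.card := by
        rw [Finset.card_powersetCard]
        rfl

end Vale.Agent.Lib.P064.Forest
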