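import Vale.Agent.Lib.P064.Forest.Count
import Vale.Agent.Lib.P064.Forest.System
import Vale.Agent.Lib.P064.Forest.Down

/-!
P064 forests, module F13 (closedness applied to a disjoint family of downward structures).

ROUTE.  Let `s = 𝒯.card`.  Define `K : H.Subgraph` by
`verts = {z | ∃ T ∈ 𝒯, z ∈ verts T}`, `Adj a b = ∃ T ∈ 𝒯, (a,b) ∈ arcs T ∨ (b,a) ∈ arcs T`
(`adj_sub`, `edge_vert` from `down_arcs_sub` and `R.adj_iff`; `b ∈ R.ch a` unfolds to
`R.par b = a ∧ R.d b = R.d a + 1`).
(1) `s * (size h B - 1) ≤ K.coe.edgeSet.ncard`: the map `(a,b) ↦ s(a,b)` is injective on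
    `𝒯.biUnion arcs` (if `s(a,b) = s(a',b')` crosswise then `d b = d a + 1` and `d a = d b + 1`),
    its image lies in `K.edgeSet`; the sets `arcs T` are pairwise disjoint (second coordinates lie
    in the disjoint `verts T`) and have `size h B - 1` elements (`down_card_arcs`).  See
    `starUnion_edge_card` in `Counting.lean` for the passage `K.coe.edgeSet.ncard = K.edgeSet.ncard`.
(2) `copyCount ⊤ K.coe ≤ (cardTyp n h B).choose s`: by `St.exists_restrict` (with `A = K.verts`)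
    choose for `T ∈ 𝒯` a structure `T'` on the subtype with `map val T' = T`; apply
    `copyCount_le_choose_of_system` to `F = K.coe` and the family of the `T'`
    (`St.typ_map`, `St.verts_map`, `St.arcs_map` with `Subtype.val_injective`).
(3) `1 ≤ copyCount * q ^ e(K) ≤ (cardTyp).choose s * q ^ (s * (size - 1))
      ≤ (cardTyp * q ^ (size - 1)) ^ s / s! ≤ (n * w) ^ s / s!`
    (`pow_le_pow_of_le_one`, `Nat.choose_le_pow_div`, `cardTyp_le`).
-/

open Finset SimpleGraph
open scoped Classical Nat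

namespace Vale.Agent.Lib.P064.Forest

/-- the subgraph spanned by a family of downward structures -/
def packSub {V : Type*} [Fintype V] [DecidableEq V] (H : SimpleGraph V)
    (R : Rooting H) (h : ℕ) (𝒯 : Finset (St V h)) (hdown : ∀ T ∈ 𝒯, Down R.ch h T) :
    H.Subgraph where
  verts := {z | ∃ T ∈ 𝒯, z ∈ St.verts h T}
  Adj := fun a b => ∃ T ∈ 𝒯, (a, b) ∈ St.arcs h T ∨ (b, a) ∈ St.arcs h T
  adj_sub := by
    rintro a b ⟨T, hT, hab | hab⟩
    · have h1 := (down_arcs_sub R.ch h T (hdown T hT) a b hab).1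
      have h2 : R.par b = a ∧ R.d b = R.d a + 1 := by simpa [Rooting.ch] using h1
      exact (R.adj_iff a b).mpr (Or.inl h2)
    · have h1 := (down_arcs_sub R.ch h T (hdown T hT) b a hab).1
      have h2 : R.par a = b ∧ R.d a = R.d b + 1 := by simpa [Rooting.ch] using h1
      exact (R.adj_iff a b).mpr (Or.inr h2)
  edge_vert := by
    rintro a b ⟨T, hT, hab | hab⟩
    · exact ⟨T, hT, (down_arcs_sub R.ch h T (hdown T hT) a b hab).2.1⟩
    · exact ⟨T, hT, (down_arcs_sub R.ch h T (hdown T hT) b a hab).2.2⟩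
  symm := ⟨fun _ _ ⟨T, hT, hab⟩ => ⟨T, hT, hab.symm⟩⟩

lemma packSub_edge_card {V : Type*} [Fintype V] [DecidableEq V] (H : SimpleGraph V)
    (R : Rooting H) (h : ℕ) (B : RT h) (𝒯 : Finset (St V h)) (hdown : ∀ T ∈ 𝒯, Down R.ch h T)
    (htyp : ∀ T ∈ 𝒯, St.typ h T = B)
    (hdisj : ∀ T ∈ 𝒯, ∀ T' ∈ 𝒯, T ≠ T' → Disjoint (St.verts h T) (St.verts h T')) :
    𝒯.card * (size h B - 1) ≤ (packSub H R h 𝒯 hdown).coe.edgeSet.ncard := by
  set K := packSub H R h 𝒯 hdown with hK
  have h1 : K.coe.edgeSet.ncard = K.edgeSet.ncard := by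
    rw [← Subgraph.image_coe_edgeSet_coe, Set.ncard_image_of_injective]
    exact Sym2.map.injective Subtype.val_injective
  rw [h1]
  have h2 : (((𝒯.biUnion (St.arcs h)).image (fun x : V × V => s(x.1, x.2)) : Finset (Sym2 V)) :
      Set (Sym2 V)) ⊆ K.edgeSet := by
    intro e he
    obtain ⟨x, hx, rfl⟩ := Finset.mem_image.1 (Finset.mem_coe.1 he)
    obtain ⟨T, hT, hxT⟩ := Finset.mem_biUnion.1 hx
    rw [Subgraph.mem_edgeSet]
    exact ⟨T, hT, Or.inl hxT⟩
  have h3 : ((𝒯.biUnion (St.arcs h)).image (fun x : V × V => s(x.1, x.2))).card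
      = 𝒯.card * (size h B - 1) := by
    rw [Finset.card_image_of_injOn, Finset.card_biUnion]
    · refine Finset.sum_const_nat (fun T hT => ?_)
      have := down_card_arcs R h T (hdown T hT)
      rw [htyp T hT] at this
      omega
    · intro T hT T' hT' hne
      change Disjoint (St.arcs h T) (St.arcs h T')
      rw [Finset.disjoint_left]
      rintro ⟨a, b⟩ hab hab'
      have hb := (down_arcs_sub R.ch h T (hdown T hT) a b hab).2.2
      have hb' := (down_arcs_sub R.ch h T' (hdown T' hT') a b hab').2.2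
      exact (Finset.disjoint_left.1 (hdisj T hT T' hT' hne)) hb hb'
    · rintro ⟨a, b⟩ hx ⟨a', b'⟩ hy hxy
      obtain ⟨T, hT, hxT⟩ := Finset.mem_biUnion.1 (Finset.mem_coe.1 hx)
      obtain ⟨T', hT', hyT⟩ := Finset.mem_biUnion.1 (Finset.mem_coe.1 hy)
      simp only [Sym2.eq_iff] at hxy
      rcases hxy with ⟨e1, e2⟩ | ⟨e1, e2⟩
      · rw [e1, e2]
      · exfalso
        have g1 := (down_arcs_sub R.ch h T (hdown T hT) a b hxT).1
        have g2 := (down_arcs_sub R.ch h T' (hdown T' hT') a' b' hyT).1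
        have g1' : R.par b = a ∧ R.d b = R.d a + 1 := by simpa [Rooting.ch] using g1
        have g2' : R.par b' = a' ∧ R.d b' = R.d a' + 1 := by simpa [Rooting.ch] using g2
        rw [← e1, ← e2] at g2'
        omega
  rw [← h3, ← Set.ncard_coe_finset]
  exact Set.ncard_le_ncard h2 (Set.toFinite _)

lemma packSub_copyCount_le {V : Type*} [Fintype V] [DecidableEq V] (n : ℕ) (H : SimpleGraph V)
    (R : Rooting H) (h : ℕ) (B : RT h) (𝒯 : Finset (St V h)) (hdown : ∀ T ∈ 𝒯, Down R.ch h T)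
    (htyp : ∀ T ∈ 𝒯, St.typ h T = B) :
    (⊤ : SimpleGraph (Fin n)).copyCount (packSub H R h 𝒯 hdown).coe
      ≤ (cardTyp n h B).choose 𝒯.card := by
  set K := packSub H R h 𝒯 hdown with hK
  have hres : ∀ T ∈ 𝒯, ∃ T' : St K.verts h, St.map (Subtype.val : K.verts → V) h T' = T := by
    intro T hT
    exact St.exists_restrict K.verts h T (fun z hz => ⟨T, hT, hz⟩)
  choose res hres using hres
  set 𝒯' : Finset (St K.verts h) := 𝒯.attach.image (fun x => res x.1 x.2) with h𝒯'
  have hcard : 𝒯'.card = 𝒯.card := by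
    rw [h𝒯', Finset.card_image_of_injective, Finset.card_attach]
    intro x y hxy
    have : St.map (Subtype.val : K.verts → V) h (res x.1 x.2)
        = St.map (Subtype.val : K.verts → V) h (res y.1 y.2) := congrArg _ hxy
    rw [hres, hres] at this
    exact Subtype.ext this
  have hmem : ∀ T', T' ∈ 𝒯' ↔ St.map (Subtype.val : K.verts → V) h T' ∈ 𝒯 := by
    intro T'
    rw [h𝒯', Finset.mem_image]
    constructor
    · rintro ⟨x, -, rfl⟩
      rw [hres]
      exact x.2
    · intro hT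
      refine ⟨⟨_, hT⟩, Finset.mem_attach _ _, ?_⟩
      apply St.map_injective _ Subtype.val_injective h
      rw [hres]
  have harc : ∀ (T' : St K.verts h) (a b : K.verts),
      (a, b) ∈ St.arcs h T' ↔
        ((a : V), (b : V)) ∈ St.arcs h (St.map (Subtype.val : K.verts → V) h T') := by
    intro T' a b
    rw [St.arcs_map]
    simp only [Finset.mem_image]
    constructor
    · intro hab
      exact ⟨(a, b), hab, rfl⟩
    · rintro ⟨⟨a', b'⟩, hab, heq⟩
      have e1 : (a' : V) = a := congrArg Prod.fst heq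
      have e2 : (b' : V) = b := congrArg Prod.snd heq
      rw [← Subtype.ext e1, ← Subtype.ext e2]
      exact hab
  rw [← hcard]
  refine copyCount_le_choose_of_system K.coe n h B 𝒯' ?_ ?_ ?_
  · intro T' hT'
    rw [← St.typ_map _ Subtype.val_injective h T']
    exact htyp _ ((hmem T').1 hT')
  · intro a b
    constructor
    · rintro ⟨T, hT, hab⟩
      refine ⟨res T hT, (hmem _).2 (by rw [hres]; exact hT), ?_⟩
      rw [harc, harc, hres]
      exact hab
    · rintro ⟨T', hT', hab⟩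
      rw [harc, harc] at hab
      exact ⟨_, (hmem T').1 hT', hab⟩
  · rintro ⟨z, T, hT, hz⟩
    refine ⟨res T hT, (hmem _).2 (by rw [hres]; exact hT), ?_⟩
    have : z ∈ St.verts h (St.map (Subtype.val : K.verts → V) h (res T hT)) := by
      rw [hres]; exact hz
    rw [St.verts_map] at this
    simp only [Finset.mem_image] at this
    obtain ⟨z', hz', he⟩ := this
    have : z' = ⟨z, T, hT, hz⟩ := Subtype.ext he
    rw [← this]
    exact hz'

theorem packing_factorial {V : Type*} [Fintype V] [DecidableEq V] (n : ℕ) (H : SimpleGraph V)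
    (R : Rooting H) (q : ℝ) (hq0 : 0 ≤ q) (hq1 : q ≤ 1)
    (hH : ∀ K : H.Subgraph,
      1 ≤ ((⊤ : SimpleGraph (Fin n)).copyCount K.coe : ℝ) * q ^ K.coe.edgeSet.ncard)
    (h : ℕ) (B : RT h) (𝒯 : Finset (St V h)) (hdown : ∀ T ∈ 𝒯, Down R.ch h T)
    (htyp : ∀ T ∈ 𝒯, St.typ h T = B)
    (hdisj : ∀ T ∈ 𝒯, ∀ T' ∈ 𝒯, T ≠ T' → Disjoint (St.verts h T) (St.verts h T')) :
    ((𝒯.card)! : ℝ) ≤ (n * w (n * q) h B) ^ 𝒯.card := by
  set s := 𝒯.card with hs
  have h1 := hH (packSub H R h 𝒯 hdown)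
  have h2 := packSub_edge_card H R h B 𝒯 hdown htyp hdisj
  have h3 := packSub_copyCount_le n H R h B 𝒯 hdown htyp
  have h4 : q ^ (packSub H R h 𝒯 hdown).coe.edgeSet.ncard ≤ q ^ (s * (size h B - 1)) :=
    pow_le_pow_of_le_one hq0 hq1 h2
  have h5 : (((⊤ : SimpleGraph (Fin n)).copyCount (packSub H R h 𝒯 hdown).coe : ℕ) : ℝ)
      ≤ ((cardTyp n h B : ℕ) : ℝ) ^ s / (s ! : ℝ) := by
    refine le_trans ?_ (Nat.choose_le_pow_div s (cardTyp n h B))
    exact_mod_cast h3
  have hfac : (0 : ℝ) < (s ! : ℝ) := by exact_mod_cast Nat.factorial_pos s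
  have h6 : (1 : ℝ) ≤ ((cardTyp n h B : ℕ) : ℝ) ^ s / (s ! : ℝ) * q ^ (s * (size h B - 1)) := by
    refine h1.trans ?_
    exact mul_le_mul h5 h4 (pow_nonneg hq0 _) (by positivity)
  have h7 : ((cardTyp n h B : ℕ) : ℝ) ^ s / (s ! : ℝ) * q ^ (s * (size h B - 1))
      = ((cardTyp n h B : ℝ) * q ^ (size h B - 1)) ^ s / (s ! : ℝ) := by
    rw [mul_pow, ← pow_mul, mul_comm (size h B - 1) s]
    ring
  rw [h7, le_div_iff₀ hfac, one_mul] at h6
  refine h6.trans ?_
  exact pow_le_pow_left₀ (by positivity) (cardTyp_le n q hq0 h B) s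

end Vale.Agent.Lib.P064.Forest
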