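import Vale.Agent.Lib.P064.Forest.Defs

/-!
P064 forests, module F1 (random colouring / partition lemma).

ROUTE.  Let `t = card ι`, `s β = cnt κ β`, `𝓜` the set of injective `σ : ι ↪ V` with
`σ i ∈ S ∧ E (κ i) (σ i)` (so `Mcount = 𝓜.card`).  Average over ALL functions `c : V → ι`, and put
`χ = κ ∘ c`.  For a fixed `σ ∈ 𝓜` the number of `c` with `κ (c (σ i)) = κ i` for all `i` equals
`(∏ i, s (κ i)) * t ^ (card V - t)` (`Fintype.card_piFinset`: at `y = σ i` there are `s (κ i)`
choices, elsewhere `t`).  Double counting gives a `c` with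
`Mcount * ∏ i, s (κ i) * t ^ (card V - t) ≤ t ^ card V * N(c)`, where `N(c)` is the number of
`σ ∈ 𝓜` with `χ (σ i) = κ i` for all `i`; cancel `t ^ (card V - t)` (cases `t = 0`, and
`card V < t` where `Mcount = 0`, are trivial).  Finally
`N(c) ≤ ∏ β ∈ image κ, (n β).descFactorial (s β)` with `n β = #{y ∈ S | E β y ∧ χ y = β}`: the map
`σ ↦ (β ↦ restriction of σ to the fibre {i | κ i = β})` is injective into the product of the sets
of embeddings `{i // κ i = β} ↪ {y // y ∈ S ∧ E β y ∧ χ y = β}` (`Fintype.card_embedding_eq`).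

(`[Nonempty α]` is needed: for `ι`, `α` empty and `V` nonempty there is no `χ : V → α`.)
-/

open Finset
open scoped Classical Nat

namespace Vale.Agent.Lib.P064.Forest

lemma part_count_colourings {ι α V : Type*} [Fintype ι] [DecidableEq ι] [DecidableEq α]
    [Fintype V] [DecidableEq V] (κ : ι → α) (σ : ι ↪ V) :
    (univ.filter (fun c : V → ι => ∀ i, κ (c (σ i)) = κ i)).card =
      (∏ i, cnt κ (κ i)) * (Fintype.card ι) ^ (Fintype.card V - Fintype.card ι) := by
  let A : V → Finset ι := fun y => univ.filter (fun j => ∀ i, σ i = y → κ j = κ i)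
  have h1 : univ.filter (fun c : V → ι => ∀ i, κ (c (σ i)) = κ i) = Fintype.piFinset A := by
    ext c
    simp only [Finset.mem_filter, Finset.mem_univ, true_and, Fintype.mem_piFinset, A]
    constructor
    · intro h y i hi
      subst hi
      exact h i
    · intro h i
      exact h (σ i) i rfl
  rw [h1, Fintype.card_piFinset]
  rw [← Finset.prod_mul_prod_compl (univ.map σ) (fun y => (A y).card)]
  congr 1
  · rw [Finset.prod_map]
    apply Finset.prod_congr rfl
    intro i _
    unfold cnt
    congr 1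
    ext j
    simp only [A, Finset.mem_filter, Finset.mem_univ, true_and]
    constructor
    · intro h
      exact h i rfl
    · intro h i' hi'
      rw [σ.injective hi']
      exact h
  · rw [Finset.prod_congr rfl (g := fun _ => Fintype.card ι)]
    · rw [Finset.prod_const, Finset.card_compl, Finset.card_map, Finset.card_univ]
    · intro y hy
      have hA : A y = univ := by
        ext j
        simp only [A, Finset.mem_filter, Finset.mem_univ, true_and, iff_true]
        intro i hi
        exfalso
        apply (Finset.mem_compl.mp hy)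
        rw [Finset.mem_map]
        exact ⟨i, mem_univ _, hi⟩
      rw [hA, Finset.card_univ]

lemma part_count_embeddings {ι α V : Type*} [Fintype ι] [DecidableEq ι] [DecidableEq α]
    [Fintype V] [DecidableEq V] (S : Finset V) (E : α → V → Prop) (κ : ι → α) (χ : V → α) :
    (univ.filter (fun σ : ι ↪ V => (∀ i, σ i ∈ S ∧ E (κ i) (σ i)) ∧ ∀ i, χ (σ i) = κ i)).card ≤
      ∏ β ∈ univ.image κ,
          ((S.filter (fun y => E β y ∧ χ y = β)).card).descFactorial (cnt κ β) := by
  set R := univ.image κ with hR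
  let F : α → Type _ :=
    fun β => {i // κ i = β} ↪ {y // y ∈ S.filter (fun y => E β y ∧ χ y = β)}
  have hcardF : ∀ β, Fintype.card (F β) =
      ((S.filter (fun y => E β y ∧ χ y = β)).card).descFactorial (cnt κ β) := by
    intro β
    rw [Fintype.card_embedding_eq, Fintype.card_coe, Fintype.card_subtype]
    rfl
  let Φ : {σ : ι ↪ V // (∀ i, σ i ∈ S ∧ E (κ i) (σ i)) ∧ ∀ i, χ (σ i) = κ i} →
      ((β : R) → F β.1) :=
    fun σ β => ⟨fun i => ⟨σ.1 i.1, by
        rw [Finset.mem_filter]
        refine ⟨(σ.2.1 i.1).1, ?_, ?_⟩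
        · have h := (σ.2.1 i.1).2
          rwa [i.2] at h
        · rw [σ.2.2 i.1, i.2]⟩,
      fun i j hij => by
        apply Subtype.ext
        apply σ.1.injective
        exact congrArg Subtype.val hij⟩
  have hΦ : Function.Injective Φ := by
    intro σ σ' h
    apply Subtype.ext
    ext i
    have hi : κ i ∈ R := by
      rw [hR]
      exact Finset.mem_image_of_mem κ (mem_univ i)
    have h1 := congrFun h ⟨κ i, hi⟩
    have h2 := congrArg (fun f : F (κ i) => (f ⟨i, rfl⟩).1) h1
    exact h2
  calc (univ.filter (fun σ : ι ↪ V =>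
          (∀ i, σ i ∈ S ∧ E (κ i) (σ i)) ∧ ∀ i, χ (σ i) = κ i)).card
      = Fintype.card {σ : ι ↪ V // (∀ i, σ i ∈ S ∧ E (κ i) (σ i)) ∧ ∀ i, χ (σ i) = κ i} := by
        rw [Fintype.card_subtype]
    _ ≤ Fintype.card ((β : R) → F β.1) := Fintype.card_le_of_injective Φ hΦ
    _ = ∏ β : R, Fintype.card (F β.1) := Fintype.card_pi
    _ = ∏ β : R, ((S.filter (fun y => E β.1 y ∧ χ y = β.1)).card).descFactorial (cnt κ β.1) := by
        apply Finset.prod_congr rfl
        intro β _
        exact hcardF β.1
    _ = ∏ β ∈ R, ((S.filter (fun y => E β y ∧ χ y = β)).card).descFactorial (cnt κ β) :=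
        Finset.prod_coe_sort R
          (fun β => ((S.filter (fun y => E β y ∧ χ y = β)).card).descFactorial (cnt κ β))

theorem partition_lemma {ι α V : Type*} [Fintype ι] [DecidableEq ι] [DecidableEq α] [Nonempty α]
    [Fintype V] [DecidableEq V] (S : Finset V) (E : α → V → Prop) (κ : ι → α) :
    ∃ χ : V → α, Mcount S E κ * ∏ i, cnt κ (κ i) ≤
      (Fintype.card ι) ^ (Fintype.card ι) *
        ∏ β ∈ univ.image κ,
          ((S.filter (fun y => E β y ∧ χ y = β)).card).descFactorial (cnt κ β) := by
  rcases isEmpty_or_nonempty ι with hι | hι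
  · refine ⟨fun _ => Classical.arbitrary α, ?_⟩
    have h1 : Mcount S E κ ≤ 1 := by
      unfold Mcount
      calc _ ≤ (univ : Finset (ι ↪ V)).card := Finset.card_filter_le _ _
        _ = Fintype.card (ι ↪ V) := Finset.card_univ
        _ ≤ 1 := Fintype.card_le_one_iff_subsingleton.mpr inferInstance
    simpa [Finset.univ_eq_empty] using h1
  rcases lt_or_ge (Fintype.card V) (Fintype.card ι) with hlt | hle
  · refine ⟨fun _ => Classical.arbitrary α, ?_⟩
    have h0 : Mcount S E κ = 0 := by
      unfold Mcount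
      have : IsEmpty (ι ↪ V) := Function.Embedding.isEmpty_of_card_lt hlt
      rw [Finset.univ_eq_empty, Finset.filter_empty, Finset.card_empty]
    rw [h0, zero_mul]
    exact Nat.zero_le _
  set t := Fintype.card ι with ht
  set T := ∏ i, cnt κ (κ i) with hT
  set 𝓜 := univ.filter (fun σ : ι ↪ V => ∀ i, σ i ∈ S ∧ E (κ i) (σ i)) with h𝓜
  have hM : Mcount S E κ = 𝓜.card := rfl
  have hdc : ∑ c : V → ι, (𝓜.filter (fun σ => ∀ i, κ (c (σ i)) = κ i)).card =
      𝓜.card * (T * t ^ (Fintype.card V - t)) := by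
    have h := Finset.sum_card_bipartiteAbove_eq_sum_card_bipartiteBelow
      (s := (univ : Finset (V → ι))) (t := 𝓜)
      (fun (c : V → ι) (σ : ι ↪ V) => ∀ i, κ (c (σ i)) = κ i)
    unfold Finset.bipartiteAbove Finset.bipartiteBelow at h
    rw [h]
    rw [Finset.sum_congr rfl (fun σ _ => part_count_colourings κ σ)]
    rw [Finset.sum_const, smul_eq_mul]
  have hex : ∃ c ∈ (univ : Finset (V → ι)),
      𝓜.card * T ≤ t ^ t * (𝓜.filter (fun σ => ∀ i, κ (c (σ i)) = κ i)).card := by
    apply Finset.exists_le_of_sum_le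
    · exact Finset.univ_nonempty
    · rw [Finset.sum_const, smul_eq_mul, Finset.card_univ, Fintype.card_fun, ← Finset.mul_sum,
        hdc]
      have hpow : t ^ t * t ^ (Fintype.card V - t) = t ^ Fintype.card V := by
        rw [← pow_add, Nat.add_sub_cancel' hle]
      rw [← ht, ← hpow]
      apply le_of_eq
      ring
  obtain ⟨c, _, hc⟩ := hex
  refine ⟨κ ∘ c, ?_⟩
  rw [hM]
  refine hc.trans (Nat.mul_le_mul_left _ ?_)
  have h2 := part_count_embeddings S E κ (κ ∘ c)
  rw [h𝓜, Finset.filter_filter]
  exact h2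

end Vale.Agent.Lib.P064.Forest
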