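import Vale.Agent.Lib.P064.Forest.Defs

/-!
P064 forests, module F15 (labelled patterns versus pattern types).

ROUTE.  `exists_equiv_toType`: both `{x // x ∈ s}` and `(s.val.map f).ToType = Σ a, Fin (count a _)`
are fibred over `α` with fibres of the same cardinality
(`Multiset.count_map`, `Finset.card_filter`...): compose `Equiv.sigmaFiberEquiv` (inverse) with
`Equiv.sigmaCongrRight` of `Fintype.equivFinOfCardEq`-type equivalences.
`DF_eq_D` by induction on `h`: unfold `D (h+1) = DOne`, reindex the sum over embeddings with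
`(Equiv.embeddingCongr e (Equiv.refl V))` (`Fintype.sum_equiv`/`Equiv.sum_comp`) and the product
with `e` (`Fintype.prod_equiv`).
-/

open Finset
open scoped Classical Nat

namespace Vale.Agent.Lib.P064.Forest

/-- the type of the tree hanging at `u`, truncated at depth `h` -/
noncomputable def ftyp {W : Type*} (ch : W → Finset W) : (h : ℕ) → W → RT h
  | 0, _ => ()
  | h + 1, u => (ch u).val.map (ftyp ch h)

/-- labelled version of `D` -/
noncomputable def DF {W V : Type*} [DecidableEq W] [Fintype V] [DecidableEq V]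
    (chF : W → Finset W) (chH : V → Finset V) : ℕ → W → V → ℝ
  | 0, _, _ => 1
  | h + 1, u, y => ∑ σ : {u' // u' ∈ chF u} ↪ V,
      if (∀ i, σ i ∈ chH y) then ∏ i, DF chF chH h i.1 (σ i) else 0

theorem exists_equiv_toType {β α : Type*} [DecidableEq α] (s : Finset β) (f : β → α) :
    ∃ e : {x // x ∈ s} ≃ (s.val.map f).ToType, ∀ i, (e i).1 = f i.1 := by
  classical
  -- fibres
  have hcard : ∀ a : α, Fintype.card {x : {x // x ∈ s} // f x.1 = a} = (s.val.map f).count a := by
    intro a
    rw [Multiset.count_map]
    rw [Fintype.card_subtype]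
    have : (Multiset.filter (fun b => a = f b) s.val) = (s.filter (fun b => a = f b)).val := rfl
    rw [this]
    change _ = (s.filter (fun b => a = f b)).card
    refine Finset.card_bij (fun x _ => x.1) ?_ ?_ ?_
    · intro x hx
      simp only [Finset.mem_filter, Finset.mem_univ, true_and] at hx
      simp only [Finset.mem_filter]
      exact ⟨x.2, hx.symm⟩
    · intro x _ y _ h
      exact Subtype.ext h
    · intro b hb
      simp only [Finset.mem_filter] at hb
      exact ⟨⟨b, hb.1⟩, by simp [hb.2.symm], rfl⟩
  let e1 : (Σ a : α, {x : {x // x ∈ s} // f x.1 = a}) ≃ {x // x ∈ s} :=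
    Equiv.sigmaFiberEquiv (fun x : {x // x ∈ s} => f x.1)
  let e2 : (Σ a : α, {x : {x // x ∈ s} // f x.1 = a}) ≃ (Σ a : α, Fin ((s.val.map f).count a)) :=
    Equiv.sigmaCongrRight (fun a => Fintype.equivFinOfCardEq (hcard a))
  refine ⟨e1.symm.trans e2, ?_⟩
  intro i
  rfl

theorem DF_eq_D {W V : Type*} [DecidableEq W] [Fintype V] [DecidableEq V]
    (chF : W → Finset W) (chH : V → Finset V) : ∀ (h : ℕ) (u : W) (y : V),
    DF chF chH h u y = D chH h (ftyp chF h u) y := by
  intro h
  induction h with
  | zero => intro u y; rfl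
  | succ h ih =>
    intro u y
    obtain ⟨e, he⟩ := exists_equiv_toType (chF u) (ftyp chF h)
    change (∑ σ : {u' // u' ∈ chF u} ↪ V,
      if (∀ i, σ i ∈ chH y) then ∏ i, DF chF chH h i.1 (σ i) else 0) =
      ∑ σ : ((chF u).val.map (ftyp chF h)).ToType ↪ V,
        if (∀ i, σ i ∈ chH y) then ∏ i, D chH h i.1 (σ i) else 0
    refine Fintype.sum_equiv (Equiv.embeddingCongr e (Equiv.refl V)) _ _ ?_
    intro σ
    have h1 : (∀ i, σ i ∈ chH y) ↔
        (∀ i, (Equiv.embeddingCongr e (Equiv.refl V) σ) i ∈ chH y) := by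
      constructor
      · intro hh i
        have := hh (e.symm i)
        simpa [Equiv.embeddingCongr] using this
      · intro hh i
        have := hh (e i)
        simpa [Equiv.embeddingCongr] using this
    by_cases hc : ∀ i, σ i ∈ chH y
    · rw [if_pos hc, if_pos (h1.mp hc)]
      refine Fintype.prod_equiv e _ _ ?_
      intro i
      rw [ih, he i]
      congr 1
      simp [Equiv.embeddingCongr]
    · rw [if_neg hc, if_neg (fun hh => hc (h1.mpr hh))]

end Vale.Agent.Lib.P064.Forest
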