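import Vale.Agent.Lib.P064.Forest.Partition

/-!
P064 forests, module F2 (pointwise bound: kept and dropped classes).

ROUTE.  Take `χ` from `partition_lemma`; `t = card ι`, `R = image κ univ`, `s β = cnt κ β ≥ 1` on
`R`, `n β = #{y ∈ S | E β y ∧ χ y = β}`, `θ = 4 e`.  Call `β ∈ R` KEPT if `θ * a β < n β` and
`s β ≤ n β`.  Put `T = {y ∈ S | χ y ∈ R, χ y kept, E (χ y) y}`, `g = χ`, `B = T.val.map χ`; then
`B.count β = n β` for kept `β` and `0` otherwise, which gives `EmbOne` and `Compat`.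
Numerics, for every `β ∈ R`, with `n = n β, s = s β, a = a β`:
* not kept: `n.descFactorial s / a ^ s ≤ θ ^ s` (it is `0` if `n < s`, and `≤ n ^ s ≤ (θ a) ^ s`).
* kept: `n.descFactorial s / a ^ s = (n! / a ^ n) * (a ^ (n - s) / (n - s)!)` and
  `a ^ m / m! ≤ e ^ s / 4 ^ m` for `m = n - s`, because
  `(θ a) ^ m / m! ≤ exp (θ a) ≤ exp n = e ^ m * e ^ s` (`Real.pow_div_factorial_le_exp`) and
  `θ ^ m = 4 ^ m * e ^ m`.  So the factor is `≤ θ ^ s * (n! / a ^ n) * (1/4) ^ (n - s)`.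
* `t ^ t / ∏ i, s (κ i) ≤ e ^ t * Q κ`: `t ^ t ≤ e ^ t * t!` (`Real.pow_div_factorial_le_exp`),
  `∏ i, s (κ i) = ∏ β ∈ R, s β ^ s β ≥ ∏ β ∈ R, (s β)!` (`Nat.factorial_le_pow`), and
  `∏ i, (a (κ i))⁻¹ = ∏ β ∈ R, (a β)⁻¹ ^ s β`, `∑ β ∈ R, s β = t` (`Finset.prod_fiberwise`,
  `Finset.card_eq_sum_card_fiberwise`).

(`[Nonempty α]` is needed: for `ι`, `α` empty and `V` nonempty there is no `g : V → α`.)
-/

open Finset
open scoped Classical Nat

namespace Vale.Agent.Lib.P064.Forest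

lemma pw_not_kept (n s : ℕ) (a θ : ℝ) (ha : 0 < a) (hθ : 0 ≤ θ)
    (h : ¬ (θ * a < n ∧ s ≤ n)) : (n.descFactorial s : ℝ) * (a⁻¹) ^ s ≤ θ ^ s := by
  by_cases hs : s ≤ n
  · have h1 : (n : ℝ) ≤ θ * a := by
      by_contra hc
      exact h ⟨not_le.mp hc, hs⟩
    have h2 : (n.descFactorial s : ℝ) ≤ (n : ℝ) ^ s := by
      exact_mod_cast Nat.descFactorial_le_pow n s
    have h3 : (n : ℝ) ^ s ≤ (θ * a) ^ s := pow_le_pow_left₀ (Nat.cast_nonneg n) h1 s
    calc (n.descFactorial s : ℝ) * (a⁻¹) ^ s ≤ (θ * a) ^ s * (a⁻¹) ^ s :=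
          mul_le_mul_of_nonneg_right (h2.trans h3) (by positivity)
      _ = θ ^ s := by
          rw [← mul_pow, mul_assoc, mul_inv_cancel₀ ha.ne', mul_one]
  · have h0 : n.descFactorial s = 0 := Nat.descFactorial_eq_zero_iff_lt.mpr (not_le.mp hs)
    rw [h0]
    simp only [Nat.cast_zero, zero_mul]
    positivity

lemma pw_kept (n s : ℕ) (a : ℝ) (ha : 0 < a) (h1 : 4 * Real.exp 1 * a < n) (h2 : s ≤ n) :
    (n.descFactorial s : ℝ) * (a⁻¹) ^ s ≤
      (4 * Real.exp 1) ^ s * ((n ! : ℝ) / a ^ n * (1 / 4 : ℝ) ^ (n - s)) := by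
  obtain ⟨m, rfl⟩ : ∃ m, n = m + s := ⟨n - s, (Nat.sub_add_cancel h2).symm⟩
  rw [Nat.add_sub_cancel]
  have he : 0 < Real.exp 1 := Real.exp_pos 1
  have hfac : ((m ! : ℕ) : ℝ) * ((m + s).descFactorial s : ℝ) = ((m + s)! : ℕ) := by
    have := Nat.factorial_mul_descFactorial (n := m + s) (k := s) (Nat.le_add_left s m)
    rw [Nat.add_sub_cancel] at this
    exact_mod_cast this
  have hm0 : (0 : ℝ) < (m ! : ℕ) := by exact_mod_cast Nat.factorial_pos m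
  have hdesc : ((m + s).descFactorial s : ℝ) = ((m + s)! : ℕ) / (m ! : ℕ) := by
    rw [eq_div_iff hm0.ne', mul_comm]
    exact hfac
  have hexp : (4 * Real.exp 1 * a) ^ m / (m ! : ℕ) ≤ Real.exp 1 ^ m * Real.exp 1 ^ s := by
    have h3 := Real.pow_div_factorial_le_exp (4 * Real.exp 1 * a) (by positivity) m
    have h4 : Real.exp (4 * Real.exp 1 * a) ≤ Real.exp ((m + s : ℕ) : ℝ) :=
      Real.exp_le_exp.mpr h1.le
    have h5 : Real.exp ((m + s : ℕ) : ℝ) = Real.exp 1 ^ m * Real.exp 1 ^ s := by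
      rw [← pow_add, Real.exp_one_pow]
    rw [← h5]
    exact h3.trans h4
  have hkey : a ^ m / (m ! : ℕ) ≤ Real.exp 1 ^ s * (1 / 4 : ℝ) ^ m := by
    have h6 : (4 * Real.exp 1 * a) ^ m / (m ! : ℕ) =
        (4 ^ m * Real.exp 1 ^ m) * (a ^ m / (m ! : ℕ)) := by
      rw [mul_pow, mul_pow]
      ring
    rw [h6] at hexp
    have h7 : (0 : ℝ) < 4 ^ m * Real.exp 1 ^ m := by positivity
    have h8 : a ^ m / (m ! : ℕ) ≤ (Real.exp 1 ^ m * Real.exp 1 ^ s) / (4 ^ m * Real.exp 1 ^ m) := by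
      rw [le_div_iff₀ h7, mul_comm]
      exact hexp
    refine h8.trans (le_of_eq ?_)
    rw [one_div, inv_pow]
    field_simp
  have hes : Real.exp 1 ^ s ≤ (4 * Real.exp 1) ^ s :=
    pow_le_pow_left₀ he.le (by nlinarith) s
  have hN : (0 : ℝ) ≤ ((m + s)! : ℕ) / a ^ (m + s) := by positivity
  calc ((m + s).descFactorial s : ℝ) * (a⁻¹) ^ s
      = ((m + s)! : ℕ) / a ^ (m + s) * (a ^ m / (m ! : ℕ)) := by
        rw [hdesc, pow_add, inv_pow]
        field_simp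
    _ ≤ ((m + s)! : ℕ) / a ^ (m + s) * (Real.exp 1 ^ s * (1 / 4 : ℝ) ^ m) :=
        mul_le_mul_of_nonneg_left hkey hN
    _ ≤ ((m + s)! : ℕ) / a ^ (m + s) * ((4 * Real.exp 1) ^ s * (1 / 4 : ℝ) ^ m) := by
        apply mul_le_mul_of_nonneg_left _ hN
        exact mul_le_mul_of_nonneg_right hes (by positivity)
    _ = (4 * Real.exp 1) ^ s * (((m + s)! : ℕ) / a ^ (m + s) * (1 / 4 : ℝ) ^ m) := by ring


lemma pw_prod_fiber {ι α : Type*} [Fintype ι] [DecidableEq α] (κ : ι → α) (f : α → ℝ) :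
    ∏ i, f (κ i) = ∏ β ∈ univ.image κ, f β ^ cnt κ β := by
  rw [Finset.prod_comp f κ]
  rfl

lemma pw_sum_cnt {ι α : Type*} [Fintype ι] [DecidableEq α] (κ : ι → α) :
    ∑ β ∈ univ.image κ, cnt κ β = Fintype.card ι := by
  rw [← Finset.card_univ, Finset.card_eq_sum_card_image κ univ]
  rfl

lemma pw_cnt_pos {ι α : Type*} [Fintype ι] [DecidableEq α] (κ : ι → α) (i : ι) :
    1 ≤ cnt κ (κ i) := by
  unfold cnt
  exact Finset.card_pos.mpr ⟨i, by simp⟩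

lemma pw_Q_bound {ι α : Type*} [Fintype ι] [DecidableEq α] (κ : ι → α) :
    ((Fintype.card ι : ℝ)) ^ (Fintype.card ι) ≤
      Real.exp 1 ^ (Fintype.card ι) * Q κ * ∏ i, (cnt κ (κ i) : ℝ) := by
  set t := Fintype.card ι with ht
  have h1 : (t : ℝ) ^ t ≤ Real.exp 1 ^ t * (t ! : ℕ) := by
    have h := Real.pow_div_factorial_le_exp (t : ℝ) (Nat.cast_nonneg t) t
    rw [div_le_iff₀ (by exact_mod_cast Nat.factorial_pos t)] at h
    rw [Real.exp_one_pow]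
    exact h
  have h2 : ∏ i, (cnt κ (κ i) : ℝ) = ∏ β ∈ univ.image κ, (cnt κ β : ℝ) ^ cnt κ β :=
    pw_prod_fiber κ (fun β => (cnt κ β : ℝ))
  have h3 : ∏ β ∈ univ.image κ, ((cnt κ β)! : ℝ) ≤ ∏ β ∈ univ.image κ, (cnt κ β : ℝ) ^ cnt κ β := by
    apply Finset.prod_le_prod
    · intro β _
      positivity
    · intro β _
      exact_mod_cast Nat.factorial_le_pow (cnt κ β)
  have h4 : (0 : ℝ) < ∏ β ∈ univ.image κ, ((cnt κ β)! : ℝ) := by
    apply Finset.prod_pos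
    intro β _
    exact_mod_cast Nat.factorial_pos _
  have h5 : ((t ! : ℕ) : ℝ) ≤ Q κ * ∏ i, (cnt κ (κ i) : ℝ) := by
    unfold Q
    rw [h2, div_mul_eq_mul_div, le_div_iff₀ h4]
    exact mul_le_mul_of_nonneg_left h3 (by positivity)
  calc (t : ℝ) ^ t ≤ Real.exp 1 ^ t * (t ! : ℕ) := h1
    _ ≤ Real.exp 1 ^ t * (Q κ * ∏ i, (cnt κ (κ i) : ℝ)) :=
        mul_le_mul_of_nonneg_left h5 (by positivity)
    _ = Real.exp 1 ^ t * Q κ * ∏ i, (cnt κ (κ i) : ℝ) := by ring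

theorem pointwise {ι α V : Type*} [Fintype ι] [DecidableEq ι] [DecidableEq α] [Nonempty α]
    [Fintype V] [DecidableEq V] (S : Finset V) (E : α → V → Prop)
    (a : α → ℝ) (ha : ∀ β, 0 < a β) (κ : ι → α) :
    ∃ B : Multiset α, EmbOne S E B ∧ Compat κ B ∧
      (Mcount S E κ : ℝ) * ∏ i, (a (κ i))⁻¹ ≤
        (4 * Real.exp 1 * Real.exp 1) ^ (Fintype.card ι) * Q κ * ((G κ B) ^ 2 / Wt a B) := by
  obtain ⟨χ, hχ⟩ := partition_lemma S E κ
  set t := Fintype.card ι with ht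
  set R := univ.image κ with hR
  set n : α → ℕ := fun β => (S.filter (fun y => E β y ∧ χ y = β)).card with hn
  set Kp := R.filter (fun β => 4 * Real.exp 1 * a β < (n β : ℝ) ∧ cnt κ β ≤ n β) with hKp
  set T := S.filter (fun y => χ y ∈ Kp ∧ E (χ y) y) with hT
  set B : Multiset α := T.val.map χ with hB
  have he : 0 < Real.exp 1 := Real.exp_pos 1
  have hcount1 : ∀ β ∈ Kp, B.count β = n β := by
    intro β hβ
    rw [hB, Multiset.count_map, ← Finset.filter_val, ← Finset.card_def, hn]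
    congr 1
    ext y
    simp only [hT, Finset.mem_filter]
    constructor
    · rintro ⟨⟨h1, _, h3⟩, h4⟩
      subst h4
      exact ⟨h1, h3, rfl⟩
    · rintro ⟨h1, h2, h3⟩
      subst h3
      exact ⟨⟨h1, hβ, h2⟩, rfl⟩
  have hcount0 : ∀ β, β ∉ Kp → B.count β = 0 := by
    intro β hβ
    rw [Multiset.count_eq_zero, hB, Multiset.mem_map]
    rintro ⟨y, hy, rfl⟩
    have hy' : y ∈ T := hy
    rw [hT, Finset.mem_filter] at hy'
    exact hβ hy'.2.1
  have hnpos : ∀ β ∈ Kp, 0 < n β := by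
    intro β hβ
    have h1 := (Finset.mem_filter.mp hβ).2.1
    have h2 : (0 : ℝ) < 4 * Real.exp 1 * a β := by
      have := ha β
      positivity
    exact_mod_cast h2.trans h1
  have htoF : B.toFinset = Kp := by
    ext β
    rw [Multiset.mem_toFinset, ← Multiset.count_pos]
    by_cases hβ : β ∈ Kp
    · rw [hcount1 β hβ]
      exact ⟨fun _ => hβ, fun _ => hnpos β hβ⟩
    · rw [hcount0 β hβ]
      exact ⟨fun h => absurd h (lt_irrefl 0), fun h => absurd h hβ⟩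
  refine ⟨B, ⟨T, χ, Finset.filter_subset _ _, rfl, ?_⟩, ?_, ?_⟩
  · intro y hy
    rw [hT, Finset.mem_filter] at hy
    exact hy.2.2
  · intro β hβ
    have hβ' : β ∈ Kp := by
      rw [← htoF, Multiset.mem_toFinset]
      exact hβ
    have h1 := Finset.mem_filter.mp hβ'
    obtain ⟨i, _, hi⟩ := Finset.mem_image.mp h1.1
    refine ⟨?_, ?_⟩
    · rw [← hi]
      exact pw_cnt_pos κ i
    · rw [hcount1 β hβ']
      exact h1.2.2
  -- the inequality
  set Ψ : ℝ := ∏ β ∈ Kp, (((n β)! : ℝ) / a β ^ (n β) * (1 / 4 : ℝ) ^ (n β - cnt κ β)) with hΨ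
  have hGW : (G κ B) ^ 2 / Wt a B = Ψ := by
    unfold G Wt
    rw [htoF, ← Finset.prod_pow, ← Finset.prod_div_distrib, hΨ]
    apply Finset.prod_congr rfl
    intro β hβ
    rw [hcount1 β hβ]
    have h1 : ((1 / 2 : ℝ) ^ (n β - cnt κ β)) ^ 2 = (1 / 4 : ℝ) ^ (n β - cnt κ β) := by
      rw [← pow_mul, mul_comm, pow_mul]
      norm_num
    rw [h1]
    have h2 : (0 : ℝ) < a β ^ n β := pow_pos (ha β) _
    have h3 : (0 : ℝ) < ((n β)! : ℝ) := by exact_mod_cast Nat.factorial_pos _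
    field_simp
  rw [hGW]
  have hΨ0 : 0 ≤ Ψ := by
    apply Finset.prod_nonneg
    intro β _
    have := ha β
    positivity
  set P' : ℝ := ∏ i, (cnt κ (κ i) : ℝ) with hP'
  have hP'pos : 0 < P' := by
    apply Finset.prod_pos
    intro i _
    exact_mod_cast pw_cnt_pos κ i
  have hχ' : (Mcount S E κ : ℝ) * P' ≤
      (t : ℝ) ^ t * ∏ β ∈ R, ((n β).descFactorial (cnt κ β) : ℝ) := by
    have := hχ
    have h2 : ((Mcount S E κ * ∏ i, cnt κ (κ i) : ℕ) : ℝ) ≤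
      ((t ^ t * ∏ β ∈ R, (n β).descFactorial (cnt κ β) : ℕ) : ℝ) := by
      exact_mod_cast this
    push_cast at h2
    exact h2
  have hA : ∏ i, (a (κ i))⁻¹ = ∏ β ∈ R, ((a β)⁻¹) ^ cnt κ β :=
    pw_prod_fiber κ (fun β => (a β)⁻¹)
  have hA0 : 0 ≤ ∏ β ∈ R, ((a β)⁻¹) ^ cnt κ β := by
    apply Finset.prod_nonneg
    intro β _
    have := ha β
    positivity
  have hfac : ∏ β ∈ R, (((n β).descFactorial (cnt κ β) : ℝ) * ((a β)⁻¹) ^ cnt κ β) ≤
      (4 * Real.exp 1) ^ t * Ψ := by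
    have h1 : ∏ β ∈ R, (((n β).descFactorial (cnt κ β) : ℝ) * ((a β)⁻¹) ^ cnt κ β) ≤
        ∏ β ∈ R, ((4 * Real.exp 1) ^ cnt κ β *
          (if (4 * Real.exp 1 * a β < (n β : ℝ) ∧ cnt κ β ≤ n β) then
            (((n β)! : ℝ) / a β ^ (n β) * (1 / 4 : ℝ) ^ (n β - cnt κ β)) else 1)) := by
      apply Finset.prod_le_prod
      · intro β _
        have := ha β
        positivity
      · intro β _
        split_ifs with hk
        · exact pw_kept (n β) (cnt κ β) (a β) (ha β) hk.1 hk.2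
        · rw [mul_one]
          exact pw_not_kept (n β) (cnt κ β) (a β) (4 * Real.exp 1) (ha β) (by positivity) hk
    refine h1.trans (le_of_eq ?_)
    rw [Finset.prod_mul_distrib, Finset.prod_pow_eq_pow_sum, hR, pw_sum_cnt κ, ← hR,
      ← Finset.prod_filter]
  have hQ := pw_Q_bound κ
  rw [← ht, ← hP'] at hQ
  have hmain : ((Mcount S E κ : ℝ) * ∏ i, (a (κ i))⁻¹) * P' ≤
      ((4 * Real.exp 1 * Real.exp 1) ^ t * Q κ * Ψ) * P' := by
    calc ((Mcount S E κ : ℝ) * ∏ i, (a (κ i))⁻¹) * P'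
        = ((Mcount S E κ : ℝ) * P') * ∏ β ∈ R, ((a β)⁻¹) ^ cnt κ β := by
          rw [hA]
          ring
      _ ≤ ((t : ℝ) ^ t * ∏ β ∈ R, ((n β).descFactorial (cnt κ β) : ℝ)) *
            ∏ β ∈ R, ((a β)⁻¹) ^ cnt κ β := mul_le_mul_of_nonneg_right hχ' hA0
      _ = (t : ℝ) ^ t *
            ∏ β ∈ R, (((n β).descFactorial (cnt κ β) : ℝ) * ((a β)⁻¹) ^ cnt κ β) := by
          rw [Finset.prod_mul_distrib]
          ring
      _ ≤ (t : ℝ) ^ t * ((4 * Real.exp 1) ^ t * Ψ) :=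
          mul_le_mul_of_nonneg_left hfac (by positivity)
      _ ≤ (Real.exp 1 ^ t * Q κ * P') * ((4 * Real.exp 1) ^ t * Ψ) :=
          mul_le_mul_of_nonneg_right hQ (by positivity)
      _ = ((4 * Real.exp 1 * Real.exp 1) ^ t * Q κ * Ψ) * P' := by
          rw [mul_pow (4 * Real.exp 1) (Real.exp 1) t]
          ring
  exact le_of_mul_le_mul_right hmain hP'pos

end Vale.Agent.Lib.P064.Forest
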