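import Vale.Agent.Lib.P064.Forest.Defs

/-!
P064 forests, module F4 (sum over the certificates compatible with a sequence).

ROUTE.  Let `R = image κ univ`, `s β = cnt κ β`.  If `Compat κ B` then `B.toFinset ⊆ R`
(`cnt κ β ≥ 1` means `β ∈ R`) and `G κ B = ∏ β ∈ R, g β (B.count β)` with
`g β 0 = 1`, `g β b = (1/2) ^ (b - s β)` if `s β ≤ b`, and `0` otherwise (for `b ≥ 1`).
The map `B ↦ (fun β : R => B.count β)` is injective on `{B | B.toFinset ⊆ R}`; with `M` a bound on
all counts of all `B ∈ 𝒰` the sum is at most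
`∑ b ∈ piFinset (fun _ : R => range (M+1)), ∏ β, g β (b β) = ∏ β : R, ∑ b ∈ range (M+1), g β b`
(`Finset.prod_univ_sum`), each factor is `≤ 1 + 2 = 3` (geometric sum), and `card R ≤ card ι`.
-/

open Finset
open scoped Classical Nat

namespace Vale.Agent.Lib.P064.Forest

lemma zb_geo (s n : ℕ) :
    ∑ b ∈ range n, (if s ≤ b then (1 / 2 : ℝ) ^ (b - s) else 0) ≤ 2 := by
  rw [← Finset.sum_filter]
  have h : (range n).filter (fun b => s ≤ b) = Ico s n := by
    ext b
    simp [and_comm]
  rw [h, Finset.sum_Ico_eq_sum_range]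
  simp only [Nat.add_sub_cancel_left]
  exact sum_geometric_two_le _

/-- the one-type factor -/
noncomputable def zbg (s b : ℕ) : ℝ :=
  if b = 0 then 1 else if s ≤ b then (1 / 2 : ℝ) ^ (b - s) else 0

lemma zbg_nonneg (s b : ℕ) : 0 ≤ zbg s b := by
  unfold zbg
  split_ifs <;> positivity

lemma zbg_sum_le (s M : ℕ) : ∑ b ∈ range (M + 1), zbg s b ≤ 3 := by
  have h1 : ∀ b ∈ range (M + 1), zbg s b ≤
      (if b = 0 then (1 : ℝ) else 0) + (if s ≤ b then (1 / 2 : ℝ) ^ (b - s) else 0) := by
    intro b _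
    unfold zbg
    split_ifs <;> first | positivity | simp
  refine (Finset.sum_le_sum h1).trans ?_
  rw [Finset.sum_add_distrib]
  have h2 : ∑ b ∈ range (M + 1), (if b = 0 then (1 : ℝ) else 0) = 1 := by
    rw [Finset.sum_ite_eq' (range (M + 1)) 0 (fun _ => (1 : ℝ))]
    simp
  have h3 := zb_geo s (M + 1)
  linarith

lemma zb_mem_image {ι α : Type*} [Fintype ι] [DecidableEq α] (κ : ι → α) (β : α)
    (h : 1 ≤ cnt κ β) : β ∈ univ.image κ := by
  unfold cnt at h
  obtain ⟨i, hi⟩ := Finset.card_pos.mp h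
  exact Finset.mem_image.mpr ⟨i, Finset.mem_univ _, (Finset.mem_filter.mp hi).2⟩

lemma zb_G_eq {ι α : Type*} [Fintype ι] [DecidableEq α] (κ : ι → α) (B : Multiset α)
    (hB : Compat κ B) :
    G κ B = ∏ β ∈ univ.image κ, zbg (cnt κ β) (B.count β) := by
  unfold G
  have hsub : B.toFinset ⊆ univ.image κ := by
    intro β hβ
    exact zb_mem_image κ β (hB β (Multiset.mem_toFinset.mp hβ)).1
  rw [← Finset.prod_subset hsub]
  · apply Finset.prod_congr rfl
    intro β hβ
    have hβ' := Multiset.mem_toFinset.mp hβ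
    have h1 : B.count β ≠ 0 := (Multiset.count_pos.mpr hβ').ne'
    unfold zbg
    rw [if_neg h1, if_pos (hB β hβ').2]
  · intro β _ hβ
    have h1 : B.count β = 0 := by
      rw [Multiset.count_eq_zero]
      intro h
      exact hβ (Multiset.mem_toFinset.mpr h)
    unfold zbg
    rw [if_pos h1]

theorem compat_G_sum_le {ι α : Type*} [Fintype ι] [DecidableEq α] (κ : ι → α)
    (𝒰 : Finset (Multiset α)) :
    ∑ B ∈ 𝒰, (if Compat κ B then G κ B else 0) ≤ (3 : ℝ) ^ (Fintype.card ι) := by
  set R := (univ : Finset ι).image κ with hR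
  set M := 𝒰.sup (fun B => Multiset.card B) with hM
  rw [← Finset.sum_filter]
  set F := 𝒰.filter (fun B => Compat κ B) with hF
  set ph : Multiset α → (R → ℕ) := fun B β => B.count β.1 with hph
  have hinj : Set.InjOn ph (F : Set (Multiset α)) := by
    intro B hB B' hB' h
    have hc : Compat κ B := (Finset.mem_filter.mp hB).2
    have hc' : Compat κ B' := (Finset.mem_filter.mp hB').2
    ext β
    by_cases hβ : β ∈ R
    · exact congrFun h ⟨β, hβ⟩
    · have h1 : B.count β = 0 := by
        rw [Multiset.count_eq_zero]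
        intro hm
        exact hβ (zb_mem_image κ β (hc β hm).1)
      have h2 : B'.count β = 0 := by
        rw [Multiset.count_eq_zero]
        intro hm
        exact hβ (zb_mem_image κ β (hc' β hm).1)
      rw [h1, h2]
  have hmaps : ∀ B ∈ F, ph B ∈ Fintype.piFinset (fun _ : R => range (M + 1)) := by
    intro B hB
    rw [Fintype.mem_piFinset]
    intro β
    rw [Finset.mem_range]
    have h1 : B.count β.1 ≤ Multiset.card B := Multiset.count_le_card _ _
    have h2 : Multiset.card B ≤ M :=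
      Finset.le_sup (f := fun B => Multiset.card B) (Finset.mem_filter.mp hB).1
    exact Nat.lt_succ_of_le (h1.trans h2)
  have h1 : ∑ B ∈ F, G κ B = ∑ B ∈ F, ∏ β : R, zbg (cnt κ β.1) (ph B β) := by
    apply Finset.sum_congr rfl
    intro B hB
    rw [zb_G_eq κ B (Finset.mem_filter.mp hB).2]
    exact (Finset.prod_coe_sort R (fun β => zbg (cnt κ β) (B.count β))).symm
  rw [h1]
  have h2 : ∑ B ∈ F, ∏ β : R, zbg (cnt κ β.1) (ph B β) =
      ∑ b ∈ F.image ph, ∏ β : R, zbg (cnt κ β.1) (b β) := by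
    rw [Finset.sum_image hinj]
  rw [h2]
  have h3 : ∑ b ∈ F.image ph, ∏ β : R, zbg (cnt κ β.1) (b β) ≤
      ∑ b ∈ Fintype.piFinset (fun _ : R => range (M + 1)), ∏ β : R, zbg (cnt κ β.1) (b β) := by
    apply Finset.sum_le_sum_of_subset_of_nonneg
    · intro b hb
      obtain ⟨B, hB, rfl⟩ := Finset.mem_image.mp hb
      exact hmaps B hB
    · intro b _ _
      exact Finset.prod_nonneg (fun β _ => zbg_nonneg _ _)
  refine h3.trans ?_
  rw [← Finset.prod_univ_sum]
  have h4 : ∏ β : R, ∑ b ∈ range (M + 1), zbg (cnt κ β.1) b ≤ ∏ _β : R, (3 : ℝ) :=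
    Finset.prod_le_prod (fun β _ => Finset.sum_nonneg (fun b _ => zbg_nonneg _ _))
      (fun β _ => zbg_sum_le _ _)
  refine h4.trans ?_
  rw [Finset.prod_const, Finset.card_univ, Fintype.card_coe]
  apply pow_le_pow_right₀ (by norm_num)
  exact Finset.card_image_le.trans (le_of_eq (Finset.card_univ))

end Vale.Agent.Lib.P064.Forest
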