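import Vale.Agent.Lib.P064.Forest.Pointwise
import Vale.Agent.Lib.P064.Forest.Orbit
import Vale.Agent.Lib.P064.Forest.ZBound

/-!
P064 forests, module F5 (the abstract induction step).

ROUTE for `one_level`.  For each `κ` take `B κ` from `pointwise`.  Then, with
`Y B κ = X m B κ` (so `Y (B κ) κ = (∏ m i (κ i)) * G κ (B κ)` by `Compat`),
`(∏ i, m i (κ i) ^ 2 / a (κ i)) * Mcount κ ≤ (4 e e) ^ t * Q κ * (Y (B κ) κ) ^ 2 / Wt a (B κ)
   ≤ (4 e e) ^ t * ∑ B ∈ 𝒰.filter EmbOne, Q κ * (Y B κ) ^ 2 / Wt a B` (single term of a nonnegative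
sum), exchange the sums and apply `orbit_ineq` for each `B` (invariance: `cnt (κ ∘ π) = cnt κ`, so
`Compat`, `G` are invariant, and `∏ i, m i (κ (π i)) = ∏ i, m i (κ i)` by reindexing with `π` and
`hmτ`).
ROUTE for `step`: expand `DOne`, bound every factor with `hf`, expand the product of sums with
`Finset.prod_univ_sum`, exchange sums; the inner sum over `σ` of the indicator is `Mcount`.  Then
`one_level` with `ι = Φ.ToType`, `τ = Sigma.fst`, and `Q_fst`, `Real.sq_sqrt`.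
ROUTE for `muOne_sum`: exchange sums, `compat_G_sum_le`, `Finset.prod_univ_sum` backwards,
`sqrt ((1/9)^t * mult) * 3 ^ t = sqrt mult`.
-/

open Finset
open scoped Classical Nat

namespace Vale.Agent.Lib.P064.Forest

instance step_instNonemptyRT : ∀ h : ℕ, Nonempty (RT h)
  | 0 => ⟨()⟩
  | h + 1 => ⟨(0 : Multiset (RT h))⟩

lemma Wt_pos {α : Type*} [DecidableEq α] (a : α → ℝ) (ha : ∀ β, 0 < a β) (B : Multiset α) :
    0 < Wt a B := by
  unfold Wt
  exact Finset.prod_pos (fun β _ => div_pos (pow_pos (ha β) _)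
    (Nat.cast_pos.mpr (Nat.factorial_pos _)))

lemma mult_pos {α : Type*} [DecidableEq α] (Φ : Multiset α) : 0 < mult Φ := by
  unfold mult
  exact div_pos (Nat.cast_pos.mpr (Nat.factorial_pos _))
    (Finset.prod_pos (fun β _ => Nat.cast_pos.mpr (Nat.factorial_pos _)))

lemma step_Q_nonneg {ι α : Type*} [Fintype ι] [DecidableEq α] (κ : ι → α) : 0 ≤ Q κ := by
  unfold Q
  exact div_nonneg (Nat.cast_nonneg _) (Finset.prod_nonneg (fun β _ => Nat.cast_nonneg _))

lemma step_cnt_fst {α : Type*} [DecidableEq α] (Φ : Multiset α) (β : α) :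
    cnt (fun i : Φ.ToType => i.1) β = Φ.count β := by
  unfold cnt
  have h1 : Φ.count β = ((Finset.univ : Finset Φ.ToType).val.map (fun x => x.1)).count β := by
    rw [Multiset.map_univ_coe]
  rw [h1, Multiset.count_map]
  rw [Finset.card_def, Finset.filter_val]
  congr 1
  apply Multiset.filter_congr
  intro x _
  exact eq_comm

lemma step_image_fst {α : Type*} [DecidableEq α] (Φ : Multiset α) :
    (Finset.univ : Finset Φ.ToType).image (fun i => i.1) = Φ.toFinset := by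
  ext β
  simp only [Finset.mem_image, Finset.mem_univ, true_and, Multiset.mem_toFinset]
  constructor
  · rintro ⟨i, rfl⟩
    exact Multiset.coe_mem
  · intro h
    exact ⟨Φ.mkToType β ⟨0, Multiset.count_pos.mpr h⟩, rfl⟩

lemma Q_fst {α : Type*} [DecidableEq α] (Φ : Multiset α) :
    Q (fun i : Φ.ToType => i.1) = mult Φ := by
  unfold Q mult
  rw [Multiset.card_coe, step_image_fst]
  congr 1
  apply Finset.prod_congr rfl
  intro β _
  rw [step_cnt_fst]

lemma step_G_nonneg {ι α : Type*} [Fintype ι] [DecidableEq α] (κ : ι → α) (B : Multiset α) :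
    0 ≤ G κ B := by
  unfold G
  exact Finset.prod_nonneg (fun β _ => by positivity)

lemma X_nonneg {ι α : Type*} [Fintype ι] [DecidableEq α] (m : ι → α → ℝ)
    (hm0 : ∀ i β, 0 ≤ m i β) (B : Multiset α) (κ : ι → α) : 0 ≤ X m B κ := by
  unfold X
  split_ifs
  · exact mul_nonneg (Finset.prod_nonneg (fun i _ => hm0 i _)) (step_G_nonneg κ B)
  · exact le_rfl

lemma step_cnt_comp_perm {ι α : Type*} [Fintype ι] [DecidableEq α] (κ : ι → α) (π : Equiv.Perm ι)
    (β : α) : cnt (κ ∘ π) β = cnt κ β := by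
  unfold cnt
  apply Finset.card_bij (fun i _ => π i)
  · intro i hi
    simpa using hi
  · intro i _ j _ h
    exact π.injective h
  · intro j hj
    refine ⟨π.symm j, ?_, by simp⟩
    simpa using hj

lemma step_X_comp_perm {ι α T : Type*} [Fintype ι] [DecidableEq α]
    (τ : ι → T) (m : ι → α → ℝ) (hmτ : ∀ i j, τ i = τ j → m i = m j) (B : Multiset α)
    (π : Equiv.Perm ι) (hπ : ∀ i, τ (π i) = τ i) (κ : ι → α) :
    X m B (κ ∘ π) = X m B κ := by
  have hc : ∀ β, cnt (κ ∘ π) β = cnt κ β := step_cnt_comp_perm κ π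
  have h1 : Compat (κ ∘ π) B ↔ Compat κ B := by
    unfold Compat
    simp only [hc]
  have h2 : G (κ ∘ π) B = G κ B := by
    unfold G
    simp only [hc]
  have h3 : ∏ i, m i ((κ ∘ π) i) = ∏ i, m i (κ i) := by
    rw [← Equiv.prod_comp π (fun i => m i (κ i))]
    apply Finset.prod_congr rfl
    intro i _
    rw [hmτ (π i) i (hπ i)]
    rfl
  unfold X
  simp only [h1, h2, h3]

theorem one_level {ι α V T : Type*} [Fintype ι] [DecidableEq ι] [DecidableEq α] [Nonempty α]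
    [Fintype V] [DecidableEq V] [DecidableEq T]
    (τ : ι → T) (m : ι → α → ℝ) (hm0 : ∀ i β, 0 ≤ m i β) (hmτ : ∀ i j, τ i = τ j → m i = m j)
    (S : Finset V) (E : α → V → Prop) (a : α → ℝ) (ha : ∀ β, 0 < a β)
    (K : Finset α) (𝒰 : Finset (Multiset α)) (h𝒰 : ∀ B, EmbOne S E B → B ∈ 𝒰) :
    ∑ κ ∈ Fintype.piFinset (fun _ : ι => K),
        (∏ i, (m i (κ i)) ^ 2 / a (κ i)) * (Mcount S E κ : ℝ) ≤
      (4 * Real.exp 1 * Real.exp 1) ^ (Fintype.card ι) * Q τ *
        ∑ B ∈ 𝒰.filter (fun B => EmbOne S E B),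
          (∑ κ ∈ Fintype.piFinset (fun _ : ι => K), X m B κ) ^ 2 / Wt a B := by
  set C : ℝ := (4 * Real.exp 1 * Real.exp 1) ^ (Fintype.card ι) with hC
  have hC0 : 0 ≤ C := by positivity
  set F := 𝒰.filter (fun B => EmbOne S E B) with hF
  -- pointwise bound
  have hpt : ∀ κ : ι → α, (∏ i, (m i (κ i)) ^ 2 / a (κ i)) * (Mcount S E κ : ℝ) ≤
      C * ∑ B ∈ F, Q κ * (X m B κ) ^ 2 / Wt a B := by
    intro κ
    obtain ⟨B, hB1, hB2, hB3⟩ := pointwise S E a ha κ
    have hBF : B ∈ F := by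
      rw [hF, Finset.mem_filter]
      exact ⟨h𝒰 B hB1, hB1⟩
    have hX : X m B κ = (∏ i, m i (κ i)) * G κ B := by
      unfold X
      rw [if_pos hB2]
    have h1 : (∏ i, (m i (κ i)) ^ 2 / a (κ i)) =
        (∏ i, m i (κ i)) ^ 2 * ∏ i, (a (κ i))⁻¹ := by
      rw [← Finset.prod_pow, ← Finset.prod_mul_distrib]
      apply Finset.prod_congr rfl
      intro i _
      rw [div_eq_mul_inv]
    have h2 : (∏ i, (m i (κ i)) ^ 2 / a (κ i)) * (Mcount S E κ : ℝ) ≤
        C * (Q κ * (X m B κ) ^ 2 / Wt a B) := by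
      rw [h1, hX]
      have h3 : (∏ i, m i (κ i)) ^ 2 * ((Mcount S E κ : ℝ) * ∏ i, (a (κ i))⁻¹) ≤
          (∏ i, m i (κ i)) ^ 2 * (C * Q κ * ((G κ B) ^ 2 / Wt a B)) :=
        mul_le_mul_of_nonneg_left hB3 (sq_nonneg _)
      calc ((∏ i, m i (κ i)) ^ 2 * ∏ i, (a (κ i))⁻¹) * (Mcount S E κ : ℝ)
          = (∏ i, m i (κ i)) ^ 2 * ((Mcount S E κ : ℝ) * ∏ i, (a (κ i))⁻¹) := by ring
        _ ≤ (∏ i, m i (κ i)) ^ 2 * (C * Q κ * ((G κ B) ^ 2 / Wt a B)) := h3
        _ = C * (Q κ * ((∏ i, m i (κ i)) * G κ B) ^ 2 / Wt a B) := by ring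
    refine h2.trans (mul_le_mul_of_nonneg_left ?_ hC0)
    exact Finset.single_le_sum (f := fun B => Q κ * (X m B κ) ^ 2 / Wt a B)
      (fun B' _ => div_nonneg (mul_nonneg (step_Q_nonneg κ) (sq_nonneg _)) (Wt_pos a ha B').le) hBF
  calc ∑ κ ∈ Fintype.piFinset (fun _ : ι => K),
        (∏ i, (m i (κ i)) ^ 2 / a (κ i)) * (Mcount S E κ : ℝ)
      ≤ ∑ κ ∈ Fintype.piFinset (fun _ : ι => K), C * ∑ B ∈ F, Q κ * (X m B κ) ^ 2 / Wt a B :=
        Finset.sum_le_sum (fun κ _ => hpt κ)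
    _ = C * ∑ B ∈ F, (∑ κ ∈ Fintype.piFinset (fun _ : ι => K), Q κ * (X m B κ) ^ 2) / Wt a B := by
        rw [← Finset.mul_sum, Finset.sum_comm]
        congr 1
        apply Finset.sum_congr rfl
        intro B _
        rw [Finset.sum_div]
    _ ≤ C * ∑ B ∈ F, (Q τ * (∑ κ ∈ Fintype.piFinset (fun _ : ι => K), X m B κ) ^ 2) / Wt a B := by
        apply mul_le_mul_of_nonneg_left _ hC0
        apply Finset.sum_le_sum
        intro B _
        apply div_le_div_of_nonneg_right _ (Wt_pos a ha B).le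
        exact orbit_ineq τ K (X m B) (X_nonneg m hm0 B)
          (fun π hπ κ => step_X_comp_perm τ m hmτ B π hπ κ)
    _ = C * Q τ * ∑ B ∈ F, (∑ κ ∈ Fintype.piFinset (fun _ : ι => K), X m B κ) ^ 2 / Wt a B := by
        rw [mul_assoc]
        congr 1
        rw [Finset.mul_sum]
        apply Finset.sum_congr rfl
        intro B _
        rw [mul_div_assoc]

theorem muOne_nonneg {α : Type*} [DecidableEq α] (K : Finset α) (m : α → α → ℝ)
    (hm0 : ∀ b β, 0 ≤ m b β) (Φ B : Multiset α) : 0 ≤ muOne K m Φ B := by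
  unfold muOne
  exact mul_nonneg (Real.sqrt_nonneg _)
    (Finset.sum_nonneg (fun κ _ => X_nonneg _ (fun i β => hm0 i.1 β) B κ))

lemma step_prod_coe_map {α : Type*} [DecidableEq α] (Φ : Multiset α) (g : α → ℝ) :
    ∏ i : Φ.ToType, g i.1 = (Φ.map g).prod := by
  rw [← Multiset.map_univ Φ g]
  rfl

theorem step {α V : Type*} [DecidableEq α] [Nonempty α] [Fintype V] [DecidableEq V]
    (S : Finset V) (E : α → V → Prop) (a : α → ℝ) (ha : ∀ β, 0 < a β)
    (K : Finset α) (𝒰 : Finset (Multiset α)) (h𝒰 : ∀ B, EmbOne S E B → B ∈ 𝒰)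
    (m : α → α → ℝ) (hm0 : ∀ b β, 0 ≤ m b β)
    (f : α → V → ℝ) (hf0 : ∀ b y, 0 ≤ f b y) (A : α → ℝ) (hA : ∀ b, 0 ≤ A b)
    (hf : ∀ b y, y ∈ S → f b y ≤ A b * ∑ β ∈ K.filter (fun β => E β y), (m b β) ^ 2 / a β)
    (Φ : Multiset α) :
    DOne S f Φ ≤ (Φ.map A).prod * (36 * Real.exp 1 * Real.exp 1) ^ (Multiset.card Φ) *
      ∑ B ∈ 𝒰.filter (fun B => EmbOne S E B), (muOne K m Φ B) ^ 2 / Wt a B := by
  set PA : ℝ := ∏ i : Φ.ToType, A i.1 with hPA
  have hPA0 : 0 ≤ PA := Finset.prod_nonneg (fun i _ => hA i.1)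
  have hw0 : ∀ (b β : α), 0 ≤ (m b β) ^ 2 / a β := fun b β => div_nonneg (sq_nonneg _) (ha β).le
  -- bound for every σ
  have hσ : ∀ σ : Φ.ToType ↪ V, (if (∀ i, σ i ∈ S) then ∏ i, f i.1 (σ i) else 0) ≤
      PA * ∑ κ ∈ Fintype.piFinset (fun _ : Φ.ToType => K),
        (∏ i : Φ.ToType, (m i.1 (κ i)) ^ 2 / a (κ i)) *
          (if (∀ i, σ i ∈ S ∧ E (κ i) (σ i)) then 1 else 0) := by
    intro σ
    split_ifs with hS
    · have h1 : ∏ i, f i.1 (σ i) ≤
          ∏ i : Φ.ToType, (A i.1 * ∑ β ∈ K.filter (fun β => E β (σ i)), (m i.1 β) ^ 2 / a β) :=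
        Finset.prod_le_prod (fun i _ => hf0 _ _) (fun i _ => hf i.1 (σ i) (hS i))
      refine h1.trans (le_of_eq ?_)
      rw [Finset.prod_mul_distrib]
      congr 1
      have h2 : ∀ i : Φ.ToType, ∑ β ∈ K.filter (fun β => E β (σ i)), (m i.1 β) ^ 2 / a β =
          ∑ β ∈ K, (if E β (σ i) then (m i.1 β) ^ 2 / a β else 0) := by
        intro i
        rw [Finset.sum_filter]
      simp only [h2]
      rw [Finset.prod_univ_sum]
      apply Finset.sum_congr rfl
      intro κ _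
      rw [Finset.prod_ite_zero]
      by_cases hE : ∀ i, E (κ i) (σ i)
      · rw [if_pos (fun i _ => hE i), if_pos (fun i => ⟨hS i, hE i⟩), mul_one]
      · rw [if_neg (fun h => hE (fun i => h i (Finset.mem_univ i))),
          if_neg (fun h => hE (fun i => (h i).2)), mul_zero]
    · apply mul_nonneg hPA0
      apply Finset.sum_nonneg
      intro κ _
      apply mul_nonneg (Finset.prod_nonneg (fun i _ => hw0 _ _))
      split_ifs <;> norm_num
  have h1 : DOne S f Φ ≤ PA * ∑ κ ∈ Fintype.piFinset (fun _ : Φ.ToType => K),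
      (∏ i : Φ.ToType, (m i.1 (κ i)) ^ 2 / a (κ i)) * (Mcount S E κ : ℝ) := by
    unfold DOne
    refine (Finset.sum_le_sum (fun σ _ => hσ σ)).trans (le_of_eq ?_)
    rw [← Finset.mul_sum, Finset.sum_comm]
    congr 1
    apply Finset.sum_congr rfl
    intro κ _
    rw [← Finset.mul_sum]
    congr 1
    unfold Mcount
    rw [Finset.sum_boole]
  have h2 := one_level (fun i : Φ.ToType => i.1) (fun i : Φ.ToType => m i.1)
    (fun i β => hm0 i.1 β) (fun i j hij => by simp only [hij]) S E a ha K 𝒰 h𝒰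
  rw [Q_fst, Multiset.card_coe] at h2
  refine h1.trans ((mul_le_mul_of_nonneg_left h2 hPA0).trans (le_of_eq ?_))
  have key : ∑ B ∈ 𝒰.filter (fun B => EmbOne S E B), (muOne K m Φ B) ^ 2 / Wt a B =
      ((1 / 9 : ℝ) ^ (Multiset.card Φ) * mult Φ) *
        ∑ B ∈ 𝒰.filter (fun B => EmbOne S E B),
          (∑ κ ∈ Fintype.piFinset (fun _ : Φ.ToType => K), X (fun i => m i.1) B κ) ^ 2 /
            Wt a B := by
    rw [Finset.mul_sum]
    apply Finset.sum_congr rfl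
    intro B _
    unfold muOne
    rw [mul_pow, Real.sq_sqrt (by have := mult_pos Φ; positivity)]
    ring
  have h3 : (36 * Real.exp 1 * Real.exp 1) ^ (Multiset.card Φ) * (1 / 9 : ℝ) ^ (Multiset.card Φ) =
      (4 * Real.exp 1 * Real.exp 1) ^ (Multiset.card Φ) := by
    rw [← mul_pow]
    congr 1
    ring
  rw [key, hPA, step_prod_coe_map, ← h3]
  ring

theorem muOne_sum {α : Type*} [DecidableEq α] (K : Finset α) (𝒰 : Finset (Multiset α))
    (m : α → α → ℝ) (hm0 : ∀ b β, 0 ≤ m b β) (Φ : Multiset α) :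
    ∑ B ∈ 𝒰, muOne K m Φ B ≤
      Real.sqrt (mult Φ) * (Φ.map (fun b => ∑ β ∈ K, m b β)).prod := by
  unfold muOne
  rw [← Finset.mul_sum, Finset.sum_comm]
  have h1 : ∀ κ : Φ.ToType → α, ∑ B ∈ 𝒰, X (fun i : Φ.ToType => m i.1) B κ ≤
      (∏ i : Φ.ToType, m i.1 (κ i)) * (3 : ℝ) ^ (Multiset.card Φ) := by
    intro κ
    have h2 := compat_G_sum_le κ 𝒰
    rw [Multiset.card_coe] at h2
    have h3 : ∑ B ∈ 𝒰, X (fun i : Φ.ToType => m i.1) B κ =
        (∏ i : Φ.ToType, m i.1 (κ i)) * ∑ B ∈ 𝒰, (if Compat κ B then G κ B else 0) := by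
      rw [Finset.mul_sum]
      apply Finset.sum_congr rfl
      intro B _
      unfold X
      split_ifs <;> simp
    rw [h3]
    exact mul_le_mul_of_nonneg_left h2 (Finset.prod_nonneg (fun i _ => hm0 _ _))
  have h4 : ∑ κ ∈ Fintype.piFinset (fun _ : Φ.ToType => K),
      ∑ B ∈ 𝒰, X (fun i : Φ.ToType => m i.1) B κ ≤
      (Φ.map (fun b => ∑ β ∈ K, m b β)).prod * (3 : ℝ) ^ (Multiset.card Φ) := by
    refine (Finset.sum_le_sum (fun κ _ => h1 κ)).trans (le_of_eq ?_)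
    rw [← Finset.sum_mul, ← step_prod_coe_map, Finset.prod_univ_sum]
  refine (mul_le_mul_of_nonneg_left h4 (Real.sqrt_nonneg _)).trans (le_of_eq ?_)
  have h5 : Real.sqrt ((1 / 9 : ℝ) ^ (Multiset.card Φ) * mult Φ) =
      (1 / 3 : ℝ) ^ (Multiset.card Φ) * Real.sqrt (mult Φ) := by
    rw [Real.sqrt_mul (by positivity)]
    congr 1
    have : (1 / 9 : ℝ) ^ (Multiset.card Φ) = ((1 / 3 : ℝ) ^ (Multiset.card Φ)) ^ 2 := by
      rw [← pow_mul, mul_comm, pow_mul]
      norm_num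
    rw [this, Real.sqrt_sq (by positivity)]
  rw [h5]
  have h6 : (1 / 3 : ℝ) ^ (Multiset.card Φ) * (3 : ℝ) ^ (Multiset.card Φ) = 1 := by
    rw [← mul_pow]
    norm_num
  calc (1 / 3 : ℝ) ^ (Multiset.card Φ) * Real.sqrt (mult Φ) *
        ((Φ.map (fun b => ∑ β ∈ K, m b β)).prod * (3 : ℝ) ^ (Multiset.card Φ))
      = ((1 / 3 : ℝ) ^ (Multiset.card Φ) * (3 : ℝ) ^ (Multiset.card Φ)) *
          (Real.sqrt (mult Φ) * (Φ.map (fun b => ∑ β ∈ K, m b β)).prod) := by ring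
    _ = Real.sqrt (mult Φ) * (Φ.map (fun b => ∑ β ∈ K, m b β)).prod := by rw [h6, one_mul]

end Vale.Agent.Lib.P064.Forest
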