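import Vale.Agent.Lib.P064.Forest.Defs

/-!
P064 forests, module F9 (set-structures: rooted trees on a vertex set `U`, without any order on
the children).  `St U h`: a structure of height `≤ h` is a root together with a FINSET of
structures of height `≤ h - 1`.  No validity (distinctness of the vertices) is built in.

All lemmas are straightforward inductions on `h` (in the successor case start with
`rintro ⟨r, C⟩` or `intro (T : U × Finset (St U h))`, and use `show`/`change` to unfold the
definitions, which all reduce by `rfl`).
-/

open Finset
open scoped Classical Nat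

universe u v

namespace Vale.Agent.Lib.P064.Forest

/-- set-structures of height at most `h` on the vertex set `U` -/
def St (U : Type u) : ℕ → Type u
  | 0 => U
  | h + 1 => U × Finset (St U h)

namespace St

variable {U : Type u} {U' : Type v}

def root : (h : ℕ) → St U h → U
  | 0, x => x
  | _ + 1, T => T.1

noncomputable def typ : (h : ℕ) → St U h → RT h
  | 0, _ => ()
  | h + 1, T => (T.2 : Finset (St U h)).val.map (typ h)

noncomputable def verts : (h : ℕ) → St U h → Finset U
  | 0, x => {x}
  | h + 1, T => insert T.1 ((T.2 : Finset (St U h)).biUnion (verts h))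

/-- the (parent, child) pairs -/
noncomputable def arcs : (h : ℕ) → St U h → Finset (U × U)
  | 0, _ => ∅
  | h + 1, T => (T.2 : Finset (St U h)).biUnion (fun T' => insert (T.1, root h T') (arcs h T'))

noncomputable def map (f : U → U') : (h : ℕ) → St U h → St U' h
  | 0, x => f x
  | h + 1, T => (f T.1, (T.2 : Finset (St U h)).image (map f h))

noncomputable instance instFintype [Fintype U] : (h : ℕ) → Fintype (St U h)
  | 0 => inferInstanceAs (Fintype U)
  | h + 1 => by
      haveI := instFintype h
      exact inferInstanceAs (Fintype (U × Finset (St U h)))

lemma root_mem_verts (h : ℕ) (T : St U h) : root h T ∈ verts h T := by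
  cases h with
  | zero => exact Finset.mem_singleton_self _
  | succ h => exact Finset.mem_insert_self _ _

lemma root_map (f : U → U') (h : ℕ) (T : St U h) : root h (map f h T) = f (root h T) := by
  cases h with
  | zero => rfl
  | succ h => rfl

lemma map_injective (f : U → U') (hf : Function.Injective f) (h : ℕ) :
    Function.Injective (map f h) := by
  induction h with
  | zero => exact hf
  | succ h ih =>
    rintro ⟨r, C⟩ ⟨r', C'⟩ hEq
    have h1 : f r = f r' := congrArg Prod.fst hEq
    have h2 : C.image (map f h) = C'.image (map f h) := congrArg Prod.snd hEq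
    have h3 : r = r' := hf h1
    have h4 : C = C' := Finset.image_injective ih h2
    subst h3
    subst h4
    rfl

lemma typ_map (f : U → U') (hf : Function.Injective f) (h : ℕ) (T : St U h) :
    typ h (map f h T) = typ h T := by
  induction h with
  | zero => rfl
  | succ h ih =>
    obtain ⟨r, C⟩ := T
    change (C.image (map f h)).val.map (typ h) = C.val.map (typ h)
    rw [Finset.image_val_of_injOn ((map_injective f hf h).injOn), Multiset.map_map]
    exact Multiset.map_congr rfl (fun x _ => ih x)

lemma verts_map (f : U → U') (h : ℕ) (T : St U h) :
    verts h (map f h T) = (verts h T).image f := by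
  induction h with
  | zero => exact (Finset.image_singleton f _).symm
  | succ h ih =>
    obtain ⟨r, C⟩ := T
    change insert (f r) ((C.image (map f h)).biUnion (verts h)) =
      (insert r (C.biUnion (verts h))).image f
    rw [Finset.image_insert, Finset.image_biUnion, Finset.biUnion_image]
    congr 1
    exact Finset.biUnion_congr rfl (fun x _ => ih x)

lemma arcs_map (f : U → U') (h : ℕ) (T : St U h) :
    arcs h (map f h T) = (arcs h T).image (Prod.map f f) := by
  induction h with
  | zero => exact (Finset.image_empty _).symm
  | succ h ih =>
    obtain ⟨r, C⟩ := T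
    change (C.image (map f h)).biUnion (fun T' => insert (f r, root h T') (arcs h T')) =
      (C.biUnion (fun T' => insert (r, root h T') (arcs h T'))).image (Prod.map f f)
    rw [Finset.image_biUnion, Finset.biUnion_image]
    refine Finset.biUnion_congr rfl (fun x _ => ?_)
    rw [Finset.image_insert, ih x, root_map]
    rfl

/-- a structure all of whose vertices lie in `A` comes from a structure on the subtype -/
lemma exists_restrict (A : Set U) (h : ℕ) (T : St U h) (hT : ∀ z ∈ verts h T, z ∈ A) :
    ∃ T' : St A h, map (Subtype.val : A → U) h T' = T := by
  induction h with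
  | zero => exact ⟨(⟨T, hT T (Finset.mem_singleton_self _)⟩ : A), rfl⟩
  | succ h ih =>
    obtain ⟨r, C⟩ := T
    have hr : r ∈ A := hT r (Finset.mem_insert_self _ _)
    have hC : ∀ T1 ∈ C, ∃ T' : St A h, map (Subtype.val : A → U) h T' = T1 := by
      intro T1 hT1
      refine ih T1 (fun z hz => hT z ?_)
      exact Finset.mem_insert_of_mem (Finset.mem_biUnion.mpr ⟨T1, hT1, hz⟩)
    choose s hs using hC
    refine ⟨((⟨r, hr⟩ : A), C.attach.image (fun x => s x.1 x.2)), ?_⟩
    change ((r : U), (C.attach.image (fun x => s x.1 x.2)).image
      (map (Subtype.val : A → U) h)) = (r, C)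
    congr 1
    rw [Finset.image_image]
    ext x
    simp only [Finset.mem_image, Function.comp, Finset.mem_attach, true_and]
    constructor
    · rintro ⟨y, rfl⟩
      rw [hs y.1 y.2]
      exact y.2
    · intro hx
      exact ⟨⟨x, hx⟩, hs x hx⟩

end St

/-- number of structures of type `B` on `Fin n` -/
noncomputable def cardTyp (n h : ℕ) (B : RT h) : ℕ :=
  (univ.filter (fun T : St (Fin n) h => St.typ h T = B)).card

end Vale.Agent.Lib.P064.Forest
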