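import Vale.Agent.Lib.P064.Forest.Core
import Vale.Agent.Lib.P064.Forest.Catalan
import Vale.Agent.Lib.P064.Forest.PackCount
import Vale.Agent.Lib.P064.Forest.Copies

/-!
P064 forests, module F19: the number of labelled copies of a tree in a closed forest.
-/

open Finset SimpleGraph
open scoped Classical Nat

namespace Vale.Agent.Lib.P064.Forest

lemma sum_sq_le_sq_sum {α : Type*} (s : Finset α) (f : α → ℝ) (hf : ∀ a, 0 ≤ f a) :
    ∑ a ∈ s, (f a) ^ 2 ≤ (∑ a ∈ s, f a) ^ 2 := by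
  rw [sq, Finset.sum_mul]
  refine Finset.sum_le_sum (fun a ha => ?_)
  rw [sq]
  exact mul_le_mul_of_nonneg_left (Finset.single_le_sum (fun b _ => hf b) ha) (hf a)

theorem sum_D_le {V : Type*} [Fintype V] [DecidableEq V] (n : ℕ) (hn : 0 < n)
    (H : SimpleGraph V) (R : Rooting H) (q : ℝ) (hq0 : 0 < q) (hq1 : q ≤ 1)
    (hH : ∀ K : H.Subgraph,
      1 ≤ ((⊤ : SimpleGraph (Fin n)).copyCount K.coe : ℝ) * q ^ K.coe.edgeSet.ncard)
    (h : ℕ) (Φ : RT h) :
    ∑ x, D R.ch h Φ x ≤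
      (Lc * (n * q)) ^ (size h Φ - 1) * (((h : ℝ) + 1) * (Real.exp 1 * n)) *
        (4 ^ size h Φ / 2) := by
  have hnR : (0 : ℝ) < n := by exact_mod_cast hn
  have hc : (0 : ℝ) < n * q := mul_pos hnR hq0
  have hL := Lc_pos
  set N := Fintype.card V with hNdef
  have hN : ∀ x, (R.ch x).card ≤ N := fun x => Finset.card_le_univ _
  have h1 : ∑ x, D R.ch h Φ x ≤ ∑ x, (Lc * (n * q)) ^ (size h Φ - 1) *
      ∑ B ∈ (U N h).filter (fun B => Emb R.ch h B x), (mu N h Φ B) ^ 2 / w (n * q) h B :=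
    Finset.sum_le_sum (fun x _ => core (n * q) hc N R.ch hN h Φ x)
  have h2 : ∑ x, ∑ B ∈ (U N h).filter (fun B => Emb R.ch h B x),
        (mu N h Φ B) ^ 2 / w (n * q) h B
      = ∑ B ∈ U N h, ((univ.filter (fun x => Emb R.ch h B x)).card : ℝ) *
          ((mu N h Φ B) ^ 2 / w (n * q) h B) := by
    simp only [Finset.sum_filter]
    rw [Finset.sum_comm]
    refine Finset.sum_congr rfl (fun B _ => ?_)
    rw [← Finset.sum_filter, Finset.sum_const, nsmul_eq_mul]
  have h3 : ∑ B ∈ U N h, ((univ.filter (fun x => Emb R.ch h B x)).card : ℝ) *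
          ((mu N h Φ B) ^ 2 / w (n * q) h B)
      ≤ ∑ B ∈ U N h, (((h : ℝ) + 1) * (Real.exp 1 * n)) * (mu N h Φ B) ^ 2 := by
    refine Finset.sum_le_sum (fun B _ => ?_)
    have hw := w_pos (n * q) hc h B
    have hA := card_emb_le n H R q hq0 hq1 hH h B
    calc ((univ.filter (fun x => Emb R.ch h B x)).card : ℝ) *
          ((mu N h Φ B) ^ 2 / w (n * q) h B)
        ≤ (((h : ℝ) + 1) * (Real.exp 1 * (n * w (n * q) h B))) *
          ((mu N h Φ B) ^ 2 / w (n * q) h B) :=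
          mul_le_mul_of_nonneg_right hA (by positivity)
      _ = (((h : ℝ) + 1) * (Real.exp 1 * n)) * (mu N h Φ B) ^ 2 := by
          field_simp
  have h4 : ∑ B ∈ U N h, (mu N h Φ B) ^ 2 ≤ 4 ^ size h Φ / 2 := by
    refine (sum_sq_le_sq_sum _ _ (mu_nonneg N h Φ)).trans ?_
    have h5 := mu_sum N h Φ
    have h6 : 0 ≤ ∑ B ∈ U N h, mu N h Φ B := Finset.sum_nonneg (fun B _ => mu_nonneg N h Φ B)
    calc (∑ B ∈ U N h, mu N h Φ B) ^ 2 ≤ (Real.sqrt (P h Φ)) ^ 2 :=
          pow_le_pow_left₀ h6 h5 2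
      _ = P h Φ := Real.sq_sqrt (P_nonneg h Φ)
      _ ≤ 4 ^ size h Φ / 2 := P_le h Φ
  calc ∑ x, D R.ch h Φ x
      ≤ (Lc * (n * q)) ^ (size h Φ - 1) * ∑ x, ∑ B ∈ (U N h).filter (fun B => Emb R.ch h B x),
          (mu N h Φ B) ^ 2 / w (n * q) h B := by
        rw [Finset.mul_sum]; exact h1
    _ ≤ (Lc * (n * q)) ^ (size h Φ - 1) *
          ((((h : ℝ) + 1) * (Real.exp 1 * n)) * ∑ B ∈ U N h, (mu N h Φ B) ^ 2) := by
        rw [h2, Finset.mul_sum (a := (((h : ℝ) + 1) * (Real.exp 1 * n)))]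
        exact mul_le_mul_of_nonneg_left h3 (by positivity)
    _ ≤ (Lc * (n * q)) ^ (size h Φ - 1) *
          ((((h : ℝ) + 1) * (Real.exp 1 * n)) * (4 ^ size h Φ / 2)) := by
        refine mul_le_mul_of_nonneg_left ?_ (by positivity)
        exact mul_le_mul_of_nonneg_left h4 (by positivity)
    _ = _ := by ring

lemma numeric_k (k : ℕ) (hk : 2 ≤ k) :
    (k : ℝ) * ((k : ℝ) + 1) * Real.exp 1 * (4 ^ k / 2) ≤ 131 ^ (k - 1) := by
  have he : Real.exp 1 < 2.7182818286 := Real.exp_one_lt_d9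
  have he0 : 0 < Real.exp 1 := Real.exp_pos 1
  induction k, hk using Nat.le_induction with
  | base =>
    norm_num
    linarith
  | succ k hk ih =>
    have hk' : (2 : ℝ) ≤ k := by exact_mod_cast hk
    have e1 : k + 1 - 1 = (k - 1) + 1 := by omega
    rw [e1, pow_succ, pow_succ]
    push_cast
    have hpos : 0 < (k : ℝ) * ((k : ℝ) + 1) * Real.exp 1 * (4 ^ k / 2) := by positivity
    have h1 : ((k : ℝ) + 1) * ((k : ℝ) + 1 + 1) * Real.exp 1 * (4 ^ k * 4 / 2)
        ≤ ((k : ℝ) * ((k : ℝ) + 1) * Real.exp 1 * (4 ^ k / 2)) * 131 := by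
      have h2 : ((k : ℝ) + 1 + 1) * 4 ≤ k * 131 := by linarith
      have h3 : 0 ≤ ((k : ℝ) + 1) * Real.exp 1 * (4 ^ k / 2) := by positivity
      calc ((k : ℝ) + 1) * ((k : ℝ) + 1 + 1) * Real.exp 1 * (4 ^ k * 4 / 2)
          = (((k : ℝ) + 1 + 1) * 4) * (((k : ℝ) + 1) * Real.exp 1 * (4 ^ k / 2)) := by ring
        _ ≤ (k * 131) * (((k : ℝ) + 1) * Real.exp 1 * (4 ^ k / 2)) :=
            mul_le_mul_of_nonneg_right h2 h3
        _ = _ := by ring
    exact h1.trans (mul_le_mul_of_nonneg_right ih (by norm_num))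

/-- the universal constant of the tree count -/
noncomputable def Lt : ℝ := 131 * Lc

theorem tree_count {V W : Type*} [Fintype V] [Fintype W] (n : ℕ) (H : SimpleGraph V)
    (hHa : H.IsAcyclic) (hV : Fintype.card V ≤ n) (q : ℝ) (hq0 : 0 ≤ q) (hq1 : q ≤ 1)
    (hH : ∀ K : H.Subgraph,
      1 ≤ ((⊤ : SimpleGraph (Fin n)).copyCount K.coe : ℝ) * q ^ K.coe.edgeSet.ncard)
    (F : SimpleGraph W) (hF : F.Connected) (hk : 2 ≤ Fintype.card W) :
    (Fintype.card (Copy F H) : ℝ) ≤ (n : ℝ) ^ Fintype.card W * (Lt * q) ^ F.edgeSet.ncard := by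
  have hL := Lc_pos
  have hLt : 0 < Lt := by unfold Lt; positivity
  rcases isEmpty_or_nonempty (Copy F H) with hemp | hne
  · rw [Fintype.card_eq_zero]
    simp only [Nat.cast_zero]
    positivity
  obtain ⟨f⟩ := hne
  have hFa : F.IsAcyclic := hHa.comap f.toHom f.injective
  have hTree : F.IsTree := ⟨hF, hFa⟩
  have hedges : F.edgeSet.ncard + 1 = Fintype.card W := by
    have := hTree.card_edgeFinset
    rw [← this, ← coe_edgeFinset, Set.ncard_coe_finset]
  obtain ⟨w0⟩ := hF.nonempty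
  have hn : 0 < n := lt_of_lt_of_le (Fintype.card_pos_iff.2 ⟨f w0⟩) hV
  have hnR : (0 : ℝ) < n := by exact_mod_cast hn
  -- q is positive
  have hqpos : 0 < q := by
    rcases eq_or_lt_of_le hq0 with h0 | h
    swap
    · exact h
    exfalso
    have hW : Nontrivial W := Fintype.one_lt_card_iff_nontrivial.1 (by omega)
    obtain ⟨w1, hw1⟩ := exists_ne w0
    obtain ⟨w2, hw2⟩ := hF.preconnected.exists_adj_of_nontrivial w0
    have hab : H.Adj (f w0) (f w2) := f.toHom.map_adj hw2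
    have h1 := hH ⊤
    have hedge : (⊤ : H.Subgraph).coe.edgeSet.ncard ≠ 0 := by
      intro hz
      have hfin : ((⊤ : H.Subgraph).coe.edgeSet).Finite := Set.toFinite _
      rw [Set.ncard_eq_zero hfin] at hz
      have : s(⟨f w0, trivial⟩, ⟨f w2, trivial⟩) ∈ (⊤ : H.Subgraph).coe.edgeSet := by
        rw [mem_edgeSet]
        exact hab
      rw [hz] at this
      exact this
    rw [← h0, zero_pow hedge, mul_zero] at h1
    linarith
  obtain ⟨R, -⟩ := exists_rooting H hHa (f w0)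
  obtain ⟨Φ, hsize, hcount⟩ := card_copy_le F hF hFa H R
  have hbound : ∀ r : W, ∑ x : V, D R.ch (Fintype.card W) (Φ r) x ≤
      (Lc * (n * q)) ^ (Fintype.card W - 1) *
        (((Fintype.card W : ℝ) + 1) * (Real.exp 1 * n)) * (4 ^ (Fintype.card W) / 2) := by
    intro r
    have := sum_D_le n hn H R q hqpos hq1 hH (Fintype.card W) (Φ r)
    rwa [hsize r] at this
  have hnum := numeric_k (Fintype.card W) hk
  have hek : F.edgeSet.ncard = Fintype.card W - 1 := by omega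
  calc (Fintype.card (Copy F H) : ℝ)
      ≤ ∑ r : W, ∑ x : V, D R.ch (Fintype.card W) (Φ r) x := hcount
    _ ≤ ∑ _r : W, (Lc * (n * q)) ^ (Fintype.card W - 1) *
        (((Fintype.card W : ℝ) + 1) * (Real.exp 1 * n)) * (4 ^ (Fintype.card W) / 2) :=
        Finset.sum_le_sum (fun r _ => hbound r)
    _ = ((Fintype.card W : ℝ) * ((Fintype.card W : ℝ) + 1) * Real.exp 1 *
          (4 ^ (Fintype.card W) / 2)) * (n * (Lc * (n * q)) ^ (Fintype.card W - 1)) := by
        rw [Finset.sum_const, Finset.card_univ, nsmul_eq_mul]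
        ring
    _ ≤ 131 ^ (Fintype.card W - 1) * (n * (Lc * (n * q)) ^ (Fintype.card W - 1)) :=
        mul_le_mul_of_nonneg_right hnum (by positivity)
    _ = (n : ℝ) ^ Fintype.card W * (Lt * q) ^ F.edgeSet.ncard := by
        rw [hek]
        have : (n : ℝ) ^ Fintype.card W = n * n ^ (Fintype.card W - 1) := by
          rw [← pow_succ', Nat.sub_add_cancel (by omega)]
        rw [this]
        unfold Lt
        simp only [mul_pow]
        ring

end Vale.Agent.Lib.P064.Forest
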